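import Mathlib

namespace Vale.Agent.Lib.P066

open Finset

variable {B : Type*} [CommRing B] {N : ℕ}

/-- switching product: `f` below index `k`, `g` from `k` on -/
def tel (f g : Fin N → B) (k : ℕ) : B := ∏ s : Fin N, if (s : ℕ) < k then f s else g s

/-- punctured switching product -/
def pun (f g : Fin N → B) (c : Fin N) : B :=
  ∏ s : Fin N, if s < c then f s else if s = c then 1 else g s

lemma tel_zero (f g : Fin N → B) : tel f g 0 = ∏ s, g s := by simp [tel]

lemma tel_top (f g : Fin N → B) : tel f g N = ∏ s, f s := by simp [tel]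

lemma pun_eq_erase (f g : Fin N → B) (c : Fin N) :
    pun f g c = ∏ s ∈ univ.erase c, if s < c then f s else g s := by
  unfold pun
  rw [← Finset.prod_erase_mul _ _ (Finset.mem_univ c)]
  simp only [lt_self_iff_false, if_false, if_true, mul_one]
  apply Finset.prod_congr rfl
  intro s hs
  have hne : s ≠ c := Finset.ne_of_mem_erase hs
  simp [hne]

lemma tel_eq (f g : Fin N → B) (c : Fin N) : tel f g c = pun f g c * g c := by
  rw [pun_eq_erase]
  unfold tel
  rw [← Finset.prod_erase_mul _ _ (Finset.mem_univ c)]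
  simp only [lt_self_iff_false, if_false]
  congr 1

lemma tel_succ (f g : Fin N → B) (c : Fin N) : tel f g (c + 1) = pun f g c * f c := by
  rw [pun_eq_erase]
  unfold tel
  rw [← Finset.prod_erase_mul _ _ (Finset.mem_univ c)]
  simp only [Nat.lt_succ_self, if_true]
  congr 1
  apply Finset.prod_congr rfl
  intro s hs
  have hne : s ≠ c := Finset.ne_of_mem_erase hs
  have : ((s : ℕ) < (c : ℕ) + 1) ↔ s < c := by
    rw [Nat.lt_succ_iff, Fin.lt_def]
    constructor
    · intro h
      exact lt_of_le_of_ne h (fun h' => hne (Fin.ext h'))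
    · exact le_of_lt
  simp only [this]

lemma pun_mul_sub (f g : Fin N → B) (c : Fin N) :
    pun f g c * (g c - f c) = tel f g c - tel f g (c + 1) := by
  rw [tel_eq, tel_succ]; ring

lemma sum_range_Ico_tel (T : ℕ → B) (lo : ℕ) :
    ∀ hi, lo ≤ hi → hi ≤ N →
      ∑ i ∈ range N, (if lo ≤ i ∧ i < hi then T i - T (i + 1) else 0) = T lo - T hi := by
  intro hi hlo
  induction hi, hlo using Nat.le_induction with
  | base =>
    intro _
    rw [sub_self]
    apply Finset.sum_eq_zero
    intro i _
    rw [if_neg]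
    omega
  | succ hi hlo ih =>
    intro hN
    have h1 : ∀ i, (if lo ≤ i ∧ i < hi + 1 then T i - T (i + 1) else 0)
        = (if lo ≤ i ∧ i < hi then T i - T (i + 1) else 0)
          + (if i = hi then T hi - T (hi + 1) else 0) := by
      intro i
      by_cases h : i = hi
      · subst h
        rw [if_pos ⟨hlo, Nat.lt_succ_self _⟩, if_neg (fun h3 => lt_irrefl _ h3.2), if_pos rfl,
          zero_add]
      · by_cases h2 : lo ≤ i ∧ i < hi
        · rw [if_pos ⟨h2.1, Nat.lt_succ_of_lt h2.2⟩, if_pos h2, if_neg h, add_zero]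
        · have h3 : ¬ (lo ≤ i ∧ i < hi + 1) := by
            intro h3; apply h2; exact ⟨h3.1, by omega⟩
          rw [if_neg h3, if_neg h2, if_neg h, add_zero]
    simp only [h1]
    rw [Finset.sum_add_distrib, ih (by omega), Finset.sum_ite_eq' (range N) hi]
    have : hi ∈ range N := by simp; omega
    simp only [this, if_true]
    ring

/-- telescoping of punctured products over an initial segment -/
lemma sum_pun_Ico (f g : Fin N → B) (lo hi : ℕ) (hlo : lo ≤ hi) (hhi : hi ≤ N) :
    ∑ c : Fin N, (if lo ≤ (c : ℕ) ∧ (c : ℕ) < hi then pun f g c * (g c - f c) else 0)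
      = tel f g lo - tel f g hi := by
  have h := sum_range_Ico_tel (N := N) (tel f g) lo hi hlo hhi
  rw [← h, ← Fin.sum_univ_eq_sum_range
    (fun i => if lo ≤ i ∧ i < hi then tel f g i - tel f g (i + 1) else 0) N]
  apply Finset.sum_congr rfl
  intro c _
  rw [pun_mul_sub]

/-- full telescoping -/
lemma sum_pun (f g : Fin N → B) :
    ∑ c : Fin N, pun f g c * (g c - f c) = (∏ s, g s) - ∏ s, f s := by
  have h := sum_pun_Ico f g 0 N (Nat.zero_le _) le_rfl
  rw [tel_zero, tel_top] at h
  rw [← h]
  apply Finset.sum_congr rfl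
  intro c _
  simp

/-- telescoping below `c'` -/
lemma sum_pun_lt (f g : Fin N → B) (c' : Fin N) :
    ∑ c : Fin N, (if c < c' then pun f g c * (g c - f c) else 0)
      = (∏ s, g s) - tel f g c' := by
  have h := sum_pun_Ico f g 0 c' (Nat.zero_le _) (le_of_lt c'.isLt)
  rw [tel_zero] at h
  rw [← h]
  apply Finset.sum_congr rfl
  intro c _
  simp

/-- telescoping above `c'` -/
lemma sum_pun_gt (f g : Fin N → B) (c' : Fin N) :
    ∑ c : Fin N, (if c' < c then pun f g c * (g c - f c) else 0)
      = tel f g (c' + 1) - ∏ s, f s := by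
  have h := sum_pun_Ico f g (c' + 1) N (Nat.succ_le_of_lt c'.isLt) le_rfl
  rw [tel_top] at h
  rw [← h]
  apply Finset.sum_congr rfl
  intro c _
  simp [Nat.succ_le_iff]

end Vale.Agent.Lib.P066
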