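import Mathlib
import Vale.Agent.Lib.P066.Tele

namespace Vale.Agent.Lib.P066

open Finset Polynomial

variable {A : Type*} [CommRing A] {N : ℕ}

/-- edge weight: `0` on equal colours, `q` on an ascent, `1` on a descent -/
def ew (q : A) (a b : Fin N) : A := if a = b then 0 else if a < b then q else 1

lemma ew_lt {q : A} {a b : Fin N} (h : a < b) : ew q a b = q := by
  simp [ew, h, ne_of_lt h]

lemma ew_gt {q : A} {a b : Fin N} (h : b < a) : ew q a b = 1 := by
  simp [ew, ne_of_gt h, not_lt_of_gt h]

lemma ew_self (q : A) (a : Fin N) : ew q a a = 0 := by simp [ew]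

/-- generating polynomial of the elementary symmetric polynomials of the values of `y` -/
noncomputable def gp (y : Fin N → A) : A[X] := ∏ s, (1 + C (y s) * X)

/-- elementary symmetric polynomial of the values of `y` -/
noncomputable def es (y : Fin N → A) (k : ℕ) : A := (gp y).coeff k

/-- `q`-integer -/
def gs (q : A) (k : ℕ) : A := ∑ j ∈ range k, q ^ j

/-- `q`-factorial -/
def qf (q : A) : ℕ → A
  | 0 => 1
  | n + 1 => qf q n * gs q (n + 1)

lemma gs_mul (q : A) (k : ℕ) : (1 - q) * gs q k = 1 - q ^ k := mul_neg_geom_sum q k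

lemma gs_mul' (q : A) (k : ℕ) : (q - 1) * gs q k = q ^ k - 1 := mul_geom_sum q k

lemma gs_succ (q : A) (k : ℕ) : gs q (k + 1) = gs q k + q ^ k := Finset.sum_range_succ _ _

@[simp] lemma gs_zero (q : A) : gs q 0 = 0 := by simp [gs]

@[simp] lemma gs_one (q : A) : gs q 1 = 1 := by simp [gs]

@[simp] lemma qf_zero (q : A) : qf q 0 = 1 := rfl

lemma qf_succ (q : A) (n : ℕ) : qf q (n + 1) = qf q n * gs q (n + 1) := rfl

lemma es_zero (y : Fin N → A) : es y 0 = 1 := by
  unfold es gp
  rw [Polynomial.coeff_zero_eq_eval_zero, Polynomial.eval_prod]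
  simp

lemma gp_smul (r : A) (y : Fin N → A) : gp (fun s => r * y s) = (gp y).comp (C r * X) := by
  unfold gp
  rw [Polynomial.prod_comp]
  apply Finset.prod_congr rfl
  intro s _
  simp only [add_comp, one_comp, mul_comp, C_comp, X_comp, C_mul]
  ring

lemma es_smul (r : A) (y : Fin N → A) (k : ℕ) : es (fun s => r * y s) k = r ^ k * es y k := by
  unfold es
  rw [gp_smul, comp_C_mul_X_coeff, mul_comm]

lemma gp_pun (a b : A) (y : Fin N → A) (c : Fin N) :
    gp (fun s => if s < c then a * y s else if s = c then 0 else b * y s)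
      = pun (fun s => 1 + C (a * y s) * X) (fun s => 1 + C (b * y s) * X) c := by
  unfold gp pun
  apply Finset.prod_congr rfl
  intro s _
  by_cases h1 : s < c
  · simp [h1]
  · by_cases h2 : s = c
    · simp [h2]
    · simp [h1, h2]

lemma wt_fst (q : A) (y : Fin N → A) (c : Fin N) :
    (fun s => y s * ew q c s)
      = (fun s => if s < c then 1 * y s else if s = c then 0 else q * y s) := by
  funext s
  rcases lt_trichotomy s c with h | h | h
  · rw [if_pos h, ew_gt h, mul_one, one_mul]
  · subst h
    rw [if_neg (lt_irrefl _), if_pos rfl, ew_self, mul_zero]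
  · rw [if_neg (not_lt_of_gt h), if_neg (ne_of_gt h), ew_lt h, mul_comm]

lemma wt_snd (q : A) (y : Fin N → A) (c : Fin N) :
    (fun s => y s * ew q s c)
      = (fun s => if s < c then q * y s else if s = c then 0 else 1 * y s) := by
  funext s
  rcases lt_trichotomy s c with h | h | h
  · rw [if_pos h, ew_lt h, mul_comm]
  · subst h
    rw [if_neg (lt_irrefl _), if_pos rfl, ew_self, mul_zero]
  · rw [if_neg (not_lt_of_gt h), if_neg (ne_of_gt h), ew_gt h, mul_one, one_mul]

lemma coeff_mul_C_mul_X (p : A[X]) (a : A) (m : ℕ) :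
    (p * (C a * X)).coeff (m + 1) = a * p.coeff m := by
  rw [show p * (C a * X) = C a * (p * X) by ring, coeff_C_mul, coeff_mul_X]

lemma gp_one_mul (y : Fin N → A) : (∏ s, (1 + C (1 * y s) * X)) = gp y := by
  unfold gp; simp

lemma gp_q_mul (q : A) (y : Fin N → A) : (∏ s, (1 + C (q * y s) * X)) = gp (fun s => q * y s) := rfl

/-- symmetrisation identity -/
theorem symS [IsDomain A] {q : A} (hq1 : q ≠ 1) (y : Fin N → A) (m : ℕ) :
    ∑ c, y c * es (fun s => y s * ew q c s) m = gs q (m + 1) * es y (m + 1) := by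
  set f : Fin N → A[X] := fun s => 1 + C (1 * y s) * X with hf
  set g : Fin N → A[X] := fun s => 1 + C (q * y s) * X with hg
  have hP : ∀ c, gp (fun s => y s * ew q c s) = pun f g c := by
    intro c; rw [wt_fst, gp_pun]
  have hd : ∀ c, g c - f c = C ((q - 1) * y c) * X := by
    intro c; simp only [hf, hg, C_mul, C_sub, C_1]; ring
  have htel := sum_pun f g
  have h1 : (∏ s, g s) = gp (fun s => q * y s) := rfl
  have h2 : (∏ s, f s) = gp y := gp_one_mul y
  rw [h1, h2] at htel
  have hc := congrArg (fun p : A[X] => p.coeff (m + 1)) htel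
  simp only [finsetSum_coeff, coeff_sub, hd, coeff_mul_C_mul_X] at hc
  have hc2 : (q - 1) * ∑ c, y c * es (fun s => y s * ew q c s) m
      = (q - 1) * (gs q (m + 1) * es y (m + 1)) := by
    rw [← mul_assoc, gs_mul', Finset.mul_sum]
    have : (q ^ (m + 1) - 1) * es y (m + 1)
        = (gp fun s => q * y s).coeff (m + 1) - (gp y).coeff (m + 1) := by
      show _ = es (fun s => q * y s) (m + 1) - es y (m + 1)
      rw [es_smul]; ring
    rw [this, ← hc]
    apply Finset.sum_congr rfl
    intro c _
    unfold es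
    rw [hP]; ring
  exact mul_left_cancel₀ (sub_ne_zero.mpr hq1) hc2

/-- symmetrisation identity, reversed orientation -/
theorem symI [IsDomain A] {q : A} (hq1 : q ≠ 1) (x : Fin N → A) (t : ℕ) :
    ∑ c, x c * es (fun s => x s * ew q s c) t = gs q (t + 1) * es x (t + 1) := by
  set f : Fin N → A[X] := fun s => 1 + C (q * x s) * X with hf
  set g : Fin N → A[X] := fun s => 1 + C (1 * x s) * X with hg
  have hP : ∀ c, gp (fun s => x s * ew q s c) = pun f g c := by
    intro c; rw [wt_snd, gp_pun]
  have hd : ∀ c, g c - f c = C ((1 - q) * x c) * X := by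
    intro c; simp only [hf, hg, C_mul, C_sub, C_1]; ring
  have htel := sum_pun f g
  have h1 : (∏ s, f s) = gp (fun s => q * x s) := rfl
  have h2 : (∏ s, g s) = gp x := gp_one_mul x
  rw [h1, h2] at htel
  have hc := congrArg (fun p : A[X] => p.coeff (t + 1)) htel
  simp only [finsetSum_coeff, coeff_sub, hd, coeff_mul_C_mul_X] at hc
  have hc2 : (1 - q) * ∑ c, x c * es (fun s => x s * ew q s c) t
      = (1 - q) * (gs q (t + 1) * es x (t + 1)) := by
    rw [← mul_assoc, gs_mul, Finset.mul_sum]
    have : (1 - q ^ (t + 1)) * es x (t + 1)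
        = (gp x).coeff (t + 1) - (gp fun s => q * x s).coeff (t + 1) := by
      show _ = es x (t + 1) - es (fun s => q * x s) (t + 1)
      rw [es_smul]; ring
    rw [this, ← hc]
    apply Finset.sum_congr rfl
    intro c _
    unfold es
    rw [hP]; ring
  have hne : (1 : A) - q ≠ 0 := sub_ne_zero.mpr (Ne.symm hq1)
  exact mul_left_cancel₀ hne hc2

/-- weighted symmetrisation identity (first vertex weighted by `ew q c' ·`) -/
theorem symS' [IsDomain A] {q : A} (hq1 : q ≠ 1) (y : Fin N → A) (c' : Fin N) (m : ℕ) :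
    ∑ c, y c * ew q c' c * es (fun s => y s * ew q c s) m
      = q * gs q m * es y (m + 1) + es (fun s => y s * ew q c' s) (m + 1) := by
  set f : Fin N → A[X] := fun s => 1 + C (1 * y s) * X with hf
  set g : Fin N → A[X] := fun s => 1 + C (q * y s) * X with hg
  have hP : ∀ c, gp (fun s => y s * ew q c s) = pun f g c := by
    intro c; rw [wt_fst, gp_pun]
  have hd : ∀ c, g c - f c = C ((q - 1) * y c) * X := by
    intro c; simp only [hf, hg, C_mul, C_sub, C_1]; ring
  have hsplit : ∀ c, C (ew q c' c) * (pun f g c * (g c - f c))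
      = (if c < c' then pun f g c * (g c - f c) else 0)
        + C q * (if c' < c then pun f g c * (g c - f c) else 0) := by
    intro c
    rcases lt_trichotomy c c' with h | h | h
    · rw [if_pos h, if_neg (not_lt_of_gt h), ew_gt h]; simp
    · subst h; rw [if_neg (lt_irrefl _), ew_self]; simp
    · rw [if_neg (not_lt_of_gt h), if_pos h, ew_lt h]; simp
  have hfc : f c' = 1 + C (y c') * X := by simp only [hf, one_mul]
  have hgc : g c' = 1 + C q * C (y c') * X := by simp only [hg, C_mul]
  have hsum : ∑ c, C (ew q c' c) * (pun f g c * (g c - f c))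
      = gp (fun s => q * y s) - C q * gp y + C (q - 1) * pun f g c' := by
    simp only [hsplit]
    rw [Finset.sum_add_distrib, ← Finset.mul_sum, sum_pun_lt, sum_pun_gt, tel_eq, tel_succ]
    have h1 : (∏ s, g s) = gp (fun s => q * y s) := rfl
    have h2 : (∏ s, f s) = gp y := gp_one_mul y
    rw [h1, h2, hfc, hgc, C_sub, C_1]
    ring
  have hc := congrArg (fun p : A[X] => p.coeff (m + 1)) hsum
  simp only [finsetSum_coeff, coeff_sub, coeff_add, coeff_C_mul, hd, coeff_mul_C_mul_X] at hc
  have e1 : (gp fun s => q * y s).coeff (m + 1) = q ^ (m + 1) * es y (m + 1) := es_smul q y (m + 1)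
  have e2 : (pun f g c').coeff (m + 1) = es (fun s => y s * ew q c' s) (m + 1) := by
    unfold es; rw [hP]
  have e3 : (gp y).coeff (m + 1) = es y (m + 1) := rfl
  rw [e1, e2, e3] at hc
  have hc2 : (q - 1) * ∑ c, y c * ew q c' c * es (fun s => y s * ew q c s) m
      = (q - 1) * (q * gs q m * es y (m + 1) + es (fun s => y s * ew q c' s) (m + 1)) := by
    have h3 : (q - 1) * (q * gs q m * es y (m + 1) + es (fun s => y s * ew q c' s) (m + 1))
        = q ^ (m + 1) * es y (m + 1) - q * es y (m + 1)
          + (q - 1) * es (fun s => y s * ew q c' s) (m + 1) := by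
      have h4 := gs_mul' q m
      linear_combination (q * es y (m + 1)) * h4
    rw [h3, ← hc, Finset.mul_sum]
    apply Finset.sum_congr rfl
    intro c _
    unfold es
    rw [hP]; ring
  exact mul_left_cancel₀ (sub_ne_zero.mpr hq1) hc2

/-- mixed symmetrisation identity (later vertices weighted by `ew q · c₀`) -/
theorem symS'' [IsDomain A] {q : A} (hq0 : q ≠ 0) (hq1 : q ≠ 1) (y : Fin N → A) (c₀ : Fin N)
    (m : ℕ) :
    ∑ c, y c * es (fun s => y s * ew q s c₀ * ew q c s) m
      = gs q m * es (fun s => y s * ew q s c₀) (m + 1) + q ^ m * es y (m + 1) := by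
  set z : Fin N → A := fun s => y s * ew q s c₀ with hz
  set f : Fin N → A[X] := fun s => 1 + C (1 * z s) * X with hf
  set g : Fin N → A[X] := fun s => 1 + C (q * z s) * X with hg
  have hP : ∀ c, gp (fun s => z s * ew q c s) = pun f g c := by
    intro c; rw [wt_fst, gp_pun]
  have hd : ∀ c, g c - f c = C ((q - 1) * z c) * X := by
    intro c; simp only [hf, hg, C_mul, C_sub, C_1]; ring
  have hsplit : ∀ c, (C (y c) * pun f g c) * (C (q * (q - 1)) * X)
      = (if c < c₀ then pun f g c * (g c - f c) else 0)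
        + C q * (if c₀ < c then pun f g c * (g c - f c) else 0)
        + (if c = c₀ then (C (y c₀) * pun f g c₀) * (C (q * (q - 1)) * X) else 0) := by
    intro c
    rcases lt_trichotomy c c₀ with h | h | h
    · rw [if_pos h, if_neg (not_lt_of_gt h), if_neg (ne_of_lt h), hd]
      have hzc : z c = y c * q := by simp only [hz]; rw [ew_lt h]
      rw [hzc]; simp only [C_mul, C_sub, C_1]; ring
    · subst h; rw [if_neg (lt_irrefl _), if_pos rfl]; ring
    · rw [if_neg (not_lt_of_gt h), if_pos h, if_neg (ne_of_gt h), hd]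
      have hzc : z c = y c := by simp only [hz]; rw [ew_gt h, mul_one]
      rw [hzc]; simp only [C_mul, C_sub, C_1]; ring
  have hpun : pun f g c₀ * (1 + C (q * y c₀) * X) = gp (fun s => q * y s) := by
    rw [pun_eq_erase]
    unfold gp
    rw [← Finset.prod_erase_mul _ _ (Finset.mem_univ c₀)]
    congr 1
    apply Finset.prod_congr rfl
    intro s hs
    have hne : s ≠ c₀ := Finset.ne_of_mem_erase hs
    rcases lt_or_gt_of_ne hne with h | h
    · rw [if_pos h]; simp only [hf, hz]; rw [ew_lt h]; congr 2; ring_nf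
    · rw [if_neg (not_lt_of_gt h)]; simp only [hg, hz]; rw [ew_gt h]; congr 2; ring_nf
  have hz0 : z c₀ = 0 := by simp only [hz]; rw [ew_self, mul_zero]
  have hfc : f c₀ = 1 := by simp only [hf]; rw [hz0]; simp
  have hgc : g c₀ = 1 := by simp only [hg]; rw [hz0]; simp
  have hsum : (∑ c, C (y c) * pun f g c) * (C (q * (q - 1)) * X)
      = gp (fun s => q * z s) - C q * gp z + C (q - 1) * gp (fun s => q * y s) := by
    rw [Finset.sum_mul, Finset.sum_congr rfl (fun c _ => hsplit c)]
    rw [Finset.sum_add_distrib, Finset.sum_add_distrib, ← Finset.mul_sum, sum_pun_lt,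
      sum_pun_gt, tel_eq, tel_succ, Finset.sum_ite_eq' univ c₀, if_pos (Finset.mem_univ _)]
    have h1 : (∏ s, g s) = gp (fun s => q * z s) := rfl
    have h2 : (∏ s, f s) = gp z := gp_one_mul z
    rw [h1, h2, hfc, hgc, ← hpun]
    simp only [C_mul, C_sub, C_1]
    ring
  have hc := congrArg (fun p : A[X] => p.coeff (m + 1)) hsum
  simp only [finsetSum_coeff, coeff_sub, coeff_add, coeff_C_mul, coeff_mul_C_mul_X] at hc
  have e1 : (gp fun s => q * z s).coeff (m + 1) = q ^ (m + 1) * es z (m + 1) := es_smul q z (m + 1)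
  have e2 : (gp fun s => q * y s).coeff (m + 1) = q ^ (m + 1) * es y (m + 1) := es_smul q y (m + 1)
  have e3 : (gp z).coeff (m + 1) = es z (m + 1) := rfl
  rw [e1, e2, e3] at hc
  have hc2 : (q * (q - 1)) * ∑ c, y c * es (fun s => y s * ew q s c₀ * ew q c s) m
      = (q * (q - 1)) * (gs q m * es z (m + 1) + q ^ m * es y (m + 1)) := by
    have h3 : (q * (q - 1)) * (gs q m * es z (m + 1) + q ^ m * es y (m + 1))
        = q ^ (m + 1) * es z (m + 1) - q * es z (m + 1) + (q - 1) * (q ^ (m + 1) * es y (m + 1)) := by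
      have h4 := gs_mul' q m
      linear_combination (q * es z (m + 1)) * h4
    rw [h3, ← hc]
    congr 1
    apply Finset.sum_congr rfl
    intro c _
    have : es (fun s => y s * ew q s c₀ * ew q c s) m = (pun f g c).coeff m := by
      unfold es; rw [← hP]
    rw [this]
  have hne : q * (q - 1) ≠ 0 := mul_ne_zero hq0 (sub_ne_zero.mpr hq1)
  exact mul_left_cancel₀ hne hc2

end Vale.Agent.Lib.P066
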