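import Mathlib
import Vale.Agent.Lib.P066.Sym

namespace Vale.Agent.Lib.P066

open Finset Polynomial

variable {A : Type*} [CommRing A] {N : ℕ}

lemma bez_rec (κ : A) (f g : ℕ → A) (Q : ℕ → ℕ → A)
    (h0 : ∀ b, Q 0 b = f 0 * g (b + 1) - f (b + 1) * g 0)
    (hs : ∀ a b, Q (a + 1) b = κ * Q a (b + 1)
        + κ ^ (a + 1) * (f (a + 1) * g (b + 1) - f (b + 1) * g (a + 1))) :
    ∀ a b, Q a b = κ ^ a * ∑ i ∈ range (min a b + 1),
        (f i * g (a + b + 1 - i) - f (a + b + 1 - i) * g i) := by
  intro a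
  induction a with
  | zero => intro b; rw [h0]; simp
  | succ a ih =>
    intro b
    rw [hs, ih (b + 1)]
    have hn : a + (b + 1) + 1 = a + 1 + b + 1 := by ring
    rw [hn]
    rcases Nat.lt_trichotomy a b with h | h | h
    · rw [Nat.min_eq_left (by omega : a ≤ b + 1), Nat.min_eq_left (by omega : a + 1 ≤ b),
        Finset.sum_range_succ _ (a + 1)]
      have h2 : a + 1 + b + 1 - (a + 1) = b + 1 := by omega
      rw [h2]; ring
    · subst h
      rw [Nat.min_eq_left (by omega : a ≤ a + 1), Nat.min_eq_right (by omega : a ≤ a + 1)]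
      ring
    · rw [Nat.min_eq_right (by omega : b + 1 ≤ a), Nat.min_eq_right (by omega : b ≤ a + 1),
        Finset.sum_range_succ _ (b + 1)]
      have h2 : a + 1 + b + 1 - (b + 1) = a + 1 := by omega
      rw [h2]; ring

lemma bez_coeff (κ : A) (f g F G : A[X]) (Q : A[X][X])
    (hF : ∀ a, F.coeff a = κ ^ a * f.coeff a) (hG : ∀ a, G.coeff a = κ ^ a * g.coeff a)
    (hQ : (X - C (C κ * X)) * Q = C F * g.map C - f.map C * C G) :
    ∀ a b, (Q.coeff b).coeff a = κ ^ a * ∑ i ∈ range (min a b + 1),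
        (f.coeff i * g.coeff (a + b + 1 - i) - f.coeff (a + b + 1 - i) * g.coeff i) := by
  apply bez_rec κ (fun i => f.coeff i) (fun i => g.coeff i) (fun a b => (Q.coeff b).coeff a)
  · intro b
    have h := congrArg (fun p : A[X][X] => (p.coeff (b + 1)).coeff 0) hQ
    simp only [sub_mul, coeff_sub, coeff_X_mul, coeff_C_mul, coeff_mul_C, coeff_map, mul_coeff_zero,
      coeff_X_zero, mul_zero, zero_mul, sub_zero, hF, hG, pow_zero, one_mul, coeff_C_zero] at h
    exact h
  · intro a b
    have h := congrArg (fun p : A[X][X] => (p.coeff (b + 1)).coeff (a + 1)) hQ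
    simp only [sub_mul, coeff_sub, coeff_X_mul, coeff_C_mul, coeff_mul_C, coeff_map, mul_assoc,
      hF, hG] at h
    linear_combination h

lemma C_gp (y : Fin N → A) : (C (gp y) : A[X][X]) = ∏ s, (1 + C (C (y s)) * C X) := by
  unfold gp; rw [map_prod]; simp

lemma map_gp (y : Fin N → A) : (gp y).map C = ∏ s, (1 + C (C (y s)) * (X : A[X][X])) := by
  unfold gp; rw [Polynomial.map_prod]; simp

lemma gp2_prod (yi yo : Fin N → A) :
    ∏ s, ((1 + C (C (yi s)) * C X) * (1 + C (C (yo s)) * (X : A[X][X])))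
      = C (gp yi) * (gp yo).map C := by
  rw [Finset.prod_mul_distrib, C_gp, map_gp]

lemma gp2_pun (ai bi ao bo : Fin N → A) (c : Fin N) :
    (C (gp (fun s => if s < c then ai s else if s = c then 0 else bi s)) : A[X][X])
        * (gp (fun s => if s < c then ao s else if s = c then 0 else bo s)).map C
      = pun (fun s => (1 + C (C (ai s)) * C X) * (1 + C (C (ao s)) * X))
            (fun s => (1 + C (C (bi s)) * C X) * (1 + C (C (bo s)) * X)) c := by
  rw [C_gp, map_gp, ← Finset.prod_mul_distrib]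
  unfold pun
  apply Finset.prod_congr rfl
  intro s _
  by_cases h1 : s < c
  · simp [h1]
  · by_cases h2 : s = c
    · simp [h2]
    · simp [h1, h2]

lemma coeff2 (p r : A[X]) (a b : ℕ) :
    (((C p : A[X][X]) * r.map C).coeff b).coeff a = p.coeff a * r.coeff b := by
  rw [coeff_C_mul, coeff_map, coeff_mul_C]

lemma gp_coeff_smul (r : A) (y : Fin N → A) (k : ℕ) :
    (gp (fun s => r * y s)).coeff k = r ^ k * (gp y).coeff k := es_smul r y k

lemma gp_one_mul' (y : Fin N → A) : gp (fun s => 1 * y s) = gp y := by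
  simp

/-- two cliques glued at a vertex -/
theorem twoClique [IsDomain A] {q : A} (hq1 : q ≠ 1) (x : Fin N → A) (k t : ℕ) :
    ∑ c, x c * es (fun s => x s * ew q s c) k * es (fun s => x s * ew q c s) t
      = ∑ i ∈ range (min k t + 1),
          q ^ i * gs q (k + t + 1 - 2 * i) * es x i * es x (k + t + 1 - i) := by
  set F : Fin N → A[X][X] :=
    fun s => (1 + C (C (1 * x s)) * C X) * (1 + C (C (q * x s)) * X) with hF
  set G : Fin N → A[X][X] :=
    fun s => (1 + C (C (q * x s)) * C X) * (1 + C (C (1 * x s)) * X) with hG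
  have hP : ∀ c, (C (gp (fun s => x s * ew q c s)) : A[X][X])
      * (gp (fun s => x s * ew q s c)).map C = pun F G c := by
    intro c; rw [wt_fst, wt_snd, gp2_pun]
  have hd : ∀ c, G c - F c = C (C ((1 - q) * x c)) * (X - C X) := by
    intro c; simp only [hF, hG, C_mul, C_sub, C_1, one_mul]; ring
  have htel := sum_pun F G
  have h1 : (∏ s, G s) = C (gp (fun s => q * x s)) * (gp x).map C := by
    show (∏ s, ((1 + C (C (q * x s)) * C X) * (1 + C (C (1 * x s)) * X))) = _
    rw [gp2_prod, gp_one_mul']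
  have h2 : (∏ s, F s) = C (gp x) * (gp (fun s => q * x s)).map C := by
    show (∏ s, ((1 + C (C (1 * x s)) * C X) * (1 + C (C (q * x s)) * X))) = _
    rw [gp2_prod, gp_one_mul']
  set Q : A[X][X] := ∑ c, C (C ((1 - q) * x c)) * pun F G c with hQ
  have hQeq : (X - C (C (1 : A) * X)) * Q
      = C (gp (fun s => q * x s)) * (gp x).map C - (gp (fun s => q * x s)).map C * C (gp x) := by
    rw [C_1, one_mul, mul_comm ((gp (fun s => q * x s)).map C), ← h1, ← h2, ← htel, hQ,
      Finset.mul_sum]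
    apply Finset.sum_congr rfl
    intro c _
    rw [hd]; ring
  have hco := bez_coeff (1 : A) (gp (fun s => q * x s)) (gp x) (gp (fun s => q * x s)) (gp x) Q
    (by intro a; simp) (by intro a; simp) hQeq
  have hcoQ : (Q.coeff k).coeff t
      = (1 - q) * ∑ c, x c * es (fun s => x s * ew q s c) k * es (fun s => x s * ew q c s) t := by
    rw [hQ, finsetSum_coeff, finsetSum_coeff, Finset.mul_sum]
    apply Finset.sum_congr rfl
    intro c _
    rw [← hP, coeff_C_mul, coeff_C_mul, coeff2]
    unfold es; ring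
  have hne : (1 : A) - q ≠ 0 := sub_ne_zero.mpr (Ne.symm hq1)
  apply mul_left_cancel₀ hne
  rw [← hcoQ, hco t k, one_pow, one_mul, Finset.mul_sum, Nat.min_comm]
  apply Finset.sum_congr rfl
  intro i hi
  have hi' : i ≤ min k t := Nat.lt_succ_iff.mp (Finset.mem_range.mp hi)
  have hik : i ≤ k := le_trans hi' (Nat.min_le_left _ _)
  have hit : i ≤ t := le_trans hi' (Nat.min_le_right _ _)
  rw [gp_coeff_smul, gp_coeff_smul]
  have e1 : t + k + 1 - i = k + t + 1 - i := by omega
  have e3 : q ^ (k + t + 1 - i) = q ^ i * q ^ (k + t + 1 - 2 * i) := by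
    rw [← pow_add]; congr 1; omega
  have h3 := gs_mul q (k + t + 1 - 2 * i)
  rw [e1, e3]
  show q ^ i * es x i * es x (k + t + 1 - i)
      - q ^ i * q ^ (k + t + 1 - 2 * i) * es x (k + t + 1 - i) * es x i
    = (1 - q) * (q ^ i * gs q (k + t + 1 - 2 * i) * es x i * es x (k + t + 1 - i))
  linear_combination (-(q ^ i * es x i * es x (k + t + 1 - i))) * h3

/-- the kernel identity for a clique block between two cut vertices -/
theorem kernelId [IsDomain A] {q : A} (hq1 : q ≠ 1) (x : Fin N → A) (c' : Fin N) (a b : ℕ) :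
    ∑ c, x c * ew q c c' * es (fun s => x s * ew q s c' * ew q c s) a
        * es (fun s => x s * ew q s c) b
      = ∑ i ∈ range (min a b + 1),
          (q ^ i * gs q (a + 1 - i) * es x i * es (fun s => x s * ew q s c') (a + b + 1 - i)
            + q ^ (a + 1) * gs q (b - i) * es x (a + b + 1 - i)
                * es (fun s => x s * ew q s c') i) := by
  set xd : Fin N → A := fun s => x s * ew q s c' with hxd
  set α : Fin N → A[X][X] :=
    fun s => (1 + C (C (1 * xd s)) * C X) * (1 + C (C (q * x s)) * X) with hα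
  set β : Fin N → A[X][X] :=
    fun s => (1 + C (C (q * xd s)) * C X) * (1 + C (C (1 * x s)) * X) with hβ
  set γ : Fin N → A[X][X] :=
    fun s => (1 + C (C (q * x s)) * C X) * (1 + C (C (1 * xd s)) * X) with hγ
  have hT : ∀ c, (C (gp (fun s => xd s * ew q c s)) : A[X][X])
      * (gp (fun s => x s * ew q s c)).map C = pun α β c := by
    intro c; rw [wt_fst, wt_snd, gp2_pun]
  have hβα : ∀ s, β s - α s = C (C ((1 - q) * x s)) * (X - C (C (ew q s c') * X)) := by
    intro s; simp only [hα, hβ, hxd, C_mul, C_sub, C_1, one_mul]; ring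
  have hγα : ∀ s, γ s - α s = C (C (x s * (ew q s c' - q))) * (X - C X) := by
    intro s; simp only [hα, hγ, hxd, C_mul, C_sub, one_mul]; ring
  have hγβ : ∀ s, γ s - β s = C (C (x s * (ew q s c' - 1))) * (X - C (C q * X)) := by
    intro s; simp only [hβ, hγ, hxd, C_mul, C_sub, C_1, one_mul]; ring
  have pα : (∏ s, α s) = C (gp xd) * (gp (fun s => q * x s)).map C := by
    show (∏ s, ((1 + C (C (1 * xd s)) * C X) * (1 + C (C (q * x s)) * X))) = _
    rw [gp2_prod, gp_one_mul']
  have pβ : (∏ s, β s) = C (gp (fun s => q * xd s)) * (gp x).map C := by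
    show (∏ s, ((1 + C (C (q * xd s)) * C X) * (1 + C (C (1 * x s)) * X))) = _
    rw [gp2_prod, gp_one_mul']
  have pγ : (∏ s, γ s) = C (gp (fun s => q * x s)) * (gp xd).map C := by
    show (∏ s, ((1 + C (C (q * x s)) * C X) * (1 + C (C (1 * xd s)) * X))) = _
    rw [gp2_prod, gp_one_mul']
  set W : A[X][X] := ∑ c, C (C (x c * ew q c c')) * pun α β c with hW
  set Q1 : A[X][X] := ∑ c, C (C (x c * (ew q c c' - q))) * pun α γ c with hQ1
  set Q2 : A[X][X] := ∑ c, C (C (x c * (ew q c c' - 1))) * pun β γ c with hQ2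
  have e1 : (X - C X) * Q1 = (∏ s, γ s) - ∏ s, α s := by
    rw [← sum_pun α γ, hQ1, Finset.mul_sum]
    apply Finset.sum_congr rfl
    intro c _; rw [hγα]; ring
  have e2 : (X - C (C q * X)) * Q2 = (∏ s, γ s) - ∏ s, β s := by
    rw [← sum_pun β γ, hQ2, Finset.mul_sum]
    apply Finset.sum_congr rfl
    intro c _; rw [hγβ]; ring
  have eW : C (C (1 - q)) * (X - C X) * (X - C (C q * X)) * W
      = C (C q) * (X - C X) * ((∏ s, β s) - tel α β c')
        + (X - C (C q * X)) * (tel α β (c' + 1) - ∏ s, α s) := by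
    rw [← sum_pun_lt α β c', ← sum_pun_gt α β c', hW, Finset.mul_sum, Finset.mul_sum,
      Finset.mul_sum, ← Finset.sum_add_distrib]
    apply Finset.sum_congr rfl
    intro c _
    rcases lt_trichotomy c c' with h | h | h
    · rw [if_pos h, if_neg (not_lt_of_gt h), hβα, ew_lt h]
      simp only [C_mul, C_sub, C_1]; ring
    · subst h
      rw [if_neg (lt_irrefl _), ew_self]
      simp
    · rw [if_neg (not_lt_of_gt h), if_pos h, hβα, ew_gt h]
      simp only [C_mul, C_sub, C_1, one_mul]; ring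
  have hxd0 : xd c' = 0 := by simp only [hxd]; rw [ew_self, mul_zero]
  have hαc : α c' = 1 + C (C (q * x c')) * X := by simp only [hα]; rw [hxd0]; simp
  have hβc : β c' = 1 + C (C (x c')) * X := by simp only [hβ]; rw [hxd0]; simp
  have hpunγ : pun α β c' * (1 + C (C (q * x c')) * C X) = ∏ s, γ s := by
    rw [pun_eq_erase, ← Finset.prod_erase_mul _ _ (Finset.mem_univ c')]
    congr 1
    · apply Finset.prod_congr rfl
      intro s hs
      have hne : s ≠ c' := Finset.ne_of_mem_erase hs
      rcases lt_or_gt_of_ne hne with h | h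
      · rw [if_pos h]; simp only [hα, hγ, hxd]; rw [ew_lt h]
        simp only [C_mul, one_mul]; ring
      · rw [if_neg (not_lt_of_gt h)]; simp only [hβ, hγ, hxd]; rw [ew_gt h]
        simp only [C_mul, one_mul, mul_one]
    · simp only [hγ]; rw [hxd0]; simp
  have hmain : C (C (1 - q)) * W = Q1 - C (C q) * Q2 := by
    have hne1 : (X - C X : A[X][X]) ≠ 0 := X_sub_C_ne_zero _
    have hne2 : (X - C (C q * X) : A[X][X]) ≠ 0 := X_sub_C_ne_zero _
    rw [tel_eq, tel_succ, hαc, hβc] at eW
    have h0 : (X - C X) * (X - C (C q * X)) * (C (C (1 - q)) * W - (Q1 - C (C q) * Q2)) = 0 := by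
      simp only [C_mul, C_sub, C_1] at eW e2 hpunγ ⊢
      linear_combination eW - (X - C (C q) * C X) * e1 + C (C q) * (X - C X) * e2
        + ((X - C (C q) * C X) - C (C q) * (X - C X)) * hpunγ
    have h5 := (mul_eq_zero.mp h0).resolve_left (mul_ne_zero hne1 hne2)
    exact sub_eq_zero.mp h5
  have hcW : (W.coeff b).coeff a = ∑ c, x c * ew q c c'
      * es (fun s => x s * ew q s c' * ew q c s) a * es (fun s => x s * ew q s c) b := by
    rw [hW, finsetSum_coeff, finsetSum_coeff]
    apply Finset.sum_congr rfl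
    intro c _
    rw [← hT, coeff_C_mul, coeff_C_mul, coeff2]
    show x c * ew q c c' * (es (fun s => x s * ew q s c' * ew q c s) a
      * es (fun s => x s * ew q s c) b) = _
    ring
  have hc1 := bez_coeff (1 : A) (gp (fun s => q * x s)) (gp xd) (gp (fun s => q * x s)) (gp xd) Q1
    (by intro a; simp) (by intro a; simp) (by rw [C_1, one_mul, e1, pγ, pα]; ring)
  have hc2 := bez_coeff q (gp x) (gp xd) (gp (fun s => q * x s)) (gp (fun s => q * xd s)) Q2
    (gp_coeff_smul q x) (gp_coeff_smul q xd) (by rw [e2, pγ, pβ]; ring)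
  have hmc : (1 - q) * (W.coeff b).coeff a = (Q1.coeff b).coeff a - q * (Q2.coeff b).coeff a := by
    have h6 := congrArg (fun p : A[X][X] => (p.coeff b).coeff a) hmain
    simp only [coeff_C_mul, coeff_sub] at h6
    exact h6
  have hne : (1 : A) - q ≠ 0 := sub_ne_zero.mpr (Ne.symm hq1)
  apply mul_left_cancel₀ hne
  rw [← hcW, hmc, hc1 a b, hc2 a b, one_pow, one_mul, Finset.mul_sum, Finset.mul_sum,
    Finset.mul_sum, ← Finset.sum_sub_distrib]
  apply Finset.sum_congr rfl
  intro i hi
  have hi' : i ≤ min a b := Nat.lt_succ_iff.mp (Finset.mem_range.mp hi)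
  have hia : i ≤ a := le_trans hi' (Nat.min_le_left _ _)
  have hib : i ≤ b := le_trans hi' (Nat.min_le_right _ _)
  rw [gp_coeff_smul, gp_coeff_smul]
  have hp1 : q ^ (a + 1) = q ^ i * q ^ (a + 1 - i) := by
    rw [← pow_add]; congr 1; omega
  have hp2 : q ^ (a + b + 1 - i) = q ^ i * q ^ (a + 1 - i) * q ^ (b - i) := by
    rw [← pow_add, ← pow_add]; congr 1; omega
  have hp3 : q * q ^ a = q ^ i * q ^ (a + 1 - i) := by
    rw [← hp1, pow_succ, mul_comm]
  have h3 := gs_mul q (a + 1 - i)
  have h4 := gs_mul q (b - i)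
  rw [hp1, hp2]
  show q ^ i * es x i * es xd (a + b + 1 - i)
      - q ^ i * q ^ (a + 1 - i) * q ^ (b - i) * es x (a + b + 1 - i) * es xd i
      - q * (q ^ a * (es x i * es xd (a + b + 1 - i) - es x (a + b + 1 - i) * es xd i))
    = (1 - q) * (q ^ i * gs q (a + 1 - i) * es x i * es xd (a + b + 1 - i)
        + q ^ i * q ^ (a + 1 - i) * gs q (b - i) * es x (a + b + 1 - i) * es xd i)
  linear_combination (-(q ^ i * es x i * es xd (a + b + 1 - i))) * h3
    - (q ^ i * q ^ (a + 1 - i) * es x (a + b + 1 - i) * es xd i) * h4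
    - (es x i * es xd (a + b + 1 - i) - es x (a + b + 1 - i) * es xd i) * hp3

end Vale.Agent.Lib.P066
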