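import Mathlib

namespace Vale.Agent.Lib.P066

open Finset

/-- The chromatic quasisymmetric function, restricted to the `N` variables `x_0, …, x_{N-1}`,
of the graph on the vertices `0, …, n-1` (`n = d.length`) in which `i` and `j` are adjacent
iff `i < j ≤ i + d_i`, where `d_i` is the `i`-th entry of `d`:
the sum, over all proper colourings `κ` with colours in `Fin N`, of
`q ^ asc(κ) * ∏ i, x_{κ i}`, where `asc(κ)` counts the edges `i < j` with `κ i < κ j`.
The coefficient ring is `ℤ[q]`, with `q = Polynomial.X`. -/
noncomputable def chromQSym (N : ℕ) (d : List ℕ) : MvPolynomial (Fin N) (Polynomial ℤ) :=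
  ∑ κ : Fin d.length → Fin N,
    if ∀ i j : Fin d.length, (i : ℕ) < j → (j : ℕ) ≤ i + d.getD i 0 → κ i ≠ κ j then
      MvPolynomial.C (Polynomial.X ^ (Finset.univ.filter
          (fun p : Fin d.length × Fin d.length =>
            ((p.1 : ℕ) < p.2 ∧ (p.2 : ℕ) ≤ p.1 + d.getD p.1 0) ∧ κ p.1 < κ p.2)).card)
        * ∏ i, MvPolynomial.X (κ i)
    else 0

/-- Evaluation of a formal polynomial in symbols `e_0, e_1, e_2, …` (the variable `k` stands
for `e_k`) with coefficients in `ℕ[q]` at the elementary symmetric polynomials in `N`
variables. -/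
noncomputable def evE (N : ℕ) :
    MvPolynomial ℕ (Polynomial ℕ) →+* MvPolynomial (Fin N) (Polynomial ℤ) :=
  MvPolynomial.eval₂Hom
    (MvPolynomial.C.comp (Polynomial.mapRingHom (Nat.castRingHom ℤ)))
    (fun k => MvPolynomial.esymm (Fin N) (Polynomial ℤ) k)

/-- forward degrees of `m` consecutive, mutually adjacent vertices, each of which is also
adjacent to the `p` vertices following the block: `m - 1 + p, …, p + 1, p` -/
def descFrom (p : ℕ) : ℕ → List ℕ
  | 0 => []
  | m + 1 => (m + p) :: descFrom p m

/-- forward degrees of a chain of cliques of sizes `m + 2`, `m ∈ μ`, consecutive cliques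
sharing exactly one vertex; the last vertex of the last clique is not included -/
def chain (μ : List ℕ) : List ℕ := (μ.map (fun m => descFrom 1 (m + 1))).flatten

/-- forward degrees of a chain of cliques with melted end cliques: a clique on `b + r` vertices
whose last `r` vertices are adjacent to the first vertex of the chain of cliques `chain μ`,
whose last vertex is adjacent to the first `r'` vertices of a clique on `r' + b'` vertices -/
def meltedChain (b r : ℕ) (μ : List ℕ) (r' b' : ℕ) : List ℕ :=
  descFrom r b ++ descFrom 1 r ++ chain μ ++ r' :: descFrom 0 (r' + b')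

/-- the list `d` of forward degrees is that of a natural unit interval graph: with
`h i = i + d_i` (the largest neighbour of `i`, or `i` itself), `h i ≤ n - 1` and `h` is weakly
increasing -/
def IsHess (d : List ℕ) : Prop :=
  ∀ i, i < d.length → i + d.getD i 0 < d.length ∧ i + d.getD i 0 ≤ (i + 1) + d.getD (i + 1) 0

/-- the `q`-factorial `[k]_q! = ∏_{j=1}^{k} (1 + q + ⋯ + q^{j-1})` as a polynomial in `q` -/
noncomputable def qfact (k : ℕ) : Polynomial ℤ :=
  ∏ j ∈ Finset.range k, ∑ i ∈ Finset.range (j + 1), Polynomial.X ^ i

/-- pointed positivity of the graph with forward degrees `L` at its first vertex: for every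
`k`, the chromatic quasisymmetric function of the graph obtained by gluing a clique on `k + 1`
vertices at the first vertex of `L` is `[k]_q!` times a polynomial in the `e_j` with
coefficients in `ℕ[q]` -/
def PointedPos (L : List ℕ) : Prop :=
  ∀ k : ℕ, ∃ F : MvPolynomial ℕ (Polynomial ℕ), ∀ N : ℕ,
    chromQSym N (descFrom 1 k ++ L) = MvPolynomial.C (qfact k) * evE N F

end Vale.Agent.Lib.P066
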