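import Mathlib
import Vale.Agent.Lib.P066.Bez
import Vale.Agent.Lib.P066.Defs

namespace Vale.Agent.Lib.P066

open Finset

variable {A : Type*} [CommRing A] {N : ℕ}

/-- weight of a new first vertex of colour `c` adjacent to the first `a` vertices of `l` -/
def wfac (q : A) (c : Fin N) (a : ℕ) (l : List (Fin N)) : A := ((l.take a).map (ew q c)).prod

lemma wfac_zero (q : A) (c : Fin N) (l : List (Fin N)) : wfac q c 0 l = 1 := by simp [wfac]

lemma wfac_nil (q : A) (c : Fin N) (a : ℕ) : wfac q c a [] = 1 := by simp [wfac]

lemma wfac_one_cons (q : A) (s c : Fin N) (l : List (Fin N)) : wfac q s 1 (c :: l) = ew q s c := by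
  simp [wfac]

lemma wfac_append_of_length (q : A) (c : Fin N) (κ tl : List (Fin N)) (p : ℕ) :
    wfac q c (κ.length + p) (κ ++ tl) = (κ.map (ew q c)).prod * wfac q c p tl := by
  unfold wfac
  rw [List.take_length_add_append, List.map_append, List.prod_append]

lemma wfac_length (q : A) (c : Fin N) (κ : List (Fin N)) :
    wfac q c κ.length κ = (κ.map (ew q c)).prod := by
  unfold wfac
  rw [List.take_length]

/-- weighted sum over colourings of the graph with forward-degree list `d`, in front of a fixed
tail colouring `tl`, of a function `F` of the colouring -/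
def csumT (q : A) (x : Fin N → A) : List ℕ → List (Fin N) → (List (Fin N) → A) → A
  | [], _, F => F []
  | a :: d, tl, F =>
      ∑ c : Fin N, x c * csumT q x d tl (fun κ => wfac q c a (κ ++ tl) * F (c :: κ))

lemma csumT_congr (q : A) (x : Fin N → A) :
    ∀ (d : List ℕ) (tl : List (Fin N)) (F G : List (Fin N) → A),
      (∀ κ, κ.length = d.length → F κ = G κ) → csumT q x d tl F = csumT q x d tl G
  | [], _, _, _, h => h [] rfl
  | a :: d, tl, F, G, h => by
      simp only [csumT]
      apply Finset.sum_congr rfl
      intro c _
      congr 1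
      apply csumT_congr q x d tl
      intro κ hκ
      rw [h (c :: κ) (by simp [hκ])]

lemma csumT_mul_left (q : A) (x : Fin N → A) (r : A) :
    ∀ (d : List ℕ) (tl : List (Fin N)) (F : List (Fin N) → A),
      csumT q x d tl (fun κ => r * F κ) = r * csumT q x d tl F
  | [], _, _ => rfl
  | a :: d, tl, F => by
      simp only [csumT]
      rw [Finset.mul_sum]
      apply Finset.sum_congr rfl
      intro c _
      have h : (fun κ => wfac q c a (κ ++ tl) * (r * F (c :: κ)))
          = (fun κ => r * (wfac q c a (κ ++ tl) * F (c :: κ))) := by funext κ; ring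
      rw [h, csumT_mul_left q x r d tl]; ring

lemma csumT_zero (q : A) (x : Fin N → A) :
    ∀ (d : List ℕ) (tl : List (Fin N)), csumT q x d tl (fun _ => 0) = 0
  | [], _ => rfl
  | a :: d, tl => by
      simp only [csumT, mul_zero]
      apply Finset.sum_eq_zero
      intro c _
      rw [csumT_zero q x d tl, mul_zero]

lemma csumT_add (q : A) (x : Fin N → A) :
    ∀ (d : List ℕ) (tl : List (Fin N)) (F G : List (Fin N) → A),
      csumT q x d tl (fun κ => F κ + G κ) = csumT q x d tl F + csumT q x d tl G
  | [], _, _, _ => rfl
  | a :: d, tl, F, G => by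
      simp only [csumT]
      rw [← Finset.sum_add_distrib]
      apply Finset.sum_congr rfl
      intro c _
      have h : (fun κ => wfac q c a (κ ++ tl) * (F (c :: κ) + G (c :: κ)))
          = (fun κ => wfac q c a (κ ++ tl) * F (c :: κ) + wfac q c a (κ ++ tl) * G (c :: κ)) := by
        funext κ; ring
      rw [h, csumT_add q x d tl]; ring

lemma csumT_sum (q : A) (x : Fin N → A) {ι : Type*} (s : Finset ι) (d : List ℕ)
    (tl : List (Fin N)) (F : ι → List (Fin N) → A) :
    csumT q x d tl (fun κ => ∑ i ∈ s, F i κ) = ∑ i ∈ s, csumT q x d tl (F i) := by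
  classical
  induction s using Finset.induction_on with
  | empty => simp [csumT_zero]
  | insert i s hi ih =>
    simp only [Finset.sum_insert hi]
    rw [csumT_add, ih]

lemma csumT_append (q : A) (x : Fin N → A) :
    ∀ (l1 l2 : List ℕ) (tl : List (Fin N)) (F : List (Fin N) → A),
      csumT q x (l1 ++ l2) tl F
        = csumT q x l2 tl (fun κ2 => csumT q x l1 (κ2 ++ tl) (fun κ1 => F (κ1 ++ κ2)))
  | [], l2, tl, F => by simp [csumT]
  | a :: d, l2, tl, F => by
      simp only [List.cons_append, csumT]
      rw [csumT_sum]
      apply Finset.sum_congr rfl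
      intro c _
      rw [csumT_mul_left, csumT_append q x d l2 tl]
      congr 2
      funext κ2
      congr 1
      funext κ1
      rw [List.append_assoc]

lemma length_descFrom (p : ℕ) : ∀ m, (descFrom p m).length = m
  | 0 => rfl
  | m + 1 => by simp [descFrom, length_descFrom p m]

/-- the clique lemma -/
theorem clique_sum [IsDomain A] {q : A} (hq1 : q ≠ 1) (x : Fin N → A) (p : ℕ)
    (tl : List (Fin N)) :
    ∀ (m : ℕ) (u : Fin N → A),
      csumT q x (descFrom p m) tl (fun κ => (κ.map u).prod)
        = qf q m * es (fun s => x s * u s * wfac q s p tl) m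
  | 0, u => by simp [descFrom, csumT, es_zero]
  | m + 1, u => by
      simp only [descFrom, csumT]
      have h1 : ∀ c, csumT q x (descFrom p m) tl
            (fun κ => wfac q c (m + p) (κ ++ tl) * ((c :: κ).map u).prod)
          = u c * wfac q c p tl
            * (qf q m * es (fun s => x s * (u s * ew q c s) * wfac q s p tl) m) := by
        intro c
        rw [← clique_sum hq1 x p tl m (fun s => u s * ew q c s), ← csumT_mul_left]
        apply csumT_congr
        intro κ hκ
        rw [length_descFrom] at hκ
        rw [← hκ, wfac_append_of_length, List.map_cons, List.prod_cons, List.prod_map_mul]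
        ring
      simp only [h1]
      have h2 := symS hq1 (fun s => x s * u s * wfac q s p tl) m
      rw [qf_succ, mul_assoc, ← h2, Finset.mul_sum]
      apply Finset.sum_congr rfl
      intro c _
      have h3 : (fun s => x s * (u s * ew q c s) * wfac q s p tl)
          = (fun s => x s * u s * wfac q s p tl * ew q c s) := by funext s; ring
      rw [h3]; ring

/-- pointed chromatic function: the colouring sum weighted by `D_k` of the first colour -/
noncomputable def PhiP (q : A) (x : Fin N → A) (k : ℕ) (L : List ℕ) : A :=
  csumT q x L [] (fun κ => es (fun s => x s * wfac q s 1 κ) k)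

/-- the colouring sum itself -/
def chiL (q : A) (x : Fin N → A) (d : List ℕ) : A := csumT q x d [] (fun _ => 1)

lemma PhiP_zero (q : A) (x : Fin N → A) (L : List ℕ) : PhiP q x 0 L = chiL q x L := by
  unfold PhiP chiL
  simp only [es_zero]

theorem chiL_clique_append [IsDomain A] {q : A} (hq1 : q ≠ 1) (x : Fin N → A) (k : ℕ)
    (L : List ℕ) : chiL q x (descFrom 1 k ++ L) = qf q k * PhiP q x k L := by
  unfold chiL PhiP
  rw [csumT_append, ← csumT_mul_left]
  apply csumT_congr
  intro κ _
  have h := clique_sum hq1 x 1 (κ ++ []) k (fun _ => 1)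
  simp only [List.append_nil, mul_one] at h
  rw [← h, List.append_nil]
  apply csumT_congr
  intro κ1 _
  simp

lemma exists_cons_of_length (L : List ℕ) (hL : L ≠ []) (κ : List (Fin N))
    (hκ : κ.length = L.length) : ∃ c' rest, κ = c' :: rest := by
  cases κ with
  | nil =>
    exfalso; apply hL
    exact List.eq_nil_of_length_eq_zero hκ.symm
  | cons c' rest => exact ⟨c', rest, rfl⟩

/-- the transfer theorem for gluing a clique block -/
theorem transfer [IsDomain A] {q : A} (hq1 : q ≠ 1) (x : Fin N → A) (m t : ℕ) (L : List ℕ)
    (hL : L ≠ []) :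
    PhiP q x t (descFrom 1 (m + 1) ++ L)
      = qf q m * ∑ i ∈ range (min m t + 1),
          (q ^ i * gs q (m + 1 - i) * es x i * PhiP q x (m + t + 1 - i) L
            + q ^ (m + 1) * gs q (t - i) * es x (m + t + 1 - i) * PhiP q x i L) := by
  unfold PhiP
  rw [csumT_append]
  have hR : qf q m * ∑ i ∈ range (min m t + 1),
          (q ^ i * gs q (m + 1 - i) * es x i
              * csumT q x L [] (fun κ => es (fun s => x s * wfac q s 1 κ) (m + t + 1 - i))
            + q ^ (m + 1) * gs q (t - i) * es x (m + t + 1 - i)
              * csumT q x L [] (fun κ => es (fun s => x s * wfac q s 1 κ) i))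
      = csumT q x L [] (fun κ => qf q m * ∑ i ∈ range (min m t + 1),
          (q ^ i * gs q (m + 1 - i) * es x i * es (fun s => x s * wfac q s 1 κ) (m + t + 1 - i)
            + q ^ (m + 1) * gs q (t - i) * es x (m + t + 1 - i)
              * es (fun s => x s * wfac q s 1 κ) i)) := by
    rw [csumT_mul_left, csumT_sum]
    congr 1
    apply Finset.sum_congr rfl
    intro i _
    rw [csumT_add, csumT_mul_left, csumT_mul_left]
  rw [hR]
  apply csumT_congr
  intro κ2 hκ2
  obtain ⟨c', rest, rfl⟩ := exists_cons_of_length L hL κ2 hκ2
  rw [List.append_nil]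
  simp only [descFrom, csumT]
  have h1 : ∀ c, csumT q x (descFrom 1 m) (c' :: rest)
        (fun κ => wfac q c (m + 1) (κ ++ c' :: rest)
          * es (fun s => x s * wfac q s 1 ((c :: κ) ++ c' :: rest)) t)
      = ew q c c' * es (fun s => x s * ew q s c) t
        * (qf q m * es (fun s => x s * ew q s c' * ew q c s) m) := by
    intro c
    have h2 := clique_sum hq1 x 1 (c' :: rest) m (ew q c)
    have h3 : (fun s => x s * ew q c s * wfac q s 1 (c' :: rest))
        = (fun s => x s * ew q s c' * ew q c s) := by
      funext s; rw [wfac_one_cons]; ring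
    rw [h3] at h2
    rw [← h2, ← csumT_mul_left]
    apply csumT_congr
    intro κ hκ
    rw [length_descFrom] at hκ
    rw [← hκ, wfac_append_of_length, wfac_one_cons]
    simp only [List.cons_append, wfac_one_cons]
    ring
  simp only [h1]
  simp only [wfac_one_cons]
  rw [← kernelId hq1 x c' m t, Finset.mul_sum]
  apply Finset.sum_congr rfl
  intro c _
  ring

end Vale.Agent.Lib.P066
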