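import Mathlib
import Vale.Agent.Lib.P066.Csum

namespace Vale.Agent.Lib.P066

open Finset

variable {A : Type*} [CommRing A] {N : ℕ}

lemma gs_add (q : A) (a b : ℕ) : gs q (a + b) = gs q a + q ^ a * gs q b := by
  unfold gs
  rw [Finset.sum_range_add, Finset.mul_sum]
  congr 1
  apply Finset.sum_congr rfl
  intro i _
  rw [pow_add]

/-- a clique whose first `r` vertices carry the extra weight `ew q c' ·` -/
theorem back_clique [IsDomain A] {q : A} (hq1 : q ≠ 1) (x : Fin N → A) (c' : Fin N) (b : ℕ)
    (hb : 1 ≤ b) :
    ∀ (r : ℕ) (u : Fin N → A),
      csumT q x (descFrom 0 (r + b)) []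
          (fun κ => (κ.map u).prod * ((κ.take r).map (ew q c')).prod)
        = qf q (r + b - 1) * (q ^ r * gs q b * es (fun s => x s * u s) (r + b)
            + gs q r * es (fun s => x s * u s * ew q c' s) (r + b))
  | 0, u => by
      obtain ⟨b', rfl⟩ : ∃ b', b = b' + 1 := ⟨b - 1, by omega⟩
      have h := clique_sum hq1 x 0 [] (b' + 1) u
      simp only [wfac_nil, mul_one] at h
      simp only [List.take_zero, List.map_nil, List.prod_nil, mul_one, Nat.zero_add, pow_zero,
        one_mul, gs_zero, zero_mul, add_zero, Nat.add_sub_cancel]
      rw [h, qf_succ]; ring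
  | r + 1, u => by
      have e : r + 1 + b = (r + b) + 1 := by omega
      rw [e]
      simp only [descFrom, csumT, Nat.add_sub_cancel]
      have h1 : ∀ c, csumT q x (descFrom 0 (r + b)) []
            (fun κ => wfac q c (r + b + 0) (κ ++ [])
              * (((c :: κ).map u).prod * (((c :: κ).take (r + 1)).map (ew q c')).prod))
          = u c * ew q c' c * (qf q (r + b - 1)
              * (q ^ r * gs q b * es (fun s => x s * (u s * ew q c s)) (r + b)
                + gs q r * es (fun s => x s * (u s * ew q c s) * ew q c' s) (r + b))) := by
        intro c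
        rw [← back_clique hq1 x c' b hb r (fun s => u s * ew q c s), ← csumT_mul_left]
        apply csumT_congr
        intro κ hκ
        rw [length_descFrom] at hκ
        rw [List.append_nil, Nat.add_zero, ← hκ, wfac_length, List.map_cons, List.prod_cons,
          List.take_succ_cons, List.map_cons, List.prod_cons, List.prod_map_mul]
        ring
      simp only [h1]
      have hS' := symS' hq1 (fun s => x s * u s) c' (r + b)
      have hS := symS hq1 (fun s => x s * u s * ew q c' s) (r + b)
      obtain ⟨t', ht'⟩ : ∃ t', r + b = t' + 1 := ⟨r + b - 1, by omega⟩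
      have hT : gs q (r + b) = gs q r + q ^ r * gs q b := gs_add q r b
      have hR := gs_mul q r
      have hB := gs_mul q b
      have hsum : ∑ c, x c * (u c * ew q c' c * (qf q (r + b - 1)
              * (q ^ r * gs q b * es (fun s => x s * (u s * ew q c s)) (r + b)
                + gs q r * es (fun s => x s * (u s * ew q c s) * ew q c' s) (r + b))))
          = qf q (r + b - 1) * (q ^ r * gs q b
              * (∑ c, x c * u c * ew q c' c * es (fun s => x s * u s * ew q c s) (r + b))
            + gs q r * (∑ c, x c * u c * ew q c' c
                * es (fun s => x s * u s * ew q c' s * ew q c s) (r + b))) := by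
        rw [Finset.mul_sum, Finset.mul_sum, mul_add, Finset.mul_sum, Finset.mul_sum,
          ← Finset.sum_add_distrib]
        apply Finset.sum_congr rfl
        intro c _
        have h3 : (fun s => x s * (u s * ew q c s)) = (fun s => x s * u s * ew q c s) := by
          funext s; ring
        have h4 : (fun s => x s * (u s * ew q c s) * ew q c' s)
            = (fun s => x s * u s * ew q c' s * ew q c s) := by funext s; ring
        rw [h3, h4]; ring
      rw [hsum, hS', hS, gs_succ q (r + b), gs_succ q r, hT, pow_add q r b, pow_succ q r]
      have hqf : qf q (r + b) = qf q (r + b - 1) * (gs q r + q ^ r * gs q b) := by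
        rw [← hT, ht', Nat.add_sub_cancel, qf_succ]
      rw [hqf]
      linear_combination
        (-(qf q (r + b - 1) * es (fun s => x s * u s * ew q c' s) (r + b + 1) * q ^ r * gs q b)) * hR
        + (qf q (r + b - 1) * es (fun s => x s * u s * ew q c' s) (r + b + 1) * q ^ r * gs q r) * hB

end Vale.Agent.Lib.P066
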