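import Mathlib
import Vale.Agent.Lib.P066.Gadget

namespace Vale.Agent.Lib.P066

open Finset

variable {A : Type*} [CommRing A] {N : ℕ}

/-- the two-clique polynomial -/
noncomputable def yy (q : A) (x : Fin N → A) (k t : ℕ) : A :=
  ∑ i ∈ range (min k t + 1), q ^ i * gs q (k + t + 1 - 2 * i) * es x i * es x (k + t + 1 - i)

/-- pointed function of a cut vertex adjacent to the first `r` vertices of a clique on `r + b`
vertices, `b ≥ 1` -/
theorem PhiP_back [IsDomain A] {q : A} (hq1 : q ≠ 1) (x : Fin N → A) (k r b : ℕ) (hb : 1 ≤ b) :
    PhiP q x k (r :: descFrom 0 (r + b))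
      = qf q (r + b - 1) * (q ^ r * gs q b * gs q (k + 1) * es x (r + b) * es x (k + 1)
          + gs q r * yy q x k (r + b)) := by
  unfold PhiP
  simp only [csumT]
  have h1 : ∀ c', csumT q x (descFrom 0 (r + b)) []
        (fun κ => wfac q c' r (κ ++ []) * es (fun s => x s * wfac q s 1 (c' :: κ)) k)
      = es (fun s => x s * ew q s c') k * (qf q (r + b - 1) * (q ^ r * gs q b * es x (r + b)
            + gs q r * es (fun s => x s * ew q c' s) (r + b))) := by
    intro c'
    have h2 := back_clique hq1 x c' b hb r (fun _ => 1)
    simp only [mul_one] at h2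
    rw [← h2, ← csumT_mul_left]
    apply csumT_congr
    intro κ _
    simp only [List.append_nil, wfac_one_cons]
    simp only [wfac, List.map_const', List.prod_replicate, one_pow, one_mul]
    ring
  simp only [h1]
  have hI := symI hq1 x k
  have hT := twoClique hq1 x k (r + b)
  unfold yy
  rw [← hT, Finset.mul_sum, mul_add, Finset.mul_sum]
  have e : qf q (r + b - 1) * (q ^ r * gs q b * gs q (k + 1) * es x (r + b) * es x (k + 1))
      = qf q (r + b - 1) * q ^ r * gs q b * es x (r + b) * (gs q (k + 1) * es x (k + 1)) := by ring
  rw [e, ← hI, Finset.mul_sum, ← Finset.sum_add_distrib]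
  apply Finset.sum_congr rfl
  intro c _
  ring

/-- pointed function of a clique on `r + 1` vertices, pointed at its first vertex -/
theorem PhiP_back_full [IsDomain A] {q : A} (hq1 : q ≠ 1) (x : Fin N → A) (k r : ℕ) :
    PhiP q x k (r :: descFrom 0 r) = qf q r * yy q x k r := by
  unfold PhiP
  simp only [csumT]
  have h1 : ∀ c', csumT q x (descFrom 0 r) []
        (fun κ => wfac q c' r (κ ++ []) * es (fun s => x s * wfac q s 1 (c' :: κ)) k)
      = es (fun s => x s * ew q s c') k * (qf q r * es (fun s => x s * ew q c' s) r) := by
    intro c'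
    have h2 := clique_sum hq1 x 0 [] r (ew q c')
    simp only [wfac_nil, mul_one] at h2
    rw [← h2, ← csumT_mul_left]
    apply csumT_congr
    intro κ hκ
    rw [length_descFrom] at hκ
    simp only [List.append_nil, wfac_one_cons]
    rw [← hκ, wfac_length]
    ring
  simp only [h1]
  have hT := twoClique hq1 x k r
  unfold yy
  rw [← hT, Finset.mul_sum]
  apply Finset.sum_congr rfl
  intro c _
  ring

/-- a clique on `b + r` vertices whose last `r ≥ 1` vertices are adjacent to the next vertex -/
theorem front_sum [IsDomain A] {q : A} (hq0 : q ≠ 0) (hq1 : q ≠ 1) (x : Fin N → A) (c' : Fin N)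
    (rest : List (Fin N)) (r : ℕ) (hr : 1 ≤ r) :
    ∀ (b : ℕ) (u : Fin N → A),
      csumT q x (descFrom r b ++ descFrom 1 r) (c' :: rest) (fun κ => (κ.map u).prod)
        = qf q (b + r - 1) * (q ^ r * gs q b * es (fun s => x s * u s) (b + r)
            + gs q r * es (fun s => x s * u s * ew q s c') (b + r))
  | 0, u => by
      obtain ⟨r', rfl⟩ : ∃ r', r = r' + 1 := ⟨r - 1, by omega⟩
      have h := clique_sum hq1 x 1 (c' :: rest) (r' + 1) u
      simp only [wfac_one_cons] at h
      simp only [descFrom, List.nil_append, gs_zero, mul_zero, zero_mul, zero_add,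
        Nat.add_sub_cancel]
      rw [show descFrom 1 (r' + 1) = (r' + 1) :: descFrom 1 r' from rfl] at h
      rw [h, qf_succ]; ring
  | b + 1, u => by
      have e : b + 1 + r = (b + r) + 1 := by omega
      rw [e]
      simp only [descFrom, List.cons_append, csumT, Nat.add_sub_cancel]
      have h1 : ∀ c, csumT q x (descFrom r b ++ descFrom 1 r) (c' :: rest)
            (fun κ => wfac q c (b + r) (κ ++ c' :: rest) * ((c :: κ).map u).prod)
          = u c * (qf q (b + r - 1)
              * (q ^ r * gs q b * es (fun s => x s * (u s * ew q c s)) (b + r)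
                + gs q r * es (fun s => x s * (u s * ew q c s) * ew q s c') (b + r))) := by
        intro c
        rw [← front_sum hq0 hq1 x c' rest r hr b (fun s => u s * ew q c s), ← csumT_mul_left]
        apply csumT_congr
        intro κ hκ
        rw [List.length_append, length_descFrom, length_descFrom] at hκ
        have h5 := wfac_append_of_length q c κ (c' :: rest) 0
        rw [hκ, wfac_zero, mul_one, Nat.add_zero] at h5
        rw [h5, List.map_cons, List.prod_cons, List.prod_map_mul]
        ring
      simp only [h1]
      have hS := symS hq1 (fun s => x s * u s) (b + r)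
      have hS'' := symS'' hq0 hq1 (fun s => x s * u s) c' (b + r)
      obtain ⟨t', ht'⟩ : ∃ t', b + r = t' + 1 := ⟨b + r - 1, by omega⟩
      have hT : gs q (r + b) = gs q r + q ^ r * gs q b := gs_add q r b
      rw [Nat.add_comm r b] at hT
      have hsum : ∑ c, x c * (u c * (qf q (b + r - 1)
              * (q ^ r * gs q b * es (fun s => x s * (u s * ew q c s)) (b + r)
                + gs q r * es (fun s => x s * (u s * ew q c s) * ew q s c') (b + r))))
          = qf q (b + r - 1) * (q ^ r * gs q b
              * (∑ c, x c * u c * es (fun s => x s * u s * ew q c s) (b + r))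
            + gs q r * (∑ c, x c * u c
                * es (fun s => x s * u s * ew q s c' * ew q c s) (b + r))) := by
        rw [Finset.mul_sum, Finset.mul_sum, mul_add, Finset.mul_sum, Finset.mul_sum,
          ← Finset.sum_add_distrib]
        apply Finset.sum_congr rfl
        intro c _
        have h3 : (fun s => x s * (u s * ew q c s)) = (fun s => x s * u s * ew q c s) := by
          funext s; ring
        have h4 : (fun s => x s * (u s * ew q c s) * ew q s c')
            = (fun s => x s * u s * ew q s c' * ew q c s) := by funext s; ring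
        rw [h3, h4]; ring
      rw [hsum, hS, hS'', gs_succ q (b + r), gs_succ q b]
      have hqf : qf q (b + r) = qf q (b + r - 1) * (gs q r + q ^ r * gs q b) := by
        rw [← hT, ht', Nat.add_sub_cancel, qf_succ]
      rw [hqf, hT, pow_add q b r]
      ring

/-- a clique on `b + r` vertices whose last `r ≥ 1` vertices are adjacent to the first vertex
of `L` -/
theorem chiL_front [IsDomain A] {q : A} (hq0 : q ≠ 0) (hq1 : q ≠ 1) (x : Fin N → A) (r b : ℕ)
    (hr : 1 ≤ r) (L : List ℕ) (hL : L ≠ []) :
    chiL q x (descFrom r b ++ descFrom 1 r ++ L)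
      = qf q (b + r - 1) * (q ^ r * gs q b * es x (b + r) * chiL q x L
          + gs q r * PhiP q x (b + r) L) := by
  unfold chiL PhiP
  rw [csumT_append]
  have hR : qf q (b + r - 1) * (q ^ r * gs q b * es x (b + r) * csumT q x L [] (fun _ => 1)
          + gs q r * csumT q x L [] (fun κ => es (fun s => x s * wfac q s 1 κ) (b + r)))
      = csumT q x L [] (fun κ => qf q (b + r - 1) * (q ^ r * gs q b * es x (b + r) * 1
          + gs q r * es (fun s => x s * wfac q s 1 κ) (b + r))) := by
    rw [csumT_mul_left, csumT_add, csumT_mul_left, csumT_mul_left]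
  rw [hR]
  apply csumT_congr
  intro κ2 hκ2
  obtain ⟨c', rest, rfl⟩ := exists_cons_of_length L hL κ2 hκ2
  rw [List.append_nil]
  have h := front_sum hq0 hq1 x c' rest r hr b (fun _ => 1)
  simp only [mul_one] at h
  simp only [wfac_one_cons, mul_one]
  rw [← h]
  apply csumT_congr
  intro κ _
  simp

end Vale.Agent.Lib.P066
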