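import Mathlib
import Vale.Agent.Lib.P066.Bez

namespace Vale.Agent.Lib.P066

open Finset Polynomial

variable {A : Type*} [CommRing A] {N : ℕ}

/-- the kernel identity for a clique all of whose vertices are adjacent to both cut vertices,
the two cut vertices being non-adjacent -/
theorem jId [IsDomain A] {q : A} (hq1 : q ≠ 1) (x : Fin N → A) (c' : Fin N) (a b : ℕ) :
    ∑ c, x c * es (fun s => x s * ew q s c' * ew q c s) a * es (fun s => x s * ew q s c) b
      = ∑ i ∈ range (min a b + 1),
          (q ^ i * gs q (a - i) * es x i * es (fun s => x s * ew q s c') (a + b + 1 - i)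
            + q ^ a * gs q (b + 1 - i) * es x (a + b + 1 - i)
                * es (fun s => x s * ew q s c') i) := by
  set xd : Fin N → A := fun s => x s * ew q s c' with hxd
  set α : Fin N → A[X][X] :=
    fun s => (1 + C (C (1 * xd s)) * C X) * (1 + C (C (q * x s)) * X) with hα
  set β : Fin N → A[X][X] :=
    fun s => (1 + C (C (q * xd s)) * C X) * (1 + C (C (1 * x s)) * X) with hβ
  set γ : Fin N → A[X][X] :=
    fun s => (1 + C (C (q * x s)) * C X) * (1 + C (C (1 * xd s)) * X) with hγ
  have hT : ∀ c, (C (gp (fun s => xd s * ew q c s)) : A[X][X])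
      * (gp (fun s => x s * ew q s c)).map C = pun α β c := by
    intro c; rw [wt_fst, wt_snd, gp2_pun]
  have hβα : ∀ s, β s - α s = C (C ((1 - q) * x s)) * (X - C (C (ew q s c') * X)) := by
    intro s; simp only [hα, hβ, hxd, C_mul, C_sub, C_1, one_mul]; ring
  have hγα : ∀ s, γ s - α s = C (C (x s * (ew q s c' - q))) * (X - C X) := by
    intro s; simp only [hα, hγ, hxd, C_mul, C_sub, one_mul]; ring
  have hγβ : ∀ s, γ s - β s = C (C (x s * (ew q s c' - 1))) * (X - C (C q * X)) := by
    intro s; simp only [hβ, hγ, hxd, C_mul, C_sub, C_1, one_mul]; ring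
  have pα : (∏ s, α s) = C (gp xd) * (gp (fun s => q * x s)).map C := by
    show (∏ s, ((1 + C (C (1 * xd s)) * C X) * (1 + C (C (q * x s)) * X))) = _
    rw [gp2_prod, gp_one_mul']
  have pβ : (∏ s, β s) = C (gp (fun s => q * xd s)) * (gp x).map C := by
    show (∏ s, ((1 + C (C (q * xd s)) * C X) * (1 + C (C (1 * x s)) * X))) = _
    rw [gp2_prod, gp_one_mul']
  have pγ : (∏ s, γ s) = C (gp (fun s => q * x s)) * (gp xd).map C := by
    show (∏ s, ((1 + C (C (q * x s)) * C X) * (1 + C (C (1 * xd s)) * X))) = _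
    rw [gp2_prod, gp_one_mul']
  set W : A[X][X] := ∑ c, C (C (x c)) * pun α β c with hW
  set Q1 : A[X][X] := ∑ c, C (C (x c * (ew q c c' - q))) * pun α γ c with hQ1
  set Q2 : A[X][X] := ∑ c, C (C (x c * (ew q c c' - 1))) * pun β γ c with hQ2
  have e1 : (X - C X) * Q1 = (∏ s, γ s) - ∏ s, α s := by
    rw [← sum_pun α γ, hQ1, Finset.mul_sum]
    apply Finset.sum_congr rfl
    intro c _; rw [hγα]; ring
  have e2 : (X - C (C q * X)) * Q2 = (∏ s, γ s) - ∏ s, β s := by
    rw [← sum_pun β γ, hQ2, Finset.mul_sum]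
    apply Finset.sum_congr rfl
    intro c _; rw [hγβ]; ring
  have eW : C (C (1 - q)) * (X - C X) * (X - C (C q * X)) * W
      = (X - C X) * ((∏ s, β s) - tel α β c')
        + (X - C (C q * X)) * (tel α β (c' + 1) - ∏ s, α s)
        + C (C (1 - q)) * (X - C X) * (X - C (C q * X)) * (C (C (x c')) * pun α β c') := by
    have hsingle : C (C (1 - q)) * (X - C X) * (X - C (C q * X)) * (C (C (x c')) * pun α β c')
        = ∑ c, (if c = c' then C (C (1 - q)) * (X - C X) * (X - C (C q * X))
            * (C (C (x c)) * pun α β c) else 0) := by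
      rw [Finset.sum_ite_eq' Finset.univ c' _, if_pos (Finset.mem_univ c')]
    rw [hsingle, ← sum_pun_lt α β c', ← sum_pun_gt α β c', hW, Finset.mul_sum, Finset.mul_sum,
      Finset.mul_sum, ← Finset.sum_add_distrib, ← Finset.sum_add_distrib]
    apply Finset.sum_congr rfl
    intro c _
    rcases lt_trichotomy c c' with h | h | h
    · rw [if_pos h, if_neg (not_lt_of_gt h), if_neg (ne_of_lt h), hβα, ew_lt h]
      simp only [C_mul, C_sub, C_1]; ring
    · subst h
      rw [if_neg (lt_irrefl _), if_pos rfl]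
      simp
    · rw [if_neg (not_lt_of_gt h), if_pos h, if_neg (ne_of_gt h), hβα, ew_gt h]
      simp only [C_mul, C_sub, C_1, one_mul]; ring
  have hxd0 : xd c' = 0 := by simp only [hxd]; rw [ew_self, mul_zero]
  have hαc : α c' = 1 + C (C (q * x c')) * X := by simp only [hα]; rw [hxd0]; simp
  have hβc : β c' = 1 + C (C (x c')) * X := by simp only [hβ]; rw [hxd0]; simp
  have hpunγ : pun α β c' * (1 + C (C (q * x c')) * C X) = ∏ s, γ s := by
    rw [pun_eq_erase, ← Finset.prod_erase_mul _ _ (Finset.mem_univ c')]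
    congr 1
    · apply Finset.prod_congr rfl
      intro s hs
      have hne : s ≠ c' := Finset.ne_of_mem_erase hs
      rcases lt_or_gt_of_ne hne with h | h
      · rw [if_pos h]; simp only [hα, hγ, hxd]; rw [ew_lt h]
        simp only [C_mul, one_mul]; ring
      · rw [if_neg (not_lt_of_gt h)]; simp only [hβ, hγ, hxd]; rw [ew_gt h]
        simp only [C_mul, one_mul, mul_one]
    · simp only [hγ]; rw [hxd0]; simp
  have hmain : C (C (1 - q)) * W = Q1 - Q2 := by
    have hne1 : (X - C X : A[X][X]) ≠ 0 := X_sub_C_ne_zero _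
    have hne2 : (X - C (C q * X) : A[X][X]) ≠ 0 := X_sub_C_ne_zero _
    rw [tel_eq, tel_succ, hαc, hβc] at eW
    have h0 : (X - C X) * (X - C (C q * X)) * (C (C (1 - q)) * W - (Q1 - Q2)) = 0 := by
      simp only [C_mul, C_sub, C_1] at eW e2 hpunγ ⊢
      linear_combination eW - (X - C (C q) * C X) * e1 + (X - C X) * e2
        + ((1 - C (C q)) * C X) * hpunγ
    have h5 := (mul_eq_zero.mp h0).resolve_left (mul_ne_zero hne1 hne2)
    exact sub_eq_zero.mp h5
  have hcW : (W.coeff b).coeff a = ∑ c, x c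
      * es (fun s => x s * ew q s c' * ew q c s) a * es (fun s => x s * ew q s c) b := by
    rw [hW, finsetSum_coeff, finsetSum_coeff]
    apply Finset.sum_congr rfl
    intro c _
    rw [← hT, coeff_C_mul, coeff_C_mul, coeff2]
    show x c * (es (fun s => x s * ew q s c' * ew q c s) a
      * es (fun s => x s * ew q s c) b) = _
    ring
  have hc1 := bez_coeff (1 : A) (gp (fun s => q * x s)) (gp xd) (gp (fun s => q * x s)) (gp xd) Q1
    (by intro a; simp) (by intro a; simp) (by rw [C_1, one_mul, e1, pγ, pα]; ring)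
  have hc2 := bez_coeff q (gp x) (gp xd) (gp (fun s => q * x s)) (gp (fun s => q * xd s)) Q2
    (gp_coeff_smul q x) (gp_coeff_smul q xd) (by rw [e2, pγ, pβ]; ring)
  have hmc : (1 - q) * (W.coeff b).coeff a = (Q1.coeff b).coeff a - (Q2.coeff b).coeff a := by
    have h6 := congrArg (fun p : A[X][X] => (p.coeff b).coeff a) hmain
    simp only [coeff_C_mul, coeff_sub] at h6
    exact h6
  have hne : (1 : A) - q ≠ 0 := sub_ne_zero.mpr (Ne.symm hq1)
  apply mul_left_cancel₀ hne
  rw [← hcW, hmc, hc1 a b, hc2 a b, one_pow, one_mul, Finset.mul_sum, Finset.mul_sum,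
    ← Finset.sum_sub_distrib]
  apply Finset.sum_congr rfl
  intro i hi
  have hi' : i ≤ min a b := Nat.lt_succ_iff.mp (Finset.mem_range.mp hi)
  have hia : i ≤ a := le_trans hi' (Nat.min_le_left _ _)
  have hib : i ≤ b := le_trans hi' (Nat.min_le_right _ _)
  rw [gp_coeff_smul, gp_coeff_smul]
  have hp1 : q ^ a = q ^ i * q ^ (a - i) := by
    rw [← pow_add]; congr 1; omega
  have hp2 : q ^ (a + b + 1 - i) = q ^ i * q ^ (a - i) * q ^ (b + 1 - i) := by
    rw [← pow_add, ← pow_add]; congr 1; omega
  have h3 := gs_mul q (a - i)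
  have h4 := gs_mul q (b + 1 - i)
  rw [hp1, hp2]
  show q ^ i * es x i * es xd (a + b + 1 - i)
      - q ^ i * q ^ (a - i) * q ^ (b + 1 - i) * es x (a + b + 1 - i) * es xd i
      - q ^ i * q ^ (a - i) * (es x i * es xd (a + b + 1 - i) - es x (a + b + 1 - i) * es xd i)
    = (1 - q) * (q ^ i * gs q (a - i) * es x i * es xd (a + b + 1 - i)
        + q ^ i * q ^ (a - i) * gs q (b + 1 - i) * es x (a + b + 1 - i) * es xd i)
  linear_combination (-(q ^ i * es x i * es xd (a + b + 1 - i))) * h3
    - (q ^ i * q ^ (a - i) * es x (a + b + 1 - i) * es xd i) * h4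

end Vale.Agent.Lib.P066
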