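import Mathlib
import Vale.Agent.Lib.P066.Jid
import Vale.Agent.Lib.P066.Ends

namespace Vale.Agent.Lib.P066

open Finset

variable {A : Type*} [CommRing A] {N : ℕ}

/-- a clique (followed by a tail) whose first `r` vertices carry the extra weight `ew q c₀ ·` -/
theorem clique_first [IsDomain A] {q : A} (hq1 : q ≠ 1) (x : Fin N → A) (p : ℕ)
    (tl : List (Fin N)) (c₀ : Fin N) (b : ℕ) (hb : 1 ≤ b) :
    ∀ (r : ℕ) (u : Fin N → A),
      csumT q x (descFrom p (r + b)) tl
          (fun κ => (κ.map u).prod * ((κ.take r).map (ew q c₀)).prod)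
        = qf q (r + b - 1) * (q ^ r * gs q b * es (fun s => x s * u s * wfac q s p tl) (r + b)
            + gs q r * es (fun s => x s * u s * wfac q s p tl * ew q c₀ s) (r + b))
  | 0, u => by
      obtain ⟨b', rfl⟩ : ∃ b', b = b' + 1 := ⟨b - 1, by omega⟩
      have h := clique_sum hq1 x p tl (b' + 1) u
      simp only [List.take_zero, List.map_nil, List.prod_nil, mul_one, Nat.zero_add, pow_zero,
        one_mul, gs_zero, zero_mul, add_zero, Nat.add_sub_cancel]
      rw [h, qf_succ]; ring
  | r + 1, u => by
      have e : r + 1 + b = (r + b) + 1 := by omega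
      rw [e]
      simp only [descFrom, csumT, Nat.add_sub_cancel]
      have h1 : ∀ c, csumT q x (descFrom p (r + b)) tl
            (fun κ => wfac q c (r + b + p) (κ ++ tl)
              * (((c :: κ).map u).prod * (((c :: κ).take (r + 1)).map (ew q c₀)).prod))
          = u c * ew q c₀ c * wfac q c p tl * (qf q (r + b - 1)
              * (q ^ r * gs q b * es (fun s => x s * (u s * ew q c s) * wfac q s p tl) (r + b)
                + gs q r * es (fun s => x s * (u s * ew q c s) * wfac q s p tl * ew q c₀ s)
                    (r + b))) := by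
        intro c
        rw [← clique_first hq1 x p tl c₀ b hb r (fun s => u s * ew q c s), ← csumT_mul_left]
        apply csumT_congr
        intro κ hκ
        rw [length_descFrom] at hκ
        rw [← hκ, wfac_append_of_length, List.map_cons, List.prod_cons,
          List.take_succ_cons, List.map_cons, List.prod_cons, List.prod_map_mul]
        ring
      simp only [h1]
      have hS' := symS' hq1 (fun s => x s * u s * wfac q s p tl) c₀ (r + b)
      have hS := symS hq1 (fun s => x s * u s * wfac q s p tl * ew q c₀ s) (r + b)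
      obtain ⟨t', ht'⟩ : ∃ t', r + b = t' + 1 := ⟨r + b - 1, by omega⟩
      have hT : gs q (r + b) = gs q r + q ^ r * gs q b := gs_add q r b
      have hR := gs_mul q r
      have hB := gs_mul q b
      have hsum : ∑ c, x c * (u c * ew q c₀ c * wfac q c p tl * (qf q (r + b - 1)
              * (q ^ r * gs q b * es (fun s => x s * (u s * ew q c s) * wfac q s p tl) (r + b)
                + gs q r * es (fun s => x s * (u s * ew q c s) * wfac q s p tl * ew q c₀ s)
                    (r + b))))
          = qf q (r + b - 1) * (q ^ r * gs q b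
              * (∑ c, x c * u c * wfac q c p tl * ew q c₀ c
                  * es (fun s => x s * u s * wfac q s p tl * ew q c s) (r + b))
            + gs q r * (∑ c, x c * u c * wfac q c p tl * ew q c₀ c
                * es (fun s => x s * u s * wfac q s p tl * ew q c₀ s * ew q c s) (r + b))) := by
        rw [Finset.mul_sum, Finset.mul_sum, mul_add, Finset.mul_sum, Finset.mul_sum,
          ← Finset.sum_add_distrib]
        apply Finset.sum_congr rfl
        intro c _
        have h3 : (fun s => x s * (u s * ew q c s) * wfac q s p tl)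
            = (fun s => x s * u s * wfac q s p tl * ew q c s) := by
          funext s; ring
        have h4 : (fun s => x s * (u s * ew q c s) * wfac q s p tl * ew q c₀ s)
            = (fun s => x s * u s * wfac q s p tl * ew q c₀ s * ew q c s) := by funext s; ring
        rw [h3, h4]; ring
      rw [hsum, hS', hS, gs_succ q (r + b), gs_succ q r, hT, pow_add q r b, pow_succ q r]
      have hqf : qf q (r + b) = qf q (r + b - 1) * (gs q r + q ^ r * gs q b) := by
        rw [← hT, ht', Nat.add_sub_cancel, qf_succ]
      rw [hqf]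
      linear_combination
        (-(qf q (r + b - 1) * es (fun s => x s * u s * wfac q s p tl * ew q c₀ s) (r + b + 1)
            * q ^ r * gs q b)) * hR
        + (qf q (r + b - 1) * es (fun s => x s * u s * wfac q s p tl * ew q c₀ s) (r + b + 1)
            * q ^ r * gs q r) * hB

/-- the same for a possibly empty remainder of the clique -/
theorem clique_first' [IsDomain A] {q : A} (hq1 : q ≠ 1) (x : Fin N → A) (p : ℕ)
    (tl : List (Fin N)) (c₀ : Fin N) (b r : ℕ) (u : Fin N → A) :
    csumT q x (descFrom p (r + 1 + b)) tl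
        (fun κ => (κ.map u).prod * ((κ.take (r + 1)).map (ew q c₀)).prod)
      = qf q (r + b) * (q ^ (r + 1) * gs q b * es (fun s => x s * u s * wfac q s p tl) (r + 1 + b)
          + gs q (r + 1) * es (fun s => x s * u s * wfac q s p tl * ew q c₀ s) (r + 1 + b)) := by
  rcases Nat.eq_zero_or_pos b with hb | hb
  · subst hb
    have h := clique_sum hq1 x p tl (r + 1) (fun s => u s * ew q c₀ s)
    have h2 : (fun s => x s * (u s * ew q c₀ s) * wfac q s p tl)
        = (fun s => x s * u s * wfac q s p tl * ew q c₀ s) := by funext s; ring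
    rw [h2] at h
    simp only [Nat.add_zero, gs_zero, mul_zero, zero_mul, zero_add]
    rw [← mul_assoc, ← qf_succ, ← h]
    apply csumT_congr
    intro κ hκ
    rw [length_descFrom] at hκ
    rw [← hκ, List.take_length, List.prod_map_mul]
  · have h := clique_first hq1 x p tl c₀ b hb (r + 1) u
    have e : r + 1 + b - 1 = r + b := by omega
    rw [e] at h
    exact h

/-- the sum appearing in the kernel of a block melted at one of its two cut vertices -/
noncomputable def jj (q : A) (x : Fin N → A) (P : ℕ → A) (n t : ℕ) : A :=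
  ∑ i ∈ range (min n t + 1),
    (q ^ i * gs q (n - i) * es x i * P (n + t + 1 - i)
      + q ^ n * gs q (t + 1 - i) * es x (n + t + 1 - i) * P i)

lemma kerJ [IsDomain A] {q : A} (hq1 : q ≠ 1) (x : Fin N → A) (c' : Fin N) (n t : ℕ) :
    ∑ c, x c * es (fun s => x s * ew q s c) t * es (fun s => x s * ew q s c' * ew q c s) n
      = jj q x (fun j => es (fun s => x s * ew q s c') j) n t := by
  have h := jId hq1 x c' n t
  unfold jj
  rw [← h]
  apply Finset.sum_congr rfl
  intro c _
  ring

lemma csumT_jj (q : A) (x : Fin N → A) (L : List ℕ) (F : ℕ → List (Fin N) → A) (n t : ℕ) :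
    csumT q x L [] (fun κ => jj q x (fun j => F j κ) n t)
      = jj q x (fun j => csumT q x L [] (F j)) n t := by
  unfold jj
  rw [csumT_sum]
  apply Finset.sum_congr rfl
  intro i _
  rw [csumT_add, csumT_mul_left, csumT_mul_left]

lemma csumT_sum_mul (q : A) (x : Fin N → A) (L : List ℕ) (tl : List (Fin N)) (w : Fin N → A)
    (G : Fin N → List (Fin N) → A) :
    ∑ c, w c * csumT q x L tl (G c) = csumT q x L tl (fun κ => ∑ c, w c * G c κ) := by
  rw [csumT_sum]
  apply Finset.sum_congr rfl
  intro c _
  rw [csumT_mul_left]

/-- transfer through a clique block melted at its first cut vertex -/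
theorem transferB [IsDomain A] {q : A} (hq1 : q ≠ 1) (x : Fin N → A) (s m t : ℕ) (L : List ℕ)
    (hL : L ≠ []) :
    PhiP q x t ((s + 1) :: descFrom 1 (s + 1 + m) ++ L)
      = qf q (s + m) * (q ^ (s + 1) * gs q m * gs q (t + 1) * es x (t + 1)
            * PhiP q x (s + 1 + m) L
          + gs q (s + 1) * jj q x (fun j => PhiP q x j L) (s + 1 + m) t) := by
  unfold PhiP
  rw [List.cons_append]
  simp only [csumT]
  have h1 : ∀ c, csumT q x (descFrom 1 (s + 1 + m) ++ L) []
        (fun κ => wfac q c (s + 1) (κ ++ []) * es (fun s' => x s' * wfac q s' 1 (c :: κ)) t)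
      = csumT q x L [] (fun κ2 => es (fun s' => x s' * ew q s' c) t
          * (qf q (s + m) * (q ^ (s + 1) * gs q m
                * es (fun s' => x s' * wfac q s' 1 κ2) (s + 1 + m)
            + gs q (s + 1) * es (fun s' => x s' * wfac q s' 1 κ2 * ew q c s') (s + 1 + m)))) := by
    intro c
    rw [csumT_append]
    apply csumT_congr
    intro κ2 _
    have h2 := clique_first' hq1 x 1 (κ2 ++ []) c m s (fun _ => 1)
    simp only [mul_one, List.append_nil] at h2
    rw [List.append_nil, ← h2, ← csumT_mul_left]
    apply csumT_congr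
    intro κ1 hκ1
    rw [length_descFrom] at hκ1
    simp only [wfac_one_cons, List.append_nil]
    unfold wfac
    rw [List.take_append_of_le_length (by omega)]
    simp only [List.map_const', List.prod_replicate, one_pow, one_mul]
    ring
  simp only [h1]
  rw [csumT_sum_mul q x L [] x]
  have hR : qf q (s + m) * (q ^ (s + 1) * gs q m * gs q (t + 1) * es x (t + 1)
            * csumT q x L [] (fun κ => es (fun s' => x s' * wfac q s' 1 κ) (s + 1 + m))
          + gs q (s + 1) * jj q x (fun j => csumT q x L []
              (fun κ => es (fun s' => x s' * wfac q s' 1 κ) j)) (s + 1 + m) t)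
      = csumT q x L [] (fun κ => qf q (s + m) * (q ^ (s + 1) * gs q m * gs q (t + 1)
            * es x (t + 1) * es (fun s' => x s' * wfac q s' 1 κ) (s + 1 + m)
          + gs q (s + 1) * jj q x (fun j => es (fun s' => x s' * wfac q s' 1 κ) j)
              (s + 1 + m) t)) := by
    rw [csumT_mul_left, csumT_add, csumT_mul_left, csumT_mul_left, csumT_jj]
  rw [hR]
  apply csumT_congr
  intro κ2 hκ2
  obtain ⟨c', rest, rfl⟩ := exists_cons_of_length L hL κ2 hκ2
  simp only [wfac_one_cons]
  have hI := symI hq1 x t
  have hJ := kerJ hq1 x c' (s + 1 + m) t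
  rw [← hJ]
  have e1 : qf q (s + m) * (q ^ (s + 1) * gs q m * gs q (t + 1) * es x (t + 1)
          * es (fun s' => x s' * ew q s' c') (s + 1 + m)
        + gs q (s + 1) * ∑ c, x c * es (fun s' => x s' * ew q s' c) t
            * es (fun s' => x s' * ew q s' c' * ew q c s') (s + 1 + m))
      = qf q (s + m) * q ^ (s + 1) * gs q m * es (fun s' => x s' * ew q s' c') (s + 1 + m)
          * (gs q (t + 1) * es x (t + 1))
        + qf q (s + m) * gs q (s + 1) * ∑ c, x c * es (fun s' => x s' * ew q s' c) t
            * es (fun s' => x s' * ew q s' c' * ew q c s') (s + 1 + m) := by ring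
  rw [e1, ← hI, Finset.mul_sum, Finset.mul_sum, ← Finset.sum_add_distrib]
  apply Finset.sum_congr rfl
  intro c _
  ring

/-- transfer through a clique block melted at its last cut vertex -/
theorem transferC [IsDomain A] {q : A} (hq0 : q ≠ 0) (hq1 : q ≠ 1) (x : Fin N → A) (b r t : ℕ)
    (L : List ℕ) (hL : L ≠ []) :
    PhiP q x t (descFrom (r + 1) (b + 1) ++ descFrom 1 (r + 1) ++ L)
      = qf q (b + r) * (q ^ (r + 1) * gs q b * yy q x t (b + r + 1) * chiL q x L
          + gs q (r + 1) * jj q x (fun j => PhiP q x j L) (b + r + 1) t) := by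
  unfold PhiP chiL
  rw [show descFrom (r + 1) (b + 1) = (b + (r + 1)) :: descFrom (r + 1) b from rfl,
    List.cons_append, List.cons_append]
  simp only [csumT]
  have h1 : ∀ c, csumT q x (descFrom (r + 1) b ++ descFrom 1 (r + 1) ++ L) []
        (fun κ => wfac q c (b + (r + 1)) (κ ++ [])
          * es (fun s' => x s' * wfac q s' 1 (c :: κ)) t)
      = csumT q x L [] (fun κ2 => es (fun s' => x s' * ew q s' c) t
          * (qf q (b + r) * (q ^ (r + 1) * gs q b
                * es (fun s' => x s' * ew q c s') (b + r + 1)
            + gs q (r + 1) * es (fun s' => x s' * wfac q s' 1 κ2 * ew q c s') (b + r + 1)))) := by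
    intro c
    rw [csumT_append]
    apply csumT_congr
    intro κ2 hκ2
    obtain ⟨c', rest, rfl⟩ := exists_cons_of_length L hL κ2 hκ2
    have h2 := front_sum hq0 hq1 x c' rest (r + 1) (by omega) b (ew q c)
    have e : b + (r + 1) - 1 = b + r := by omega
    rw [e] at h2
    have h3 : (fun s' => x s' * ew q c s' * ew q s' c')
        = (fun s' => x s' * wfac q s' 1 (c' :: rest) * ew q c s') := by
      funext s'; rw [wfac_one_cons]; ring
    rw [h3] at h2
    rw [List.append_nil, show b + r + 1 = b + (r + 1) from rfl, ← h2, ← csumT_mul_left]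
    apply csumT_congr
    intro κ1 hκ1
    rw [List.length_append, length_descFrom, length_descFrom] at hκ1
    have h5 := wfac_append_of_length q c κ1 (c' :: rest) 0
    rw [hκ1, wfac_zero, mul_one, Nat.add_zero] at h5
    simp only [wfac_one_cons, List.append_nil]
    rw [h5]
    ring
  simp only [h1]
  rw [csumT_sum_mul q x L [] x]
  have hR : qf q (b + r) * (q ^ (r + 1) * gs q b * yy q x t (b + r + 1)
            * csumT q x L [] (fun _ => 1)
          + gs q (r + 1) * jj q x (fun j => csumT q x L []
              (fun κ => es (fun s' => x s' * wfac q s' 1 κ) j)) (b + r + 1) t)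
      = csumT q x L [] (fun κ => qf q (b + r) * (q ^ (r + 1) * gs q b * yy q x t (b + r + 1) * 1
          + gs q (r + 1) * jj q x (fun j => es (fun s' => x s' * wfac q s' 1 κ) j)
              (b + r + 1) t)) := by
    rw [csumT_mul_left, csumT_add, csumT_mul_left, csumT_mul_left, csumT_jj]
  rw [hR]
  apply csumT_congr
  intro κ2 hκ2
  obtain ⟨c', rest, rfl⟩ := exists_cons_of_length L hL κ2 hκ2
  simp only [wfac_one_cons]
  have hT := twoClique hq1 x t (b + r + 1)
  have hJ := kerJ hq1 x c' (b + r + 1) t
  rw [← hJ]
  unfold yy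
  rw [← hT, mul_one]
  have e2 : ∀ (S1 S2 : A), qf q (b + r) * (q ^ (r + 1) * gs q b * S1 + gs q (r + 1) * S2)
      = (qf q (b + r) * q ^ (r + 1) * gs q b) * S1 + (qf q (b + r) * gs q (r + 1)) * S2 := by
    intro S1 S2; ring
  rw [e2, Finset.mul_sum, Finset.mul_sum, ← Finset.sum_add_distrib]
  apply Finset.sum_congr rfl
  intro c _
  ring

end Vale.Agent.Lib.P066
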