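import Mathlib
import Vale.Agent.Lib.P066.Csum

namespace Vale.Agent.Lib.P066

open Finset

variable {A : Type*} [CommRing A] {N : ℕ}

/-- product of the edge weights of a colouring given as a list -/
def wtL (q : A) : List ℕ → List (Fin N) → A
  | a :: d, c :: κ => wfac q c a κ * wtL q d κ
  | _, _ => 1

lemma wtL_cons (q : A) (a : ℕ) (d : List ℕ) (c : Fin N) (κ : List (Fin N)) :
    wtL q (a :: d) (c :: κ) = wfac q c a κ * wtL q d κ := rfl

lemma wtL_nil (q : A) (κ : List (Fin N)) : wtL q [] κ = 1 := by
  cases κ <;> rfl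

lemma sum_cons {n : ℕ} (G : (Fin (n + 1) → Fin N) → A) :
    ∑ κ, G κ = ∑ c, ∑ κ' : Fin n → Fin N, G (Fin.cons c κ') := by
  rw [← (Fin.consEquiv (fun _ : Fin (n + 1) => Fin N)).sum_comp, Fintype.sum_prod_type]
  rfl

lemma csumT_eq_sum (q : A) (x : Fin N → A) :
    ∀ (d : List ℕ) (F : List (Fin N) → A),
      csumT q x d [] F
        = ∑ κ : Fin d.length → Fin N,
            (∏ i, x (κ i)) * wtL q d (List.ofFn κ) * F (List.ofFn κ)
  | [], F => by
      simp [csumT, wtL_nil]
  | a :: d, F => by
      simp only [csumT]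
      have ih := fun c => csumT_eq_sum q x d (fun κ => wfac q c a (κ ++ []) * F (c :: κ))
      simp only [ih]
      have e := sum_cons (N := N) (n := d.length)
        (fun κ : Fin (d.length + 1) → Fin N =>
          (∏ i, x (κ i)) * wtL q (a :: d) (List.ofFn κ) * F (List.ofFn κ))
      refine Eq.trans ?_ e.symm
      apply Finset.sum_congr rfl
      intro c _
      rw [Finset.mul_sum]
      apply Finset.sum_congr rfl
      intro κ _
      simp only [Fin.prod_univ_succ, Fin.cons_zero, Fin.cons_succ,
        List.ofFn_cons, wtL_cons, List.append_nil]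
      ring

lemma wfac_ofFn (q : A) (c : Fin N) (a : ℕ) {n : ℕ} (κ : Fin n → Fin N) :
    wfac q c a (List.ofFn κ) = ∏ j : Fin n, if (j : ℕ) < a then ew q c (κ j) else 1 := by
  unfold wfac
  rw [List.map_take, List.map_ofFn, List.prod_take_ofFn, Finset.prod_filter]
  rfl

lemma wtL_ofFn (q : A) :
    ∀ (d : List ℕ) (κ : Fin d.length → Fin N),
      wtL q d (List.ofFn κ)
        = ∏ i : Fin d.length, ∏ j : Fin d.length,
            if (i : ℕ) < j ∧ (j : ℕ) ≤ i + d.getD i 0 then ew q (κ i) (κ j) else 1
  | [], κ => by simp [wtL_nil]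
  | a :: d, κ => by
      have h0 : ∀ κ : Fin (d.length + 1) → Fin N,
          wtL q (a :: d) (List.ofFn κ)
            = ∏ i : Fin (d.length + 1), ∏ j : Fin (d.length + 1),
              if (i : ℕ) < j ∧ (j : ℕ) ≤ i + (a :: d).getD i 0 then ew q (κ i) (κ j) else 1 := by
        intro κ
        rw [List.ofFn_succ, wtL_cons, wfac_ofFn, wtL_ofFn q d (fun i => κ i.succ),
          Fin.prod_univ_succ]
        congr 1
        · rw [Fin.prod_univ_succ]
          simp only [Fin.val_zero, lt_self_iff_false, false_and, if_false, one_mul, Fin.val_succ,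
            List.getD_cons_zero, Nat.zero_add, Nat.succ_pos, true_and, Nat.succ_le_iff]
        · apply Finset.prod_congr rfl
          intro i _
          rw [Fin.prod_univ_succ]
          simp only [Fin.val_zero, Fin.val_succ, Nat.not_lt_zero, false_and, if_false, one_mul,
            List.getD_cons_succ, Nat.succ_lt_succ_iff]
          apply Finset.prod_congr rfl
          intro j _
          have e : ((j : ℕ) + 1 ≤ (i : ℕ) + 1 + d.getD (i : ℕ) 0)
              ↔ ((j : ℕ) ≤ (i : ℕ) + d.getD (i : ℕ) 0) := by omega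
          simp only [e]
      exact h0 κ

end Vale.Agent.Lib.P066
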