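import Mathlib
import Vale.Agent.Lib.P066.Bez

namespace Vale.Agent.Lib.P066

open Finset Polynomial

variable {A : Type*} [CommRing A] {N : ℕ}

/-- the kernel identity for two alphabets `x` and `z`, before division by `1 - q` -/
theorem twoAlphabet (q : A) (x z : Fin N → A) (j m : ℕ) :
    (1 - q) * (∑ c, x c * es (fun s => x s * ew q s c) j * es (fun s => z s * ew q c s) (m + 1)
        - ∑ c, z c * es (fun s => x s * ew q s c) (j + 1) * es (fun s => z s * ew q c s) m)
      = (q ^ (m + 1) - q ^ (j + 1)) * es x (j + 1) * es z (m + 1) := by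
  set F : Fin N → A[X][X] :=
    fun s => (1 + C (C (1 * z s)) * C X) * (1 + C (C (q * x s)) * X) with hF
  set G : Fin N → A[X][X] :=
    fun s => (1 + C (C (q * z s)) * C X) * (1 + C (C (1 * x s)) * X) with hG
  have hP : ∀ c, (C (gp (fun s => z s * ew q c s)) : A[X][X])
      * (gp (fun s => x s * ew q s c)).map C = pun F G c := by
    intro c; rw [wt_fst, wt_snd, gp2_pun]
  have hd : ∀ c, G c - F c
      = C (C ((1 - q) * x c)) * X - C (C ((1 - q) * z c) * X) := by
    intro c; simp only [hF, hG, C_mul, C_sub, C_1, one_mul]; ring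
  have htel := sum_pun F G
  have h1 : (∏ s, G s) = C (gp (fun s => q * z s)) * (gp x).map C := by
    show (∏ s, ((1 + C (C (q * z s)) * C X) * (1 + C (C (1 * x s)) * X))) = _
    rw [gp2_prod, gp_one_mul']
  have h2 : (∏ s, F s) = C (gp z) * (gp (fun s => q * x s)).map C := by
    show (∏ s, ((1 + C (C (1 * z s)) * C X) * (1 + C (C (q * x s)) * X))) = _
    rw [gp2_prod, gp_one_mul']
  have hcp : ∀ (c : Fin N) (a b : ℕ), ((pun F G c).coeff b).coeff a
      = es (fun s => z s * ew q c s) a * es (fun s => x s * ew q s c) b := by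
    intro c a b
    rw [← hP, coeff2]
    rfl
  have hterm : ∀ c, ((pun F G c * (G c - F c)).coeff (j + 1)).coeff (m + 1)
      = (1 - q) * (x c * es (fun s => x s * ew q s c) j * es (fun s => z s * ew q c s) (m + 1)
          - z c * es (fun s => x s * ew q s c) (j + 1) * es (fun s => z s * ew q c s) m) := by
    intro c
    rw [hd, mul_sub, coeff_sub, coeff_sub]
    have e1 : pun F G c * (C (C ((1 - q) * x c)) * X)
        = C (C ((1 - q) * x c)) * (pun F G c * X) := by ring
    rw [e1, coeff_C_mul, coeff_mul_X, coeff_C_mul, coeff_mul_C]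
    have e2 : (pun F G c).coeff (j + 1) * (C ((1 - q) * z c) * X)
        = C ((1 - q) * z c) * ((pun F G c).coeff (j + 1) * X) := by ring
    rw [e2, coeff_C_mul, coeff_mul_X, hcp, hcp]
    ring
  have hc := congrArg (fun p : A[X][X] => (p.coeff (j + 1)).coeff (m + 1)) htel
  simp only [finsetSum_coeff, hterm] at hc
  rw [h1, h2, coeff_sub, coeff_sub, coeff2, coeff2] at hc
  have e3 : (gp (fun s => q * z s)).coeff (m + 1) = q ^ (m + 1) * es z (m + 1) :=
    es_smul q z (m + 1)
  have e4 : (gp (fun s => q * x s)).coeff (j + 1) = q ^ (j + 1) * es x (j + 1) :=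
    es_smul q x (j + 1)
  rw [e3, e4] at hc
  have e5 : (gp x).coeff (j + 1) = es x (j + 1) := rfl
  have e6 : (gp z).coeff (m + 1) = es z (m + 1) := rfl
  rw [e5, e6] at hc
  rw [← Finset.sum_sub_distrib, Finset.mul_sum, hc]
  ring

/-- the kernel identity for two alphabets -/
theorem twoAlphabet' [IsDomain A] {q : A} (hq1 : q ≠ 1) (x z : Fin N → A) (j m : ℕ)
    (hmj : m ≤ j) :
    ∑ c, x c * es (fun s => x s * ew q s c) j * es (fun s => z s * ew q c s) (m + 1)
      = ∑ c, z c * es (fun s => x s * ew q s c) (j + 1) * es (fun s => z s * ew q c s) m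
        + q ^ (m + 1) * gs q (j - m) * es x (j + 1) * es z (m + 1) := by
  have h := twoAlphabet q x z j m
  have hne : (1 : A) - q ≠ 0 := sub_ne_zero.mpr (Ne.symm hq1)
  apply mul_left_cancel₀ hne
  have h3 := gs_mul q (j - m)
  have hp : q ^ (j + 1) = q ^ (m + 1) * q ^ (j - m) := by
    rw [← pow_add]; congr 1; omega
  rw [hp] at h
  linear_combination h - (q ^ (m + 1) * es x (j + 1) * es z (m + 1)) * h3

/-- the one-vertex kernel identity -/
theorem kerOne [IsDomain A] {q : A} (hq1 : q ≠ 1) (y : Fin N → A) (b : Fin N) (m : ℕ) :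
    ∑ c, y c * ew q c b * es (fun s => y s * ew q s c) m
      = es (fun s => y s * ew q s b) (m + 1) + q * gs q m * es y (m + 1) := by
  have h := kernelId hq1 y b 0 m
  simp only [es_zero, mul_one, Nat.zero_min, zero_add, Finset.range_one, Finset.sum_singleton,
    pow_zero, one_mul, Nat.sub_zero, gs_one, pow_one] at h
  exact h

/-- the first elementary symmetric polynomial -/
theorem es_one [IsDomain A] {q : A} (hq1 : q ≠ 1) (y : Fin N → A) : es y 1 = ∑ c, y c := by
  have h := symI hq1 y 0
  simp only [es_zero, mul_one, zero_add, gs_one, one_mul] at h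
  exact h.symm

end Vale.Agent.Lib.P066
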