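import Mathlib
import Vale.Agent.Lib.P066.Defs

namespace Vale.Agent.Lib.P066

/-- A block of a chain: a clique between two consecutive cut vertices `w` (its first vertex)
and `w'` (its last vertex, which is the first vertex of the next block), possibly melted at
one of the two cut vertices. -/
inductive Blk : Type
  /-- `full n`: the clique on `w`, `n` further vertices and `w'` -/
  | full : ℕ → Blk
  /-- `meltFirst s m`: a clique on `s + 1 + m` vertices and `w'`, with `w` adjacent exactly
  to the first `s + 1` of these vertices -/
  | meltFirst : ℕ → ℕ → Blk
  /-- `meltLast b r`: a clique on `w` and `b + r + 1` further vertices, with `w'` adjacent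
  exactly to the last `r + 1` of these vertices -/
  | meltLast : ℕ → ℕ → Blk

/-- forward degrees of the vertices of a block other than its last vertex `w'` -/
def Blk.degs : Blk → List ℕ
  | Blk.full n => descFrom 1 (n + 1)
  | Blk.meltFirst s m => (s + 1) :: descFrom 1 (s + 1 + m)
  | Blk.meltLast b r => descFrom (r + 1) (b + 1) ++ descFrom 1 (r + 1)

/-- forward degrees of the chain of the blocks `β`, consecutive blocks sharing a cut vertex;
the final `0` is the last vertex of the last block -/
def blockChain (β : List Blk) : List ℕ := (β.map Blk.degs).flatten ++ [0]

end Vale.Agent.Lib.P066
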