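import Mathlib
import Vale.Agent.Lib.P066.Bridge
import Vale.Agent.Lib.P066.Ends

namespace Vale.Agent.Lib.P066

open Finset

section general

variable {A : Type*} [CommRing A] {N : ℕ}

lemma prod_ew {ι : Type*} (q : A) (s : Finset ι) (a b : ι → Fin N) :
    ∏ p ∈ s, ew q (a p) (b p)
      = if ∀ p ∈ s, a p ≠ b p then q ^ (s.filter (fun p => a p < b p)).card else 0 := by
  by_cases h : ∀ p ∈ s, a p ≠ b p
  · rw [if_pos h]
    have h1 : ∀ p ∈ s, ew q (a p) (b p) = if a p < b p then q else 1 := by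
      intro p hp
      unfold ew
      rw [if_neg (h p hp)]
    rw [Finset.prod_congr rfl h1, Finset.prod_ite, Finset.prod_const, Finset.prod_const_one,
      mul_one]
  · rw [if_neg h]
    simp only [not_forall, not_not] at h
    obtain ⟨p, hp, hpe⟩ := h
    apply Finset.prod_eq_zero hp
    rw [hpe, ew_self]

lemma chiL_eq_sum (q : A) (x : Fin N → A) (d : List ℕ) :
    chiL q x d = ∑ κ : Fin d.length → Fin N,
      if ∀ i j : Fin d.length, (i : ℕ) < j → (j : ℕ) ≤ i + d.getD i 0 → κ i ≠ κ j then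
        q ^ (Finset.univ.filter (fun p : Fin d.length × Fin d.length =>
            ((p.1 : ℕ) < p.2 ∧ (p.2 : ℕ) ≤ p.1 + d.getD p.1 0) ∧ κ p.1 < κ p.2)).card
          * ∏ i, x (κ i)
      else 0 := by
  unfold chiL
  rw [csumT_eq_sum]
  apply Finset.sum_congr rfl
  intro κ _
  rw [wtL_ofFn, mul_one]
  have h1 : (∏ i : Fin d.length, ∏ j : Fin d.length,
        if (i : ℕ) < j ∧ (j : ℕ) ≤ i + d.getD i 0 then ew q (κ i) (κ j) else 1)
      = ∏ p ∈ (Finset.univ.filter (fun p : Fin d.length × Fin d.length =>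
            (p.1 : ℕ) < p.2 ∧ (p.2 : ℕ) ≤ p.1 + d.getD p.1 0)), ew q (κ p.1) (κ p.2) := by
    rw [Finset.prod_filter, ← Finset.univ_product_univ, Finset.prod_product]
  rw [h1, prod_ew, Finset.filter_filter]
  have h2 : (∀ p ∈ (Finset.univ.filter (fun p : Fin d.length × Fin d.length =>
            (p.1 : ℕ) < p.2 ∧ (p.2 : ℕ) ≤ p.1 + d.getD p.1 0)), κ p.1 ≠ κ p.2)
      ↔ (∀ i j : Fin d.length, (i : ℕ) < j → (j : ℕ) ≤ i + d.getD i 0 → κ i ≠ κ j) := by
    constructor
    · intro h i j hij hj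
      exact h (i, j) (Finset.mem_filter.mpr ⟨Finset.mem_univ _, hij, hj⟩)
    · intro h p hp
      simp only [Finset.mem_filter, Finset.mem_univ, true_and] at hp
      exact h p.1 p.2 hp.1 hp.2
  by_cases hc : ∀ i j : Fin d.length, (i : ℕ) < j → (j : ℕ) ≤ i + d.getD i 0 → κ i ≠ κ j
  · rw [if_pos hc, if_pos (h2.mpr hc)]
    ring
  · rw [if_neg hc, if_neg (fun h => hc (h2.mp h))]
    ring

end general

section poly

open Polynomial

variable {N : ℕ}

/-- the variable `q` -/
noncomputable def qq (N : ℕ) : MvPolynomial (Fin N) ℤ[X] := MvPolynomial.C Polynomial.X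

/-- the variables `x` -/
noncomputable def xx (N : ℕ) : Fin N → MvPolynomial (Fin N) ℤ[X] := fun i => MvPolynomial.X i

lemma qq_ne_zero (N : ℕ) : qq N ≠ 0 := by
  unfold qq
  intro h
  rw [← map_zero (MvPolynomial.C : ℤ[X] →+* MvPolynomial (Fin N) ℤ[X])] at h
  exact Polynomial.X_ne_zero (MvPolynomial.C_injective _ _ h)

lemma qq_ne_one (N : ℕ) : qq N ≠ 1 := by
  unfold qq
  intro h
  rw [← map_one (MvPolynomial.C : ℤ[X] →+* MvPolynomial (Fin N) ℤ[X])] at h
  have h2 : (Polynomial.X : ℤ[X]) = 1 := MvPolynomial.C_injective _ _ h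
  have h3 := congrArg (fun p : ℤ[X] => p.coeff 1) h2
  simp [Polynomial.coeff_X, Polynomial.coeff_one] at h3

theorem chromQSym_eq (N : ℕ) (d : List ℕ) : chromQSym N d = chiL (qq N) (xx N) d := by
  rw [chiL_eq_sum]
  unfold chromQSym qq xx
  apply Finset.sum_congr rfl
  intro κ _
  by_cases hc : ∀ i j : Fin d.length, (i : ℕ) < j → (j : ℕ) ≤ i + d.getD i 0 → κ i ≠ κ j
  · rw [if_pos hc, if_pos hc, map_pow]
  · rw [if_neg hc, if_neg hc]

lemma es_xx (N k : ℕ) : es (xx N) k = MvPolynomial.esymm (Fin N) ℤ[X] k := by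
  unfold es gp xx
  rw [Finset.prod_one_add]
  simp only [Finset.prod_mul_distrib, Finset.prod_const, ← map_prod]
  rw [Polynomial.finsetSum_coeff]
  simp only [Polynomial.coeff_C_mul, Polynomial.coeff_X_pow, mul_ite, mul_one, mul_zero]
  rw [← Finset.sum_filter, MvPolynomial.esymm, Finset.powersetCard_eq_filter]
  apply Finset.sum_congr
  · ext t
    simp [eq_comm]
  · intro t _
    rfl

end poly

end Vale.Agent.Lib.P066
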