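import Mathlib
import Vale.Agent.Lib.P066.Pos

namespace Vale.Agent.Lib.P066

open Finset Polynomial

/-- a family of polynomials, one for each number `N` of variables, that is given by a single
formal polynomial in the `e_k` with coefficients in `ℕ[q]` -/
def EPos (f : ∀ N : ℕ, MvPolynomial (Fin N) ℤ[X]) : Prop :=
  ∃ F : MvPolynomial ℕ ℕ[X], ∀ N, f N = evE N F

lemma ep_add {f g : ∀ N : ℕ, MvPolynomial (Fin N) ℤ[X]} (hf : EPos f) (hg : EPos g) :
    EPos (fun N => f N + g N) := by
  obtain ⟨F, hF⟩ := hf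
  obtain ⟨G, hG⟩ := hg
  exact ⟨F + G, fun N => by simp only [hF, hG, map_add]⟩

lemma ep_mul {f g : ∀ N : ℕ, MvPolynomial (Fin N) ℤ[X]} (hf : EPos f) (hg : EPos g) :
    EPos (fun N => f N * g N) := by
  obtain ⟨F, hF⟩ := hf
  obtain ⟨G, hG⟩ := hg
  exact ⟨F * G, fun N => by simp only [hF, hG, map_mul]⟩

lemma ep_one : EPos (fun _ => 1) := ⟨1, fun N => by simp only [map_one]⟩

lemma ep_zero : EPos (fun _ => 0) := ⟨0, fun N => by simp only [map_zero]⟩

lemma ep_pow {f : ∀ N : ℕ, MvPolynomial (Fin N) ℤ[X]} (hf : EPos f) (n : ℕ) :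
    EPos (fun N => f N ^ n) := by
  obtain ⟨F, hF⟩ := hf
  exact ⟨F ^ n, fun N => by simp only [hF, map_pow]⟩

lemma ep_sum {ι : Type*} (s : Finset ι) (f : ι → ∀ N : ℕ, MvPolynomial (Fin N) ℤ[X])
    (h : ∀ i ∈ s, EPos (f i)) : EPos (fun N => ∑ i ∈ s, f i N) := by
  classical
  choose! F hF using h
  exact ⟨∑ i ∈ s, F i, fun N => by
    simp only [map_sum]
    exact Finset.sum_congr rfl (fun i hi => hF i hi N)⟩

lemma ep_q : EPos (fun N => qq N) := by
  refine ⟨MvPolynomial.C Polynomial.X, fun N => ?_⟩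
  unfold qq evE
  simp

lemma ep_es (k : ℕ) : EPos (fun N => es (xx N) k) := by
  refine ⟨MvPolynomial.X k, fun N => ?_⟩
  simp only [es_xx]
  unfold evE
  simp

lemma ep_gs (k : ℕ) : EPos (fun N => gs (qq N) k) := by
  unfold gs
  exact ep_sum _ _ (fun j _ => ep_pow ep_q j)

lemma ep_qf : ∀ n : ℕ, EPos (fun N => qf (qq N) n)
  | 0 => by simpa using ep_one
  | n + 1 => by
      simp only [qf_succ]
      exact ep_mul (ep_qf n) (ep_gs (n + 1))

lemma ep_yy (k t : ℕ) : EPos (fun N => yy (qq N) (xx N) k t) := by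
  unfold yy
  apply ep_sum
  intro i _
  apply ep_mul _ (ep_es _)
  apply ep_mul _ (ep_es _)
  apply ep_mul _ (ep_gs _)
  exact ep_pow ep_q i

/-- pointed positivity of the back gadget -/
theorem epos_back (k r b : ℕ) :
    EPos (fun N => PhiP (qq N) (xx N) k (r :: descFrom 0 (r + b))) := by
  rcases Nat.eq_zero_or_pos b with hb | hb
  · subst hb
    have h : ∀ N, PhiP (qq N) (xx N) k (r :: descFrom 0 (r + 0))
        = qf (qq N) r * yy (qq N) (xx N) k r :=
      fun N => PhiP_back_full (qq_ne_one N) (xx N) k r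
    simp only [h]
    exact ep_mul (ep_qf r) (ep_yy k r)
  · have h : ∀ N, PhiP (qq N) (xx N) k (r :: descFrom 0 (r + b))
        = qf (qq N) (r + b - 1) * (qq N ^ r * gs (qq N) b * gs (qq N) (k + 1)
            * es (xx N) (r + b) * es (xx N) (k + 1) + gs (qq N) r * yy (qq N) (xx N) k (r + b)) :=
      fun N => PhiP_back (qq_ne_one N) (xx N) k r b hb
    simp only [h]
    apply ep_mul (ep_qf _)
    apply ep_add
    · apply ep_mul _ (ep_es _)
      apply ep_mul _ (ep_es _)
      apply ep_mul _ (ep_gs _)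
      apply ep_mul _ (ep_gs _)
      exact ep_pow ep_q r
    · exact ep_mul (ep_gs r) (ep_yy k (r + b))

/-- pointed positivity is preserved by gluing a clique -/
theorem epos_transfer (m : ℕ) (L : List ℕ) (hL : L ≠ [])
    (h : ∀ k, EPos (fun N => PhiP (qq N) (xx N) k L)) (t : ℕ) :
    EPos (fun N => PhiP (qq N) (xx N) t (descFrom 1 (m + 1) ++ L)) := by
  have h1 : ∀ N, PhiP (qq N) (xx N) t (descFrom 1 (m + 1) ++ L)
      = qf (qq N) m * ∑ i ∈ range (min m t + 1),
          (qq N ^ i * gs (qq N) (m + 1 - i) * es (xx N) i * PhiP (qq N) (xx N) (m + t + 1 - i) L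
            + qq N ^ (m + 1) * gs (qq N) (t - i) * es (xx N) (m + t + 1 - i)
              * PhiP (qq N) (xx N) i L) :=
    fun N => transfer (qq_ne_one N) (xx N) m t L hL
  simp only [h1]
  apply ep_mul (ep_qf m)
  apply ep_sum
  intro i _
  apply ep_add
  · apply ep_mul _ (h _)
    apply ep_mul _ (ep_es _)
    apply ep_mul _ (ep_gs _)
    exact ep_pow ep_q i
  · apply ep_mul _ (h _)
    apply ep_mul _ (ep_es _)
    apply ep_mul _ (ep_gs _)
    exact ep_pow ep_q (m + 1)

lemma chain_cons (m : ℕ) (μ : List ℕ) : chain (m :: μ) = descFrom 1 (m + 1) ++ chain μ := by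
  simp [chain]

lemma chain_nil : chain [] = [] := rfl

/-- pointed positivity of a chain of cliques in front of a pointed positive graph -/
theorem epos_chain (L : List ℕ) (hL : L ≠ [])
    (h : ∀ k, EPos (fun N => PhiP (qq N) (xx N) k L)) :
    ∀ (μ : List ℕ) (k : ℕ), EPos (fun N => PhiP (qq N) (xx N) k (chain μ ++ L))
  | [], k => by simpa [chain_nil] using h k
  | m :: μ, k => by
      rw [chain_cons, List.append_assoc]
      exact epos_transfer m (chain μ ++ L) (by simp [hL]) (epos_chain L hL h μ) k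

/-- positivity after attaching a melted clique in front -/
theorem epos_front (r b : ℕ) (hr : 1 ≤ r) (L : List ℕ) (hL : L ≠ [])
    (h : ∀ k, EPos (fun N => PhiP (qq N) (xx N) k L)) :
    EPos (fun N => chiL (qq N) (xx N) (descFrom r b ++ descFrom 1 r ++ L)) := by
  have h1 : ∀ N, chiL (qq N) (xx N) (descFrom r b ++ descFrom 1 r ++ L)
      = qf (qq N) (b + r - 1) * (qq N ^ r * gs (qq N) b * es (xx N) (b + r) * chiL (qq N) (xx N) L
          + gs (qq N) r * PhiP (qq N) (xx N) (b + r) L) :=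
    fun N => chiL_front (qq_ne_zero N) (qq_ne_one N) (xx N) r b hr L hL
  simp only [h1]
  have h0 : EPos (fun N => chiL (qq N) (xx N) L) := by
    have := h 0
    simpa only [PhiP_zero] using this
  apply ep_mul (ep_qf _)
  apply ep_add
  · apply ep_mul _ h0
    apply ep_mul _ (ep_es _)
    apply ep_mul _ (ep_gs _)
    exact ep_pow ep_q r
  · exact ep_mul (ep_gs r) (h (b + r))

/-- chains of cliques with melted end cliques -/
theorem epos_melted (b r : ℕ) (hr : 1 ≤ r) (μ : List ℕ) (r' b' : ℕ) :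
    ∃ F : MvPolynomial ℕ ℕ[X], ∀ N, chromQSym N (meltedChain b r μ r' b') = evE N F := by
  have h := epos_front r b hr (chain μ ++ r' :: descFrom 0 (r' + b')) (by simp)
    (epos_chain (r' :: descFrom 0 (r' + b')) (by simp) (fun k => epos_back k r' b') μ)
  obtain ⟨F, hF⟩ := h
  refine ⟨F, fun N => ?_⟩
  rw [chromQSym_eq, ← hF]
  unfold meltedChain
  rw [List.append_assoc (descFrom r b ++ descFrom 1 r)]

lemma qf_qq (N : ℕ) : ∀ k : ℕ, qf (qq N) k = MvPolynomial.C (qfact k)
  | 0 => by simp [qfact]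
  | k + 1 => by
      rw [qf_succ, qf_qq N k]
      unfold qfact gs qq
      rw [Finset.prod_range_succ, map_mul, map_sum]
      simp only [map_pow]

lemma qfact_ne_zero (k : ℕ) : qfact k ≠ 0 := by
  unfold qfact
  rw [Finset.prod_ne_zero_iff]
  intro j _ h
  have h2 := congrArg (fun p : ℤ[X] => p.coeff 0) h
  simp [Polynomial.finsetSum_coeff, Polynomial.coeff_X_pow] at h2

lemma C_qfact_ne_zero (N k : ℕ) :
    (MvPolynomial.C (qfact k) : MvPolynomial (Fin N) ℤ[X]) ≠ 0 := by
  intro h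
  rw [← map_zero (MvPolynomial.C : ℤ[X] →+* MvPolynomial (Fin N) ℤ[X])] at h
  exact qfact_ne_zero k (MvPolynomial.C_injective _ _ h)

lemma chromQSym_clique_append (N k : ℕ) (L : List ℕ) :
    chromQSym N (descFrom 1 k ++ L) = MvPolynomial.C (qfact k) * PhiP (qq N) (xx N) k L := by
  rw [chromQSym_eq, chiL_clique_append (qq_ne_one N), qf_qq]

lemma pointedPos_iff (L : List ℕ) :
    PointedPos L ↔ ∀ k, EPos (fun N => PhiP (qq N) (xx N) k L) := by
  constructor
  · intro h k
    obtain ⟨F, hF⟩ := h k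
    refine ⟨F, fun N => ?_⟩
    have h1 := hF N
    rw [chromQSym_clique_append] at h1
    exact mul_left_cancel₀ (C_qfact_ne_zero N k) h1
  · intro h k
    obtain ⟨F, hF⟩ := h k
    refine ⟨F, fun N => ?_⟩
    rw [chromQSym_clique_append, ← hF]

/-- base graphs, closure under gluing cliques, and the melted front clique -/
theorem pointed_closure :
    (∀ r b : ℕ, PointedPos (r :: descFrom 0 (r + b)))
    ∧ (∀ L : List ℕ, L ≠ [] → PointedPos L → ∀ m : ℕ, PointedPos (descFrom 1 (m + 1) ++ L))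
    ∧ (∀ L : List ℕ, L ≠ [] → PointedPos L → ∀ b r : ℕ, 1 ≤ r →
        ∃ F : MvPolynomial ℕ ℕ[X], ∀ N : ℕ,
          chromQSym N (descFrom r b ++ descFrom 1 r ++ L) = evE N F) := by
  refine ⟨?_, ?_, ?_⟩
  · intro r b
    rw [pointedPos_iff]
    exact fun k => epos_back k r b
  · intro L hL h m
    rw [pointedPos_iff] at h ⊢
    exact fun t => epos_transfer m L hL h t
  · intro L hL h b r hr
    rw [pointedPos_iff] at h
    obtain ⟨F, hF⟩ := epos_front r b hr L hL h
    exact ⟨F, fun N => by rw [chromQSym_eq, ← hF]⟩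

end Vale.Agent.Lib.P066
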