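import Mathlib
import Vale.Agent.Lib.P066.Defs

namespace Vale.Agent.Lib.P066

/-- the bound allowed for an entry placed in front of the list `l` -/
def bnd (s : ℕ) (l : List ℕ) : ℕ := l.head?.elim s (· + 1)

lemma bnd_nil (s : ℕ) : bnd s [] = s := rfl

lemma bnd_cons (s a : ℕ) (l : List ℕ) : bnd s (a :: l) = a + 1 := rfl

/-- consecutive entries drop by at most one, and the last entry is at most `s` -/
def GoodS (s : ℕ) : List ℕ → Prop
  | [] => True
  | a :: d => a ≤ bnd s d ∧ GoodS s d

lemma goodS_descFrom_append (s p : ℕ) (l : List ℕ) (hl : GoodS s l) (hp : p ≤ bnd s l) :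
    ∀ m, GoodS s (descFrom p m ++ l)
  | 0 => by simpa [descFrom] using hl
  | m + 1 => by
      have ih := goodS_descFrom_append s p l hl hp m
      refine ⟨?_, ih⟩
      cases m with
      | zero => simpa [descFrom] using hp
      | succ m' =>
        show m' + 1 + p ≤ bnd s ((m' + p) :: (descFrom p m' ++ l))
        rw [bnd_cons]
        omega

lemma isHess_of_goodS : ∀ d : List ℕ, GoodS 0 d → IsHess d
  | [], _ => by
      intro i hi
      simp at hi
  | a :: d, h => by
      have ih := isHess_of_goodS d h.2
      have ha := h.1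
      intro i hi
      cases i with
      | zero =>
        cases d with
        | nil =>
          rw [bnd_nil] at ha
          simp only [List.getD_cons_zero, List.length_cons, List.length_nil]
          simp
          omega
        | cons a' d' =>
          rw [bnd_cons] at ha
          have h0 := ih 0 (by simp)
          simp only [List.getD_cons_zero, List.getD_cons_succ, List.length_cons] at h0 ⊢
          omega
      | succ i' =>
        have hi' : i' < d.length := by simpa using hi
        have h1 := ih i' hi'
        simp only [List.getD_cons_succ, List.length_cons]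
        omega

lemma goodS_chain_append (l : List ℕ) (hl : GoodS 0 l) (hne : l ≠ []) :
    ∀ μ : List ℕ, GoodS 0 (chain μ ++ l) ∧ chain μ ++ l ≠ []
  | [] => by
      simpa [chain] using And.intro hl hne
  | m :: μ => by
      have ih := goodS_chain_append l hl hne μ
      have e : chain (m :: μ) ++ l = descFrom 1 (m + 1) ++ (chain μ ++ l) := by
        simp [chain]
      rw [e]
      refine ⟨goodS_descFrom_append 0 1 _ ih.1 ?_ (m + 1), by simp [descFrom]⟩
      obtain ⟨a, l', hl'⟩ := List.exists_cons_of_ne_nil ih.2
      rw [hl', bnd_cons]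
      omega

theorem isHess_melted (b r : ℕ) (hr : 1 ≤ r) (μ : List ℕ) (r' b' : ℕ) :
    IsHess (meltedChain b r μ r' b') := by
  apply isHess_of_goodS
  have hE : GoodS 0 (r' :: descFrom 0 (r' + b')) := by
    have h1 := goodS_descFrom_append 0 0 [] trivial (by simp [bnd_nil]) (r' + b')
    rw [List.append_nil] at h1
    refine ⟨?_, h1⟩
    rcases Nat.eq_zero_or_pos (r' + b') with h0 | h0
    · rw [h0]
      simp only [descFrom, bnd_nil]
      omega
    · obtain ⟨t, ht⟩ : ∃ t, r' + b' = t + 1 := ⟨r' + b' - 1, by omega⟩
      rw [ht]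
      simp only [descFrom, bnd_cons]
      omega
  have hC := goodS_chain_append _ hE (by simp) μ
  obtain ⟨r0, rfl⟩ : ∃ r0, r = r0 + 1 := ⟨r - 1, by omega⟩
  have hR : GoodS 0 (descFrom 1 (r0 + 1) ++ (chain μ ++ r' :: descFrom 0 (r' + b'))) := by
    refine goodS_descFrom_append 0 1 _ hC.1 ?_ (r0 + 1)
    obtain ⟨a, l', hl'⟩ := List.exists_cons_of_ne_nil hC.2
    rw [hl', bnd_cons]
    omega
  have hB := goodS_descFrom_append 0 (r0 + 1) _ hR
    (by simp only [descFrom, List.cons_append, bnd_cons]; omega) b
  unfold meltedChain
  rw [List.append_assoc, List.append_assoc]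
  exact hB

end Vale.Agent.Lib.P066
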