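import Mathlib
import Vale.Agent.Lib.P066.Blocks
import Vale.Agent.Lib.P066.EPos
import Vale.Agent.Lib.P066.Hess
import Vale.Agent.Lib.P066.Defs2

namespace Vale.Agent.Lib.P066

open Finset Polynomial

lemma ep_jj (P : ℕ → ∀ N : ℕ, MvPolynomial (Fin N) ℤ[X]) (hP : ∀ j, EPos (P j)) (n t : ℕ) :
    EPos (fun N => jj (qq N) (xx N) (fun j => P j N) n t) := by
  unfold jj
  apply ep_sum
  intro i _
  apply ep_add
  · apply ep_mul _ (hP _)
    apply ep_mul _ (ep_es _)
    apply ep_mul _ (ep_gs _)
    exact ep_pow ep_q i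
  · apply ep_mul _ (hP _)
    apply ep_mul _ (ep_es _)
    apply ep_mul _ (ep_gs _)
    exact ep_pow ep_q n

/-- pointed positivity is preserved by a block melted at its first cut vertex -/
theorem epos_transferB (s m : ℕ) (L : List ℕ) (hL : L ≠ [])
    (h : ∀ k, EPos (fun N => PhiP (qq N) (xx N) k L)) (t : ℕ) :
    EPos (fun N => PhiP (qq N) (xx N) t ((s + 1) :: descFrom 1 (s + 1 + m) ++ L)) := by
  have h1 : ∀ N, PhiP (qq N) (xx N) t ((s + 1) :: descFrom 1 (s + 1 + m) ++ L)
      = qf (qq N) (s + m) * (qq N ^ (s + 1) * gs (qq N) m * gs (qq N) (t + 1) * es (xx N) (t + 1)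
            * PhiP (qq N) (xx N) (s + 1 + m) L
          + gs (qq N) (s + 1) * jj (qq N) (xx N) (fun j => PhiP (qq N) (xx N) j L) (s + 1 + m) t) :=
    fun N => transferB (qq_ne_one N) (xx N) s m t L hL
  simp only [h1]
  apply ep_mul (ep_qf _)
  apply ep_add
  · apply ep_mul _ (h _)
    apply ep_mul _ (ep_es _)
    apply ep_mul _ (ep_gs _)
    apply ep_mul _ (ep_gs _)
    exact ep_pow ep_q (s + 1)
  · exact ep_mul (ep_gs _) (ep_jj (fun j N => PhiP (qq N) (xx N) j L) h (s + 1 + m) t)

/-- pointed positivity is preserved by a block melted at its last cut vertex -/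
theorem epos_transferC (b r : ℕ) (L : List ℕ) (hL : L ≠ [])
    (h : ∀ k, EPos (fun N => PhiP (qq N) (xx N) k L)) (t : ℕ) :
    EPos (fun N => PhiP (qq N) (xx N) t
      (descFrom (r + 1) (b + 1) ++ descFrom 1 (r + 1) ++ L)) := by
  have h1 : ∀ N, PhiP (qq N) (xx N) t (descFrom (r + 1) (b + 1) ++ descFrom 1 (r + 1) ++ L)
      = qf (qq N) (b + r) * (qq N ^ (r + 1) * gs (qq N) b * yy (qq N) (xx N) t (b + r + 1)
            * chiL (qq N) (xx N) L
          + gs (qq N) (r + 1) * jj (qq N) (xx N) (fun j => PhiP (qq N) (xx N) j L) (b + r + 1) t) :=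
    fun N => transferC (qq_ne_zero N) (qq_ne_one N) (xx N) b r t L hL
  simp only [h1]
  have h0 : EPos (fun N => chiL (qq N) (xx N) L) := by
    have := h 0
    simpa only [PhiP_zero] using this
  apply ep_mul (ep_qf _)
  apply ep_add
  · apply ep_mul _ h0
    apply ep_mul _ (ep_yy _ _)
    apply ep_mul _ (ep_gs _)
    exact ep_pow ep_q (r + 1)
  · exact ep_mul (ep_gs _) (ep_jj (fun j N => PhiP (qq N) (xx N) j L) h (b + r + 1) t)

lemma blockChain_nil : blockChain [] = [0] := rfl

lemma blockChain_cons (B : Blk) (β : List Blk) :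
    blockChain (B :: β) = B.degs ++ blockChain β := by
  simp [blockChain]

lemma blockChain_ne_nil (β : List Blk) : blockChain β ≠ [] := by
  simp [blockChain]

/-- pointed positivity of block chains -/
theorem epos_blockChain : ∀ (β : List Blk) (k : ℕ),
    EPos (fun N => PhiP (qq N) (xx N) k (blockChain β))
  | [], k => by
      rw [blockChain_nil]
      exact epos_back k 0 0
  | B :: β, k => by
      rw [blockChain_cons]
      have ih := epos_blockChain β
      have hne := blockChain_ne_nil β
      cases B with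
      | full n => exact epos_transfer n _ hne ih k
      | meltFirst s m => exact epos_transferB s m _ hne ih k
      | meltLast b r => exact epos_transferC b r _ hne ih k

theorem epos_blocks (β : List Blk) :
    ∃ F : MvPolynomial ℕ ℕ[X], ∀ N, chromQSym N (blockChain β) = evE N F := by
  obtain ⟨F, hF⟩ := epos_blockChain β 0
  refine ⟨F, fun N => ?_⟩
  have h := hF N
  simp only [PhiP_zero] at h
  rw [chromQSym_eq, h]

lemma goodS_blockChain : ∀ β : List Blk, GoodS 0 (blockChain β)
  | [] => by
      rw [blockChain_nil]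
      exact ⟨by simp [bnd_nil], trivial⟩
  | B :: β => by
      rw [blockChain_cons]
      have ih := goodS_blockChain β
      obtain ⟨a, l', hl'⟩ := List.exists_cons_of_ne_nil (blockChain_ne_nil β)
      rw [hl'] at ih ⊢
      cases B with
      | full n =>
        exact goodS_descFrom_append 0 1 _ ih (by rw [bnd_cons]; omega) (n + 1)
      | meltFirst s m =>
        have h1 := goodS_descFrom_append 0 1 _ ih (by rw [bnd_cons]; omega) (s + 1 + m)
        refine ⟨?_, h1⟩
        have e : s + 1 + m = (s + m) + 1 := by omega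
        rw [e]
        show s + 1 ≤ bnd 0 ((s + m + 1) :: (descFrom 1 (s + m) ++ a :: l'))
        rw [bnd_cons]
        omega
      | meltLast b r =>
        have h1 := goodS_descFrom_append 0 1 _ ih (by rw [bnd_cons]; omega) (r + 1)
        have h2 := goodS_descFrom_append 0 (r + 1) _ h1
          (by
            show r + 1 ≤ bnd 0 ((r + 1) :: (descFrom 1 r ++ a :: l'))
            rw [bnd_cons]
            omega) (b + 1)
        show GoodS 0 (descFrom (r + 1) (b + 1) ++ descFrom 1 (r + 1) ++ a :: l')
        rw [List.append_assoc]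
        exact h2

theorem isHess_blockChain (β : List Blk) : IsHess (blockChain β) :=
  isHess_of_goodS _ (goodS_blockChain β)

end Vale.Agent.Lib.P066
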