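import Mathlib
import Vale.Agent.Lib.P066.Defs

namespace Vale.Agent.Lib.P066

/-- A link of a chain: the part of the graph between two consecutive cut vertices `w` (its
first vertex) and `w'` (its last vertex, which is the first vertex of the next link). The
vertices strictly between `w` and `w'` form a clique `M`, `w` is adjacent to an initial
segment of `M` and `w'` to a final segment of `M`. -/
inductive Link : Type
  /-- `full n`: the clique on `w`, `n` further vertices and `w'` -/
  | full : ℕ → Link
  /-- `gap s g r`: `M` is a clique on `(s + 1) + g + (r + 1)` vertices, `w` is adjacent exactly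
  to the first `s + 1` vertices of `M` and `w'` exactly to the last `r + 1` vertices of `M` -/
  | gap : ℕ → ℕ → ℕ → Link
  /-- `lap p o t`: `M` is a clique on `p + (o + 1) + t` vertices, `w` is adjacent exactly to
  the first `p + (o + 1)` vertices of `M` and `w'` exactly to the last `(o + 1) + t` vertices
  of `M` -/
  | lap : ℕ → ℕ → ℕ → Link

/-- forward degrees of the vertices of a link other than its last vertex `w'` -/
def Link.degs : Link → List ℕ
  | Link.full n => descFrom 1 (n + 1)
  | Link.gap s g r => (s + 1) :: (descFrom (r + 1) (g + (s + 1)) ++ descFrom 1 (r + 1))
  | Link.lap p o t => (o + 1 + p) :: (descFrom (o + 1 + t) p ++ descFrom 1 (o + 1 + t))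

/-- forward degrees of the chain of the links `β`, consecutive links sharing a cut vertex;
the final `0` is the last vertex of the last link -/
def linkChain (β : List Link) : List ℕ := (β.map Link.degs).flatten ++ [0]

end Vale.Agent.Lib.P066
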