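import Mathlib
import Vale.Agent.Lib.P066.Sym

namespace Vale.Agent.Lib.P066

open Finset Polynomial

variable {A : Type*} [CommRing A] {N : ℕ}

/-- doubly marked symmetrisation identity -/
theorem symS3 [IsDomain A] {q : A} (hq1 : q ≠ 1) (y : Fin N → A) (c c' : Fin N) (m : ℕ) :
    q * ∑ k, y k * ew q c k * es (fun s => y s * ew q s c' * ew q k s) (m + 1)
      = q ^ (m + 2) * ew q c c' * es y (m + 2)
        + q ^ 2 * gs q m * es (fun s => y s * ew q s c') (m + 2)
        + (1 + q - ew q c c') * es (fun s => y s * ew q s c' * ew q c s) (m + 2) := by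
  set z : Fin N → A := fun s => y s * ew q s c' with hz
  set f : Fin N → A[X] := fun s => 1 + C (1 * z s) * X with hf
  set g : Fin N → A[X] := fun s => 1 + C (q * z s) * X with hg
  have hP : ∀ k, gp (fun s => z s * ew q k s) = pun f g k := by
    intro k; rw [wt_fst, gp_pun]
  have hd : ∀ k, g k - f k = C ((q - 1) * z k) * X := by
    intro k; simp only [hf, hg, C_mul, C_sub, C_1]; ring
  have hqf : ∀ k, C q * f k - g k = C q - 1 := by
    intro k; simp only [hf, hg, C_mul, C_1]; ring
  have hz0 : z c' = 0 := by simp only [hz]; rw [ew_self, mul_zero]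
  have hfc : f c' = 1 := by simp only [hf]; rw [hz0]; simp
  have hgc : g c' = 1 := by simp only [hg]; rw [hz0]; simp
  have hpun : pun f g c' * (1 + C (q * y c') * X) = gp (fun s => q * y s) := by
    rw [pun_eq_erase]
    unfold gp
    rw [← Finset.prod_erase_mul _ _ (Finset.mem_univ c')]
    congr 1
    apply Finset.prod_congr rfl
    intro s hs
    have hne : s ≠ c' := Finset.ne_of_mem_erase hs
    rcases lt_or_gt_of_ne hne with h | h
    · rw [if_pos h]; simp only [hf, hz]; rw [ew_lt h]; congr 2; ring_nf
    · rw [if_neg (not_lt_of_gt h)]; simp only [hg, hz]; rw [ew_gt h]; congr 2; ring_nf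
  -- the generic term away from `c'`
  have hterm : ∀ k, k ≠ c' → (C (y k * ew q c k) * pun f g k) * (C (q * (q - 1)) * X)
      = C (ew q c k * ew q c' k) * (pun f g k * (g k - f k)) := by
    intro k hk
    rw [hd]
    have hzk : z k * ew q c' k = y k * q := by
      simp only [hz]
      rcases lt_or_gt_of_ne hk with h | h
      · rw [ew_lt h, ew_gt h]; ring
      · rw [ew_gt h, ew_lt h]; ring
    have h1 : C (ew q c k * ew q c' k) * (pun f g k * (C ((q - 1) * z k) * X))
        = pun f g k * (C ((q - 1) * ew q c k * (z k * ew q c' k)) * X) := by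
      simp only [C_mul]; ring
    rw [h1, hzk]
    simp only [C_mul]; ring
  have h1 : (∏ s, g s) = gp (fun s => q * z s) := rfl
  have h2 : (∏ s, f s) = gp z := gp_one_mul z
  have hsum : (∑ k, C (y k * ew q c k) * pun f g k) * (C (q * (q - 1)) * X)
      = gp (fun s => q * z s) - C (q ^ 2) * gp z
        + C ((q - 1) * (1 + q - ew q c c')) * pun f g c
        + C ((q - 1) * ew q c c') * gp (fun s => q * y s) := by
    rcases lt_trichotomy c c' with h | h | h
    · -- c < c'
      have hv : (c : ℕ) < (c' : ℕ) := Fin.lt_def.1 h
      have hsplit : ∀ k, (C (y k * ew q c k) * pun f g k) * (C (q * (q - 1)) * X)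
          = (if k < c then pun f g k * (g k - f k) else 0)
            + C q * (if (c : ℕ) + 1 ≤ (k : ℕ) ∧ (k : ℕ) < (c' : ℕ)
                then pun f g k * (g k - f k) else 0)
            + C (q ^ 2) * (if c' < k then pun f g k * (g k - f k) else 0)
            + (if k = c' then (C (y c' * ew q c c') * pun f g c') * (C (q * (q - 1)) * X)
                else 0) := by
        intro k
        by_cases hk : k = c'
        · subst hk
          rw [if_neg (not_lt_of_gt h), if_neg (fun hh => lt_irrefl _ hh.2), if_neg (lt_irrefl _),
            if_pos rfl]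
          ring
        · rw [hterm k hk, if_neg hk, add_zero]
          rcases lt_trichotomy k c with h3 | h3 | h3
          · have h4 : k < c' := lt_trans h3 h
            have h3v : (k : ℕ) < (c : ℕ) := Fin.lt_def.1 h3
            rw [if_pos h3, if_neg (fun hh => by omega), if_neg (not_lt_of_gt h4), ew_gt h3,
              ew_gt h4]
            simp
          · subst h3
            rw [if_neg (lt_irrefl _), if_neg (fun hh => by omega), if_neg (not_lt_of_gt h),
              ew_self]
            simp
          · have h3v : (c : ℕ) < (k : ℕ) := Fin.lt_def.1 h3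
            rcases lt_or_gt_of_ne hk with h4 | h4
            · have h4v : (k : ℕ) < (c' : ℕ) := Fin.lt_def.1 h4
              rw [if_neg (not_lt_of_gt h3), if_pos ⟨by omega, h4v⟩, if_neg (not_lt_of_gt h4),
                ew_lt h3, ew_gt h4]
              simp
            · have h4v : (c' : ℕ) < (k : ℕ) := Fin.lt_def.1 h4
              rw [if_neg (not_lt_of_gt h3), if_neg (fun hh => by omega), if_pos h4, ew_lt h3,
                ew_lt h4]
              simp [pow_two]
      rw [Finset.sum_mul, Finset.sum_congr rfl (fun k _ => hsplit k)]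
      rw [Finset.sum_add_distrib, Finset.sum_add_distrib, Finset.sum_add_distrib,
        ← Finset.mul_sum, ← Finset.mul_sum, sum_pun_lt,
        sum_pun_Ico f g ((c : ℕ) + 1) (c' : ℕ) (Nat.succ_le_of_lt hv) (le_of_lt c'.isLt),
        sum_pun_gt, Finset.sum_ite_eq' univ c', if_pos (Finset.mem_univ _)]
      rw [tel_eq f g c, tel_succ f g c, tel_eq f g c', tel_succ f g c', h1, h2, hfc, hgc,
        ← hpun, ew_lt h]
      have e := hqf c
      simp only [C_mul, C_sub, C_add, C_1, C_pow] at e ⊢
      linear_combination (pun f g c) * e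
    · -- c = c'
      subst h
      have hsplit : ∀ k, (C (y k * ew q c k) * pun f g k) * (C (q * (q - 1)) * X)
          = (if k < c then pun f g k * (g k - f k) else 0)
            + C (q ^ 2) * (if c < k then pun f g k * (g k - f k) else 0) := by
        intro k
        by_cases hk : k = c
        · subst hk
          rw [if_neg (lt_irrefl _), ew_self]
          simp
        · rw [hterm k hk]
          rcases lt_or_gt_of_ne hk with h3 | h3
          · rw [if_pos h3, if_neg (not_lt_of_gt h3), ew_gt h3]
            simp
          · rw [if_neg (not_lt_of_gt h3), if_pos h3, ew_lt h3]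
            simp [pow_two]
      rw [Finset.sum_mul, Finset.sum_congr rfl (fun k _ => hsplit k)]
      rw [Finset.sum_add_distrib, ← Finset.mul_sum, sum_pun_lt, sum_pun_gt]
      rw [tel_eq f g c, tel_succ f g c, h1, h2, hfc, hgc, ew_self]
      simp only [C_mul, C_sub, C_add, C_1, C_pow, C_0]
      ring
    · -- c' < c
      have hv : (c' : ℕ) < (c : ℕ) := Fin.lt_def.1 h
      have hsplit : ∀ k, (C (y k * ew q c k) * pun f g k) * (C (q * (q - 1)) * X)
          = (if k < c' then pun f g k * (g k - f k) else 0)
            + C q * (if (c' : ℕ) + 1 ≤ (k : ℕ) ∧ (k : ℕ) < (c : ℕ)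
                then pun f g k * (g k - f k) else 0)
            + C (q ^ 2) * (if c < k then pun f g k * (g k - f k) else 0)
            + (if k = c' then (C (y c' * ew q c c') * pun f g c') * (C (q * (q - 1)) * X)
                else 0) := by
        intro k
        by_cases hk : k = c'
        · subst hk
          rw [if_neg (lt_irrefl _), if_neg (fun hh => by omega), if_neg (not_lt_of_gt h),
            if_pos rfl]
          ring
        · rw [hterm k hk, if_neg hk, add_zero]
          rcases lt_trichotomy k c with h3 | h3 | h3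
          · have h3v : (k : ℕ) < (c : ℕ) := Fin.lt_def.1 h3
            rcases lt_or_gt_of_ne hk with h4 | h4
            · have h4v : (k : ℕ) < (c' : ℕ) := Fin.lt_def.1 h4
              rw [if_pos h4, if_neg (fun hh => by omega), if_neg (not_lt_of_gt h3), ew_gt h3,
                ew_gt h4]
              simp
            · have h4v : (c' : ℕ) < (k : ℕ) := Fin.lt_def.1 h4
              rw [if_neg (not_lt_of_gt h4), if_pos ⟨by omega, h3v⟩, if_neg (not_lt_of_gt h3),
                ew_gt h3, ew_lt h4]
              simp
          · subst h3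
            rw [if_neg (not_lt_of_gt h), if_neg (fun hh => lt_irrefl _ hh.2),
              if_neg (lt_irrefl _), ew_self]
            simp
          · have h3v : (c : ℕ) < (k : ℕ) := Fin.lt_def.1 h3
            have h4 : c' < k := lt_trans h h3
            rw [if_neg (not_lt_of_gt h4), if_neg (fun hh => by omega), if_pos h3, ew_lt h3,
              ew_lt h4]
            simp [pow_two]
      rw [Finset.sum_mul, Finset.sum_congr rfl (fun k _ => hsplit k)]
      rw [Finset.sum_add_distrib, Finset.sum_add_distrib, Finset.sum_add_distrib,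
        ← Finset.mul_sum, ← Finset.mul_sum, sum_pun_lt,
        sum_pun_Ico f g ((c' : ℕ) + 1) (c : ℕ) (Nat.succ_le_of_lt hv) (le_of_lt c.isLt),
        sum_pun_gt, Finset.sum_ite_eq' univ c', if_pos (Finset.mem_univ _)]
      rw [tel_eq f g c, tel_succ f g c, tel_eq f g c', tel_succ f g c', h1, h2, hfc, hgc,
        ← hpun, ew_gt h]
      have e := hqf c
      simp only [C_mul, C_sub, C_add, C_1, C_pow] at e ⊢
      linear_combination (C q * pun f g c) * e
  have hc := congrArg (fun p : A[X] => p.coeff (m + 1 + 1)) hsum
  simp only [finsetSum_coeff, coeff_sub, coeff_add, coeff_C_mul, coeff_mul_C_mul_X] at hc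
  have e1 : (gp fun s => q * z s).coeff (m + 1 + 1) = q ^ (m + 2) * es z (m + 2) :=
    es_smul q z (m + 2)
  have e2 : (gp fun s => q * y s).coeff (m + 1 + 1) = q ^ (m + 2) * es y (m + 2) :=
    es_smul q y (m + 2)
  have e3 : (gp z).coeff (m + 1 + 1) = es z (m + 2) := rfl
  have e4 : (pun f g c).coeff (m + 1 + 1) = es (fun s => y s * ew q s c' * ew q c s) (m + 2) := by
    unfold es; rw [← hP]
  rw [e1, e2, e3, e4] at hc
  have hc2 : (q - 1) * (q * ∑ k, y k * ew q c k * es (fun s => y s * ew q s c' * ew q k s) (m + 1))
      = (q - 1) * (q ^ (m + 2) * ew q c c' * es y (m + 2)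
        + q ^ 2 * gs q m * es z (m + 2)
        + (1 + q - ew q c c') * es (fun s => y s * ew q s c' * ew q c s) (m + 2)) := by
    have h3 : (q - 1) * (q ^ (m + 2) * ew q c c' * es y (m + 2)
        + q ^ 2 * gs q m * es z (m + 2)
        + (1 + q - ew q c c') * es (fun s => y s * ew q s c' * ew q c s) (m + 2))
        = q ^ (m + 2) * es z (m + 2) - q ^ 2 * es z (m + 2)
          + (q - 1) * (1 + q - ew q c c') * es (fun s => y s * ew q s c' * ew q c s) (m + 2)
          + (q - 1) * ew q c c' * (q ^ (m + 2) * es y (m + 2)) := by
      have h4 := gs_mul' q m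
      linear_combination (q ^ 2 * es z (m + 2)) * h4
    rw [h3, ← hc]
    have h5 : ∀ k, es (fun s => y s * ew q s c' * ew q k s) (m + 1) = (pun f g k).coeff (m + 1) := by
      intro k
      unfold es; rw [← hP]
    simp only [h5]
    rw [Finset.mul_sum, Finset.mul_sum, Finset.mul_sum]
    apply Finset.sum_congr rfl
    intro k _
    ring
  exact mul_left_cancel₀ (sub_ne_zero.mpr hq1) hc2

end Vale.Agent.Lib.P066
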