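import Mathlib
import Vale.Agent.Lib.P066.Blocks
import Vale.Agent.Lib.P066.Sym3

namespace Vale.Agent.Lib.P066

open Finset

variable {A : Type*} [CommRing A] {N : ℕ}

/-- the four-term form of the sum over the colourings of a clique some of whose vertices are
adjacent to an earlier vertex of colour `c` and some to a later vertex of colour `c'` -/
noncomputable def T4 (q : A) (y : Fin N → A) (c c' : Fin N) (n : ℕ) (a b₁ b₂ d : A) : A :=
  a * es y n + b₁ * es (fun s => y s * ew q c s) n + b₂ * es (fun s => y s * ew q s c') n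
    + d * es (fun s => y s * ew q s c' * ew q c s) n

lemma T4_smul (q : A) (y : Fin N → A) (c c' : Fin N) (n : ℕ) (r a b₁ b₂ d : A) :
    T4 q y c c' n (r * a) (r * b₁) (r * b₂) (r * d) = r * T4 q y c c' n a b₁ b₂ d := by
  unfold T4; ring

/-- one more vertex in front of a marked clique: the new vertex is adjacent to the earlier
vertex of colour `c` and to all vertices of the clique, but not to the later vertex -/
theorem step4 [IsDomain A] {q : A} (hq0 : q ≠ 0) (hq1 : q ≠ 1) (x : Fin N → A) (c c' : Fin N)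
    (rest : List (Fin N)) (L : List ℕ) (m : ℕ) (hL : L.length = m + 1)
    (G : List (Fin N) → A) (X a b₁ b₂ d : A)
    (H : ∀ u : Fin N → A, X * csumT q x L (c' :: rest) (fun κ => (κ.map u).prod * G κ)
        = T4 q (fun s => x s * u s) c c' (m + 1) a b₁ b₂ d)
    (G' : List (Fin N) → A) (hG' : ∀ k κ, G' (k :: κ) = ew q c k * G κ) (u : Fin N → A) :
    q * X * csumT q x ((m + 1) :: L) (c' :: rest) (fun κ => (κ.map u).prod * G' κ)
      = T4 q (fun s => x s * u s) c c' (m + 2)
          (q ^ 2 * gs q (m + 1) * a + q ^ (m + 2) * ew q c c' * b₂)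
          (q * (a + gs q (m + 2) * b₁ + q ^ (m + 1) * d))
          (q ^ 2 * gs q m * b₂)
          ((1 + q - ew q c c') * b₂ + q * gs q (m + 1) * d) := by
  simp only [csumT]
  have h1 : ∀ k, X * csumT q x L (c' :: rest)
        (fun κ => wfac q k (m + 1) (κ ++ c' :: rest) * (((k :: κ).map u).prod * G' (k :: κ)))
      = u k * ew q c k * T4 q (fun s => x s * (u s * ew q k s)) c c' (m + 1) a b₁ b₂ d := by
    intro k
    rw [← H (fun s => u s * ew q k s)]
    have h2 : csumT q x L (c' :: rest)
          (fun κ => wfac q k (m + 1) (κ ++ c' :: rest) * (((k :: κ).map u).prod * G' (k :: κ)))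
        = u k * ew q c k * csumT q x L (c' :: rest)
            (fun κ => (κ.map (fun s => u s * ew q k s)).prod * G κ) := by
      rw [← csumT_mul_left]
      apply csumT_congr
      intro κ hκ
      have h5 := wfac_append_of_length q k κ (c' :: rest) 0
      rw [hκ, hL, wfac_zero, mul_one, Nat.add_zero] at h5
      rw [h5, List.map_cons, List.prod_cons, hG', List.prod_map_mul]
      ring
    rw [h2]; ring
  have e1 : ∀ k, (fun s => x s * (u s * ew q k s)) = (fun s => x s * u s * ew q k s) := by
    intro k; funext s; ring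
  have e2 : ∀ k, (fun s => x s * (u s * ew q k s) * ew q c s)
      = (fun s => x s * u s * ew q c s * ew q k s) := by
    intro k; funext s; ring
  have e3 : ∀ k, (fun s => x s * (u s * ew q k s) * ew q s c')
      = (fun s => x s * u s * ew q s c' * ew q k s) := by
    intro k; funext s; ring
  have e4 : ∀ k, (fun s => x s * (u s * ew q k s) * ew q s c' * ew q c s)
      = (fun s => x s * u s * ew q c s * ew q s c' * ew q k s) := by
    intro k; funext s; ring
  have e5 : (fun s => x s * u s * ew q c s * ew q s c')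
      = (fun s => x s * u s * ew q s c' * ew q c s) := by
    funext s; ring
  have hS' := symS' hq1 (fun s => x s * u s) c (m + 1)
  have hS := symS hq1 (fun s => x s * u s * ew q c s) (m + 1)
  have hS3 := symS3 hq1 (fun s => x s * u s) c c' m
  have hS'' := symS'' hq0 hq1 (fun s => x s * u s * ew q c s) c' (m + 1)
  rw [e5] at hS''
  have hk : ∀ k, q * X * (x k * csumT q x L (c' :: rest)
        (fun κ => wfac q k (m + 1) (κ ++ c' :: rest) * (((k :: κ).map u).prod * G' (k :: κ))))
      = (q * a) * (x k * u k * ew q c k * es (fun s => x s * u s * ew q k s) (m + 1))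
        + (q * b₁) * (x k * u k * ew q c k
            * es (fun s => x s * u s * ew q c s * ew q k s) (m + 1))
        + b₂ * (q * (x k * u k * ew q c k
            * es (fun s => x s * u s * ew q s c' * ew q k s) (m + 1)))
        + (q * d) * (x k * u k * ew q c k
            * es (fun s => x s * u s * ew q c s * ew q s c' * ew q k s) (m + 1)) := by
    intro k
    have h3 : ∀ Ck : A, q * X * (x k * Ck) = q * x k * (X * Ck) := by intro Ck; ring
    rw [h3, h1 k]
    unfold T4
    beta_reduce
    rw [e1, e2, e3, e4]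
    ring
  rw [Finset.mul_sum, Finset.sum_congr rfl (fun k _ => hk k)]
  simp only [Finset.sum_add_distrib, ← Finset.mul_sum]
  rw [hS', hS, hS3, hS'']
  unfold T4
  beta_reduce
  ring

/-- `step4` with flexible index expressions -/
theorem step4' [IsDomain A] {q : A} (hq0 : q ≠ 0) (hq1 : q ≠ 1) (x : Fin N → A) (c c' : Fin N)
    (rest : List (Fin N)) (L : List ℕ) (m deg n₀ n' : ℕ) (hL : L.length = m + 1)
    (hdeg : deg = m + 1) (hn₀ : n₀ = m + 1) (hn' : n' = m + 2)
    (G : List (Fin N) → A) (X a b₁ b₂ d : A)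
    (H : ∀ u : Fin N → A, X * csumT q x L (c' :: rest) (fun κ => (κ.map u).prod * G κ)
        = T4 q (fun s => x s * u s) c c' n₀ a b₁ b₂ d)
    (G' : List (Fin N) → A) (hG' : ∀ k κ, G' (k :: κ) = ew q c k * G κ) (u : Fin N → A) :
    q * X * csumT q x (deg :: L) (c' :: rest) (fun κ => (κ.map u).prod * G' κ)
      = T4 q (fun s => x s * u s) c c' n'
          (q ^ 2 * gs q (m + 1) * a + q ^ (m + 2) * ew q c c' * b₂)
          (q * (a + gs q (m + 2) * b₁ + q ^ (m + 1) * d))
          (q ^ 2 * gs q m * b₂)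
          ((1 + q - ew q c c') * b₂ + q * gs q (m + 1) * d) := by
  subst hdeg hn₀ hn'
  exact step4 hq0 hq1 x c c' rest L m hL G X a b₁ b₂ d H G' hG' u

lemma pow_eq_gs (q : A) (k : ℕ) : q ^ k = 1 + (q - 1) * gs q k := by
  have h := gs_mul' q k
  linear_combination -h

lemma gs_two (q : A) : gs q 2 = 1 + q := by
  simp [gs, Finset.sum_range_succ]

/-- the coefficients of the four-term form of `gap_sum` -/
noncomputable def gapA (q e : A) (g j r : ℕ) : A :=
  q * (qf q (g + j + r) * (q ^ (r + j + 2) * gs q g * gs q (g + j + r + 1)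
    + q ^ (g + j + r + 1) * gs q (j + 1) * gs q (r + 1) * e))

noncomputable def gapB (q : A) (g j r : ℕ) : A :=
  q * (qf q (g + j + r) * (q ^ (r + 1) * gs q (j + 1) * gs q (g + j)))

noncomputable def gapC (q : A) (g j r : ℕ) : A :=
  q * (qf q (g + j + r) * (q ^ (j + 1) * gs q (r + 1) * gs q (g + r)))

noncomputable def gapD (q e : A) (g j r : ℕ) : A :=
  qf q (g + j + r) * (gs q (j + 1) * gs q (r + 1) * (1 + q - e))

lemma gap_base [IsDomain A] {q : A} (hq0 : q ≠ 0) (hq1 : q ≠ 1) (x : Fin N → A) (c c' : Fin N)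
    (rest : List (Fin N)) (g r : ℕ) (u : Fin N → A) :
    q ^ (0 + 1) * csumT q x (descFrom (r + 1) (g + (0 + 1)) ++ descFrom 1 (r + 1)) (c' :: rest)
        (fun κ => (κ.map u).prod * ((κ.take (0 + 1)).map (ew q c)).prod)
      = T4 q (fun s => x s * u s) c c' (g + 0 + r + 2)
          (q ^ 0 * gapA q (ew q c c') g 0 r) (q ^ 0 * gapB q g 0 r) (q ^ 0 * gapC q g 0 r)
          (q ^ 0 * gapD q (ew q c c') g 0 r) := by
  have hb : ∀ v : Fin N → A,
      1 * csumT q x (descFrom (r + 1) g ++ descFrom 1 (r + 1)) (c' :: rest)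
          (fun κ => (κ.map v).prod * 1)
        = T4 q (fun s => x s * v s) c c' (g + r + 1)
            (qf q (g + r) * (q ^ (r + 1) * gs q g)) 0 (qf q (g + r) * gs q (r + 1)) 0 := by
    intro v
    have h := front_sum hq0 hq1 x c' rest (r + 1) (by omega) g v
    simp only [one_mul, mul_one]
    rw [h]
    unfold T4
    rw [show g + (r + 1) - 1 = g + r by omega, show g + (r + 1) = g + r + 1 by omega]
    ring
  have h := step4' hq0 hq1 x c c' rest (descFrom (r + 1) g ++ descFrom 1 (r + 1)) (g + r)
    (g + (r + 1)) (g + r + 1) (g + 0 + r + 2)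
    (by rw [List.length_append, length_descFrom, length_descFrom]; omega) (by omega) rfl
    (by omega) (fun _ => 1) 1 _ _ _ _ hb
    (fun κ => ((κ.take (0 + 1)).map (ew q c)).prod) (by intro k κ; simp) u
  show q ^ (0 + 1) * csumT q x ((g + (r + 1)) :: (descFrom (r + 1) g ++ descFrom 1 (r + 1)))
      (c' :: rest) (fun κ => (κ.map u).prod * ((κ.take (0 + 1)).map (ew q c)).prod) = _
  refine Eq.trans ?_ (h.trans ?_)
  · ring
  · unfold gapA gapB gapC gapD
    congr 1
    · simp only [gs_add, pow_add, gs_one, pow_one, pow_zero, add_zero, zero_add]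
      ring
    · simp only [gs_add, pow_add, gs_one, pow_one, pow_zero, add_zero, zero_add]
      ring
    · simp only [gs_add, pow_add, gs_one, pow_one, pow_zero, add_zero, zero_add]
      ring
    · simp only [gs_add, pow_add, gs_one, pow_one, pow_zero, add_zero, zero_add]
      ring

lemma gap_stepA (q e : A) (g j r : ℕ) :
    q ^ 2 * gs q (g + j + r + 1 + 1) * (q ^ j * gapA q e g j r)
        + q ^ (g + j + r + 1 + 2) * e * (q ^ j * gapC q g j r)
      = q ^ (j + 1) * gapA q e g (j + 1) r := by
  unfold gapA gapC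
  have eF : qf q (g + (j + 1) + r) = qf q (g + j + r) * gs q (g + j + r + 1) := by
    rw [show g + (j + 1) + r = g + j + r + 1 by omega, qf_succ]
  rw [eF]
  simp only [gs_add, pow_add, gs_one, gs_two, pow_one]
  rw [pow_eq_gs q g, pow_eq_gs q r, pow_eq_gs q j]
  ring

lemma gap_stepB (q e : A) (g j r : ℕ) :
    q * (q ^ j * gapA q e g j r + gs q (g + j + r + 1 + 2) * (q ^ j * gapB q g j r)
        + q ^ (g + j + r + 1 + 1) * (q ^ j * gapD q e g j r))
      = q ^ (j + 1) * gapB q g (j + 1) r := by
  unfold gapA gapB gapD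
  have eF : qf q (g + (j + 1) + r) = qf q (g + j + r) * gs q (g + j + r + 1) := by
    rw [show g + (j + 1) + r = g + j + r + 1 by omega, qf_succ]
  rw [eF]
  simp only [gs_add, pow_add, gs_one, gs_two, pow_one]
  rw [pow_eq_gs q g, pow_eq_gs q r, pow_eq_gs q j]
  ring

lemma gap_stepC (q : A) (g j r : ℕ) :
    q ^ 2 * gs q (g + j + r + 1) * (q ^ j * gapC q g j r) = q ^ (j + 1) * gapC q g (j + 1) r := by
  unfold gapC
  have eF : qf q (g + (j + 1) + r) = qf q (g + j + r) * gs q (g + j + r + 1) := by
    rw [show g + (j + 1) + r = g + j + r + 1 by omega, qf_succ]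
  rw [eF]
  ring

lemma gap_stepD (q e : A) (g j r : ℕ) :
    (1 + q - e) * (q ^ j * gapC q g j r) + q * gs q (g + j + r + 1 + 1) * (q ^ j * gapD q e g j r)
      = q ^ (j + 1) * gapD q e g (j + 1) r := by
  unfold gapC gapD
  have eF : qf q (g + (j + 1) + r) = qf q (g + j + r) * gs q (g + j + r + 1) := by
    rw [show g + (j + 1) + r = g + j + r + 1 by omega, qf_succ]
  rw [eF]
  simp only [gs_add, pow_add, gs_one, gs_two, pow_one]
  rw [pow_eq_gs q g, pow_eq_gs q r, pow_eq_gs q j]
  ring

/-- the clique sum for a clique whose first `j + 1` vertices are adjacent to the earlier vertex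
of colour `c` and whose last `r + 1` vertices are adjacent to the later vertex of colour `c'`,
with `g` vertices in between -/
theorem gap_sum [IsDomain A] {q : A} (hq0 : q ≠ 0) (hq1 : q ≠ 1) (x : Fin N → A) (c c' : Fin N)
    (rest : List (Fin N)) (g r : ℕ) :
    ∀ (j : ℕ) (u : Fin N → A),
      q ^ (j + 1) * csumT q x (descFrom (r + 1) (g + (j + 1)) ++ descFrom 1 (r + 1)) (c' :: rest)
          (fun κ => (κ.map u).prod * ((κ.take (j + 1)).map (ew q c)).prod)
        = T4 q (fun s => x s * u s) c c' (g + j + r + 2)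
            (q ^ j * gapA q (ew q c c') g j r) (q ^ j * gapB q g j r) (q ^ j * gapC q g j r)
            (q ^ j * gapD q (ew q c c') g j r)
  | 0, u => gap_base hq0 hq1 x c c' rest g r u
  | j + 1, u => by
      have ih := gap_sum hq0 hq1 x c c' rest g r j
      have h := step4' hq0 hq1 x c c' rest
        (descFrom (r + 1) (g + (j + 1)) ++ descFrom 1 (r + 1)) (g + j + r + 1)
        (g + (j + 1) + (r + 1)) (g + j + r + 2) (g + (j + 1) + r + 2)
        (by rw [List.length_append, length_descFrom, length_descFrom]; omega) (by omega) rfl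
        (by omega)
        (fun κ => ((κ.take (j + 1)).map (ew q c)).prod) (q ^ (j + 1)) _ _ _ _ ih
        (fun κ => ((κ.take (j + 1 + 1)).map (ew q c)).prod)
        (by intro k κ; simp [List.take_succ_cons]) u
      show q ^ (j + 1 + 1) * csumT q x
          ((g + (j + 1) + (r + 1)) :: (descFrom (r + 1) (g + (j + 1)) ++ descFrom 1 (r + 1)))
          (c' :: rest) (fun κ => (κ.map u).prod * ((κ.take (j + 1 + 1)).map (ew q c)).prod) = _
      refine Eq.trans ?_ (h.trans ?_)
      · ring
      · rw [gap_stepA, gap_stepB, gap_stepC, gap_stepD]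

/-- the coefficients of the four-term form of `lap_sum` -/
noncomputable def lapA (q e : A) (o t j : ℕ) : A :=
  q * (qf q (j + o + t) * (q ^ (j + o + t + 1 + (o + 1)) * gs q (j + 1) * gs q t * e))

noncomputable def lapB (q : A) (o t j : ℕ) : A :=
  q * (qf q (j + o + t) * (q ^ (o + 1 + t) * gs q (j + 1) * gs q (j + o + 1)))

noncomputable def lapC (q : A) (o t j : ℕ) : A :=
  q * (qf q (j + o + t) * (q ^ (j + o + 2) * gs q t * gs q (o + t)))

noncomputable def lapD (q e : A) (o t j : ℕ) : A :=
  qf q (j + o + t) * (q ^ (o + 1) * gs q (j + 1) * gs q t * (1 + q - e)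
    + q * gs q (o + 1) * gs q (j + o + t + 1))

lemma lap_base [IsDomain A] {q : A} (hq0 : q ≠ 0) (hq1 : q ≠ 1) (x : Fin N → A) (c c' : Fin N)
    (rest : List (Fin N)) (o t : ℕ) (u : Fin N → A) :
    q ^ (0 + 1) * csumT q x (descFrom (o + 1 + t) (0 + 1) ++ descFrom 1 (o + 1 + t))
        (c' :: rest)
        (fun κ => (κ.map u).prod * ((κ.take ((o + 1) + (0 + 1))).map (ew q c)).prod)
      = T4 q (fun s => x s * u s) c c' (0 + o + t + 2)
          (q ^ 0 * lapA q (ew q c c') o t 0) (q ^ 0 * lapB q o t 0) (q ^ 0 * lapC q o t 0)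
          (q ^ 0 * lapD q (ew q c c') o t 0) := by
  have hb : ∀ v : Fin N → A,
      1 * csumT q x (descFrom 1 (o + 1 + t)) (c' :: rest)
          (fun κ => (κ.map v).prod * ((κ.take (o + 1)).map (ew q c)).prod)
        = T4 q (fun s => x s * v s) c c' (o + t + 1)
            0 0 (qf q (o + t) * (q ^ (o + 1) * gs q t)) (qf q (o + t) * gs q (o + 1)) := by
    intro v
    have h := clique_first' hq1 x 1 (c' :: rest) c t o v
    simp only [wfac_one_cons] at h
    rw [one_mul, h]
    unfold T4
    rw [show o + 1 + t = o + t + 1 by omega]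
    ring
  have h := step4' hq0 hq1 x c c' rest (descFrom 1 (o + 1 + t)) (o + t)
    (0 + (o + 1 + t)) (o + t + 1) (0 + o + t + 2)
    (by rw [length_descFrom]; omega) (by omega) rfl
    (by omega) (fun κ => ((κ.take (o + 1)).map (ew q c)).prod) 1 _ _ _ _ hb
    (fun κ => ((κ.take ((o + 1) + (0 + 1))).map (ew q c)).prod)
    (by intro k κ; simp [List.take_succ_cons]) u
  show q ^ (0 + 1) * csumT q x ((0 + (o + 1 + t)) :: descFrom 1 (o + 1 + t))
      (c' :: rest)
      (fun κ => (κ.map u).prod * ((κ.take ((o + 1) + (0 + 1))).map (ew q c)).prod) = _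
  refine Eq.trans ?_ (h.trans ?_)
  · ring
  · unfold lapA lapB lapC lapD
    congr 1
    · simp only [gs_add, pow_add, gs_one, pow_one, pow_zero, add_zero, zero_add]
      ring
    · simp only [gs_add, pow_add, gs_one, pow_one, pow_zero, add_zero, zero_add]
      ring
    · simp only [gs_add, pow_add, gs_one, pow_one, pow_zero, add_zero, zero_add]
      ring
    · simp only [gs_add, pow_add, gs_one, pow_one, pow_zero, add_zero, zero_add]
      ring

lemma lap_stepA (q e : A) (o t j : ℕ) :
    q ^ 2 * gs q (j + o + t + 1 + 1) * (q ^ j * lapA q e o t j)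
        + q ^ (j + o + t + 1 + 2) * e * (q ^ j * lapC q o t j)
      = q ^ (j + 1) * lapA q e o t (j + 1) := by
  unfold lapA lapC
  have eF : qf q (j + 1 + o + t) = qf q (j + o + t) * gs q (j + o + t + 1) := by
    rw [show j + 1 + o + t = j + o + t + 1 by omega, qf_succ]
  rw [eF]
  simp only [gs_add, pow_add, gs_one, gs_two, pow_one]
  rw [pow_eq_gs q o, pow_eq_gs q t, pow_eq_gs q j]
  ring

lemma lap_stepB (q e : A) (o t j : ℕ) :
    q * (q ^ j * lapA q e o t j + gs q (j + o + t + 1 + 2) * (q ^ j * lapB q o t j)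
        + q ^ (j + o + t + 1 + 1) * (q ^ j * lapD q e o t j))
      = q ^ (j + 1) * lapB q o t (j + 1) := by
  unfold lapA lapB lapD
  have eF : qf q (j + 1 + o + t) = qf q (j + o + t) * gs q (j + o + t + 1) := by
    rw [show j + 1 + o + t = j + o + t + 1 by omega, qf_succ]
  rw [eF]
  simp only [gs_add, pow_add, gs_one, gs_two, pow_one]
  rw [pow_eq_gs q o, pow_eq_gs q t, pow_eq_gs q j]
  ring

lemma lap_stepC (q : A) (o t j : ℕ) :
    q ^ 2 * gs q (j + o + t + 1) * (q ^ j * lapC q o t j) = q ^ (j + 1) * lapC q o t (j + 1) := by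
  unfold lapC
  have eF : qf q (j + 1 + o + t) = qf q (j + o + t) * gs q (j + o + t + 1) := by
    rw [show j + 1 + o + t = j + o + t + 1 by omega, qf_succ]
  rw [eF]
  ring

lemma lap_stepD (q e : A) (o t j : ℕ) :
    (1 + q - e) * (q ^ j * lapC q o t j)
        + q * gs q (j + o + t + 1 + 1) * (q ^ j * lapD q e o t j)
      = q ^ (j + 1) * lapD q e o t (j + 1) := by
  unfold lapC lapD
  have eF : qf q (j + 1 + o + t) = qf q (j + o + t) * gs q (j + o + t + 1) := by
    rw [show j + 1 + o + t = j + o + t + 1 by omega, qf_succ]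
  rw [eF]
  simp only [gs_add, pow_add, gs_one, gs_two, pow_one]
  rw [pow_eq_gs q o, pow_eq_gs q t, pow_eq_gs q j]
  ring

/-- the clique sum for a clique whose first `j + 1 + (o + 1)` vertices are adjacent to the
earlier vertex of colour `c` and whose last `o + 1 + t` vertices are adjacent to the later
vertex of colour `c'` -/
theorem lap_sum [IsDomain A] {q : A} (hq0 : q ≠ 0) (hq1 : q ≠ 1) (x : Fin N → A) (c c' : Fin N)
    (rest : List (Fin N)) (o t : ℕ) :
    ∀ (j : ℕ) (u : Fin N → A),
      q ^ (j + 1) * csumT q x (descFrom (o + 1 + t) (j + 1) ++ descFrom 1 (o + 1 + t))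
          (c' :: rest)
          (fun κ => (κ.map u).prod * ((κ.take ((o + 1) + (j + 1))).map (ew q c)).prod)
        = T4 q (fun s => x s * u s) c c' (j + o + t + 2)
            (q ^ j * lapA q (ew q c c') o t j) (q ^ j * lapB q o t j) (q ^ j * lapC q o t j)
            (q ^ j * lapD q (ew q c c') o t j)
  | 0, u => lap_base hq0 hq1 x c c' rest o t u
  | j + 1, u => by
      have ih := lap_sum hq0 hq1 x c c' rest o t j
      have h := step4' hq0 hq1 x c c' rest
        (descFrom (o + 1 + t) (j + 1) ++ descFrom 1 (o + 1 + t)) (j + o + t + 1)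
        (j + 1 + (o + 1 + t)) (j + o + t + 2) (j + 1 + o + t + 2)
        (by rw [List.length_append, length_descFrom, length_descFrom]; omega) (by omega) rfl
        (by omega)
        (fun κ => ((κ.take ((o + 1) + (j + 1))).map (ew q c)).prod) (q ^ (j + 1)) _ _ _ _ ih
        (fun κ => ((κ.take ((o + 1) + (j + 1 + 1))).map (ew q c)).prod)
        (by
          intro k κ
          show (((k :: κ).take ((o + 1) + (j + 1) + 1)).map (ew q c)).prod = _
          rw [List.take_succ_cons, List.map_cons, List.prod_cons]) u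
      show q ^ (j + 1 + 1) * csumT q x
          ((j + 1 + (o + 1 + t)) :: (descFrom (o + 1 + t) (j + 1) ++ descFrom 1 (o + 1 + t)))
          (c' :: rest)
          (fun κ => (κ.map u).prod * ((κ.take ((o + 1) + (j + 1 + 1))).map (ew q c)).prod) = _
      refine Eq.trans ?_ (h.trans ?_)
      · ring
      · rw [lap_stepA, lap_stepB, lap_stepC, lap_stepD]

end Vale.Agent.Lib.P066
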