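import Mathlib
import Vale.Agent.Lib.P066.Blocks

namespace Vale.Agent.Lib.P066

open Finset

variable {A : Type*} [CommRing A] {N : ℕ}

/-- the sum appearing in the kernel of a block melted at both of its cut vertices -/
noncomputable def xx4 (q : A) (x : Fin N → A) (P : ℕ → A) (n t : ℕ) : A :=
  (if t < n then q ^ (n - 1) * es x n * P (t + 1) else 0)
    + q ^ n * gs q t * es x n * es x (t + 1) * P 0
    + ∑ i ∈ range (min n t + 1),
        (q ^ i * gs q (n - 1 - i) * es x i * P (n + t + 1 - i)
          + q ^ (n - 1) * gs q (t + 2 - i) * es x (n + t + 1 - i) * P i)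

/-- the first coefficient identity: for `i ≤ t` and `1 ≤ n` -/
lemma kerX_coeffA (q : A) (n t i : ℕ) (hn : 1 ≤ n) (hi : i ≤ t) :
    (1 + q) * (q ^ n * gs q (t + 1 - i)) - q ^ (n + 1) * gs q (t - i)
      = q * (q ^ (n - 1) * gs q (t + 2 - i)) := by
  obtain ⟨m, rfl⟩ : ∃ m, n = m + 1 := ⟨n - 1, by omega⟩
  obtain ⟨d, rfl⟩ : ∃ d, t = i + d := ⟨t - i, by omega⟩
  have e1 : i + d + 1 - i = d + 1 := by omega
  have e2 : i + d - i = d := by omega
  have e3 : i + d + 2 - i = d + 1 + 1 := by omega
  have e4 : m + 1 - 1 = m := by omega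
  rw [e1, e2, e3, e4, gs_succ q (d + 1), gs_succ q d]
  ring

/-- the second coefficient identity: for `i < n` -/
lemma kerX_coeffB (q : A) (n i : ℕ) (hi : i < n) :
    (1 + q) * (q ^ i * gs q (n - i)) - q ^ i * gs q (n + 1 - i)
      = q * (q ^ i * gs q (n - 1 - i)) := by
  obtain ⟨d, rfl⟩ : ∃ d, n = i + d + 1 := ⟨n - i - 1, by omega⟩
  have e1 : i + d + 1 - i = d + 1 := by omega
  have e2 : i + d + 1 + 1 - i = d + 1 + 1 := by omega
  have e3 : i + d + 1 - 1 - i = d := by omega
  rw [e1, e2, e3, gs_succ q (d + 1), gs_succ q d]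
  ring

/-- the second coefficient identity at the exceptional index `i = n` -/
lemma kerX_coeffB' (q : A) (n : ℕ) :
    (1 + q) * (q ^ n * gs q (n - n)) - q ^ n * gs q (n + 1 - n)
      = q * (q ^ n * gs q (n - 1 - n)) - q ^ n := by
  have e1 : n - n = 0 := by omega
  have e2 : n + 1 - n = 1 := by omega
  have e3 : n - 1 - n = 0 := by omega
  rw [e1, e2, e3]
  simp

lemma kerX [IsDomain A] {q : A} (hq1 : q ≠ 1) (x : Fin N → A) (c' : Fin N) (n t : ℕ)
    (hn : 1 ≤ n) :
    q ^ n * es x n * ∑ c, x c * ew q c c' * es (fun s => x s * ew q s c) t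
      + ∑ c, x c * es (fun s => x s * ew q s c) t * ((1 + q - ew q c c')
          * es (fun s => x s * ew q s c' * ew q c s) n)
      = q * xx4 q x (fun j => es (fun s => x s * ew q s c') j) n t := by
  set D : ℕ → A := fun j => es (fun s => x s * ew q s c') j with hD
  have hD0 : D 0 = 1 := es_zero _
  -- step (1)
  have h1 : ∑ c, x c * ew q c c' * es (fun s => x s * ew q s c) t
      = D (t + 1) + q * gs q t * es x (t + 1) := by
    have h := kernelId hq1 x c' 0 t
    have hl : ∑ c, x c * ew q c c' * es (fun s => x s * ew q s c' * ew q c s) 0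
        * es (fun s => x s * ew q s c) t
        = ∑ c, x c * ew q c c' * es (fun s => x s * ew q s c) t := by
      apply Finset.sum_congr rfl
      intro c _
      rw [es_zero, mul_one]
    rw [hl] at h
    rw [h]
    have hm : min 0 t + 1 = 1 := by simp
    rw [hm, Finset.sum_range_one]
    have e1 : 0 + 1 - 0 = 1 := by omega
    have e2 : 0 + t + 1 - 0 = t + 1 := by omega
    have e3 : t - 0 = t := by omega
    rw [e1, e2, e3, gs_one, es_zero, es_zero]
    ring
  -- step (2)
  have hJ := kerJ hq1 x c' n t
  have hK := kernelId hq1 x c' n t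
  have h2 : ∑ c, x c * es (fun s => x s * ew q s c) t * ((1 + q - ew q c c')
          * es (fun s => x s * ew q s c' * ew q c s) n)
      = (1 + q) * jj q x D n t
        - ∑ i ∈ range (min n t + 1),
          (q ^ i * gs q (n + 1 - i) * es x i * D (n + t + 1 - i)
            + q ^ (n + 1) * gs q (t - i) * es x (n + t + 1 - i) * D i) := by
    rw [← hK, ← hJ, Finset.mul_sum, ← Finset.sum_sub_distrib]
    apply Finset.sum_congr rfl
    intro c _
    ring
  rw [h1, h2]
  unfold jj xx4
  rw [Finset.mul_sum, ← Finset.sum_sub_distrib]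
  -- termwise comparison
  have hterm : ∀ i ∈ range (min n t + 1),
      (1 + q) * (q ^ i * gs q (n - i) * es x i * D (n + t + 1 - i)
          + q ^ n * gs q (t + 1 - i) * es x (n + t + 1 - i) * D i)
        - (q ^ i * gs q (n + 1 - i) * es x i * D (n + t + 1 - i)
          + q ^ (n + 1) * gs q (t - i) * es x (n + t + 1 - i) * D i)
      = q * (q ^ i * gs q (n - 1 - i) * es x i * D (n + t + 1 - i)
          + q ^ (n - 1) * gs q (t + 2 - i) * es x (n + t + 1 - i) * D i)
        + (if i = n then -(q ^ n * es x n * D (t + 1)) else 0) := by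
    intro i hi
    have hi' : i ≤ min n t := by
      have := Finset.mem_range.mp hi
      omega
    have hit : i ≤ t := le_trans hi' (min_le_right _ _)
    have hin : i ≤ n := le_trans hi' (min_le_left _ _)
    have hA := kerX_coeffA q n t i hn hit
    by_cases hie : i = n
    · subst hie
      rw [if_pos rfl]
      have hB := kerX_coeffB' q i
      have e1 : i + t + 1 - i = t + 1 := by omega
      rw [e1]
      have key : (1 + q) * (q ^ i * gs q (i - i) * es x i * D (t + 1)
            + q ^ i * gs q (t + 1 - i) * es x (t + 1) * D i)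
          - (q ^ i * gs q (i + 1 - i) * es x i * D (t + 1)
            + q ^ (i + 1) * gs q (t - i) * es x (t + 1) * D i)
          = ((1 + q) * (q ^ i * gs q (i - i)) - q ^ i * gs q (i + 1 - i)) * (es x i * D (t + 1))
            + ((1 + q) * (q ^ i * gs q (t + 1 - i)) - q ^ (i + 1) * gs q (t - i))
              * (es x (t + 1) * D i) := by ring
      rw [key, hB, hA]
      ring
    · rw [if_neg hie]
      have hlt : i < n := lt_of_le_of_ne hin hie
      have hB := kerX_coeffB q n i hlt
      have key : (1 + q) * (q ^ i * gs q (n - i) * es x i * D (n + t + 1 - i)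
            + q ^ n * gs q (t + 1 - i) * es x (n + t + 1 - i) * D i)
          - (q ^ i * gs q (n + 1 - i) * es x i * D (n + t + 1 - i)
            + q ^ (n + 1) * gs q (t - i) * es x (n + t + 1 - i) * D i)
          = ((1 + q) * (q ^ i * gs q (n - i)) - q ^ i * gs q (n + 1 - i))
              * (es x i * D (n + t + 1 - i))
            + ((1 + q) * (q ^ n * gs q (t + 1 - i)) - q ^ (n + 1) * gs q (t - i))
              * (es x (n + t + 1 - i) * D i) := by ring
      rw [key, hB, hA]
      ring
  rw [Finset.sum_congr rfl hterm, Finset.sum_add_distrib, Finset.sum_ite_eq', hD0]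
  rw [← Finset.mul_sum]
  by_cases htn : t < n
  · have hmem : n ∉ range (min n t + 1) := by
      rw [Finset.mem_range]
      have : min n t = t := min_eq_right (le_of_lt htn)
      omega
    rw [if_neg hmem, if_pos htn]
    obtain ⟨m, rfl⟩ : ∃ m, n = m + 1 := ⟨n - 1, by omega⟩
    have e4 : m + 1 - 1 = m := by omega
    rw [e4]
    ring
  · have hmem : n ∈ range (min n t + 1) := by
      rw [Finset.mem_range]
      have : min n t = n := min_eq_left (not_lt.mp htn)
      omega
    rw [if_pos hmem, if_neg htn]
    ring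

end Vale.Agent.Lib.P066
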