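import Mathlib
import Vale.Agent.Lib.P066.Conn
import Vale.Agent.Lib.P066.KerX

namespace Vale.Agent.Lib.P066

open Finset

variable {A : Type*} [CommRing A] {N : ℕ}

lemma csumT_xx4 (q : A) (x : Fin N → A) (L : List ℕ) (F : ℕ → List (Fin N) → A) (n t : ℕ) :
    csumT q x L [] (fun κ => xx4 q x (fun j => F j κ) n t)
      = xx4 q x (fun j => csumT q x L [] (F j)) n t := by
  unfold xx4
  rw [csumT_add, csumT_add, csumT_mul_left, csumT_sum]
  congr 1
  · congr 1
    by_cases h : t < n
    · simp only [h, if_true]
      rw [csumT_mul_left]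
    · simp only [h, if_false]
      exact csumT_zero q x L []
  · apply Finset.sum_congr rfl
    intro i _
    rw [csumT_add, csumT_mul_left, csumT_mul_left]

/-- transfer through a block whose interior is a clique: the first cut vertex is adjacent to
the first `s₀` interior vertices, and the clique sum of the interior has the four-term form -/
theorem transferX [IsDomain A] {q : A} (hq0 : q ≠ 0) (hq1 : q ≠ 1) (x : Fin N → A)
    (B : List ℕ) (s₀ n : ℕ) (hB : B.length = n + 1) (hs : s₀ ≤ n + 1)
    (F α₁ β₁ γ δ₁ δ₂ : A)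
    (H : ∀ (c c' : Fin N) (rest : List (Fin N)),
      q * csumT q x B (c' :: rest) (fun κ => ((κ.take s₀).map (ew q c)).prod)
        = T4 q x c c' (n + 1) (q * (F * (α₁ + q ^ n * δ₁ * ew q c c'))) (q * (F * β₁))
            (q * (F * γ)) (F * (δ₁ * (1 + q - ew q c c') + q * δ₂)))
    (t : ℕ) (L : List ℕ) (hL : L ≠ []) :
    PhiP q x t (s₀ :: B ++ L)
      = F * (α₁ * gs q (t + 1) * es x (n + 1) * es x (t + 1) * chiL q x L
          + β₁ * yy q x t (n + 1) * chiL q x L
          + γ * gs q (t + 1) * es x (t + 1) * PhiP q x (n + 1) L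
          + δ₂ * jj q x (fun j => PhiP q x j L) (n + 1) t
          + δ₁ * xx4 q x (fun j => PhiP q x j L) (n + 1) t) := by
  apply mul_left_cancel₀ hq0
  unfold PhiP chiL
  rw [List.cons_append]
  simp only [csumT]
  have h1 : ∀ c, q * csumT q x (B ++ L) []
        (fun κ => wfac q c s₀ (κ ++ []) * es (fun s' => x s' * wfac q s' 1 (c :: κ)) t)
      = csumT q x L [] (fun κ2 => es (fun s' => x s' * ew q s' c) t
          * (q * (F * (α₁ + q ^ n * δ₁ * wfac q c 1 κ2)) * es x (n + 1)
            + q * (F * β₁) * es (fun s => x s * ew q c s) (n + 1)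
            + q * (F * γ) * es (fun s => x s * wfac q s 1 κ2) (n + 1)
            + F * (δ₁ * (1 + q - wfac q c 1 κ2) + q * δ₂)
                * es (fun s => x s * wfac q s 1 κ2 * ew q c s) (n + 1))) := by
    intro c
    rw [csumT_append, ← csumT_mul_left]
    apply csumT_congr
    intro κ2 hκ2
    obtain ⟨c', rest, rfl⟩ := exists_cons_of_length L hL κ2 hκ2
    have h2 := H c c' rest
    unfold T4 at h2
    simp only [wfac_one_cons, List.append_nil]
    have h3 : csumT q x B (c' :: rest)
          (fun κ1 => wfac q c s₀ (κ1 ++ c' :: rest) * es (fun s' => x s' * ew q s' c) t)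
        = es (fun s' => x s' * ew q s' c) t * csumT q x B (c' :: rest)
            (fun κ1 => ((κ1.take s₀).map (ew q c)).prod) := by
      rw [← csumT_mul_left]
      apply csumT_congr
      intro κ1 hκ1
      unfold wfac
      rw [List.take_append_of_le_length (by omega)]
      ring
    rw [h3, mul_left_comm, h2]
  rw [Finset.mul_sum]
  have h1' : ∀ c, q * (x c * csumT q x (B ++ L) []
        (fun κ => wfac q c s₀ (κ ++ []) * es (fun s' => x s' * wfac q s' 1 (c :: κ)) t))
      = x c * csumT q x L [] (fun κ2 => es (fun s' => x s' * ew q s' c) t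
          * (q * (F * (α₁ + q ^ n * δ₁ * wfac q c 1 κ2)) * es x (n + 1)
            + q * (F * β₁) * es (fun s => x s * ew q c s) (n + 1)
            + q * (F * γ) * es (fun s => x s * wfac q s 1 κ2) (n + 1)
            + F * (δ₁ * (1 + q - wfac q c 1 κ2) + q * δ₂)
                * es (fun s => x s * wfac q s 1 κ2 * ew q c s) (n + 1))) := by
    intro c
    rw [mul_left_comm, h1 c]
  rw [Finset.sum_congr rfl (fun c _ => h1' c), csumT_sum_mul q x L [] x]
  have hR : q * (F * (α₁ * gs q (t + 1) * es x (n + 1) * es x (t + 1)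
            * csumT q x L [] (fun _ => 1)
          + β₁ * yy q x t (n + 1) * csumT q x L [] (fun _ => 1)
          + γ * gs q (t + 1) * es x (t + 1)
            * csumT q x L [] (fun κ => es (fun s' => x s' * wfac q s' 1 κ) (n + 1))
          + δ₂ * jj q x (fun j => csumT q x L []
              (fun κ => es (fun s' => x s' * wfac q s' 1 κ) j)) (n + 1) t
          + δ₁ * xx4 q x (fun j => csumT q x L []
              (fun κ => es (fun s' => x s' * wfac q s' 1 κ) j)) (n + 1) t))
      = csumT q x L [] (fun κ => q * (F * (α₁ * gs q (t + 1) * es x (n + 1) * es x (t + 1) * 1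
          + β₁ * yy q x t (n + 1) * 1
          + γ * gs q (t + 1) * es x (t + 1) * es (fun s' => x s' * wfac q s' 1 κ) (n + 1)
          + δ₂ * jj q x (fun j => es (fun s' => x s' * wfac q s' 1 κ) j) (n + 1) t
          + δ₁ * xx4 q x (fun j => es (fun s' => x s' * wfac q s' 1 κ) j) (n + 1) t))) := by
    rw [csumT_mul_left, csumT_mul_left, csumT_add, csumT_add, csumT_add, csumT_add,
      csumT_mul_left, csumT_mul_left, csumT_mul_left, csumT_mul_left, csumT_mul_left,
      csumT_jj, csumT_xx4]
  rw [hR]
  apply csumT_congr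
  intro κ2 hκ2
  obtain ⟨c', rest, rfl⟩ := exists_cons_of_length L hL κ2 hκ2
  simp only [wfac_one_cons]
  have hI := symI hq1 x t
  have hT : ∑ c, x c * es (fun s => x s * ew q s c) t * es (fun s => x s * ew q c s) (n + 1)
      = yy q x t (n + 1) := twoClique hq1 x t (n + 1)
  have hJ := kerJ hq1 x c' (n + 1) t
  have hX := kerX hq1 x c' (n + 1) t (by omega)
  have hsplit : ∑ c, x c * (es (fun s' => x s' * ew q s' c) t
          * (q * (F * (α₁ + q ^ n * δ₁ * ew q c c')) * es x (n + 1)
            + q * (F * β₁) * es (fun s => x s * ew q c s) (n + 1)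
            + q * (F * γ) * es (fun s => x s * ew q s c') (n + 1)
            + F * (δ₁ * (1 + q - ew q c c') + q * δ₂)
                * es (fun s => x s * ew q s c' * ew q c s) (n + 1)))
      = (q * F * α₁ * es x (n + 1)) * (∑ c, x c * es (fun s => x s * ew q s c) t)
        + (F * δ₁) * (q ^ (n + 1) * es x (n + 1)
              * ∑ c, x c * ew q c c' * es (fun s => x s * ew q s c) t
            + ∑ c, x c * es (fun s => x s * ew q s c) t * ((1 + q - ew q c c')
                * es (fun s => x s * ew q s c' * ew q c s) (n + 1)))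
        + (q * F * β₁) * (∑ c, x c * es (fun s => x s * ew q s c) t
            * es (fun s => x s * ew q c s) (n + 1))
        + (q * F * γ * es (fun s => x s * ew q s c') (n + 1))
            * (∑ c, x c * es (fun s => x s * ew q s c) t)
        + (q * F * δ₂) * (∑ c, x c * es (fun s => x s * ew q s c) t
            * es (fun s => x s * ew q s c' * ew q c s) (n + 1)) := by
    simp only [Finset.mul_sum, mul_add, ← Finset.sum_add_distrib]
    apply Finset.sum_congr rfl
    intro c _
    ring
  rw [hsplit, hI, hT, hJ, hX]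
  ring

lemma gap_H [IsDomain A] {q : A} (hq0 : q ≠ 0) (hq1 : q ≠ 1) (x : Fin N → A) (g r j : ℕ)
    (c c' : Fin N) (rest : List (Fin N)) :
    q * csumT q x (descFrom (r + 1) (g + (j + 1)) ++ descFrom 1 (r + 1)) (c' :: rest)
        (fun κ => ((κ.take (j + 1)).map (ew q c)).prod)
      = T4 q x c c' (g + j + r + 1 + 1) (gapA q (ew q c c') g j r) (gapB q g j r)
          (gapC q g j r) (gapD q (ew q c c') g j r) := by
  have h := gap_sum hq0 hq1 x c c' rest g r j (fun _ => 1)
  simp only [mul_one, List.map_const', List.prod_replicate, one_pow, one_mul] at h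
  rw [T4_smul] at h
  apply mul_left_cancel₀ (pow_ne_zero j hq0)
  rw [← h]
  ring

lemma lap_H [IsDomain A] {q : A} (hq0 : q ≠ 0) (hq1 : q ≠ 1) (x : Fin N → A) (o t j : ℕ)
    (c c' : Fin N) (rest : List (Fin N)) :
    q * csumT q x (descFrom (o + 1 + t) (j + 1) ++ descFrom 1 (o + 1 + t)) (c' :: rest)
        (fun κ => ((κ.take ((o + 1) + (j + 1))).map (ew q c)).prod)
      = T4 q x c c' (j + o + t + 1 + 1) (lapA q (ew q c c') o t j) (lapB q o t j)
          (lapC q o t j) (lapD q (ew q c c') o t j) := by
  have h := lap_sum hq0 hq1 x c c' rest o t j (fun _ => 1)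
  simp only [mul_one, List.map_const', List.prod_replicate, one_pow, one_mul] at h
  rw [T4_smul] at h
  apply mul_left_cancel₀ (pow_ne_zero j hq0)
  rw [← h]
  ring

/-- transfer through a block whose interior is a clique on `(j + 1) + g + (r + 1)` vertices,
the first cut vertex being adjacent to the first `j + 1` and the last cut vertex to the last
`r + 1` interior vertices -/
theorem transferG [IsDomain A] {q : A} (hq0 : q ≠ 0) (hq1 : q ≠ 1) (x : Fin N → A)
    (j g r t : ℕ) (L : List ℕ) (hL : L ≠ []) :
    PhiP q x t ((j + 1) :: (descFrom (r + 1) (g + (j + 1)) ++ descFrom 1 (r + 1)) ++ L)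
      = qf q (g + j + r) * (q ^ (r + j + 2) * gs q g * gs q (g + j + r + 1) * gs q (t + 1)
              * es x (g + j + r + 1 + 1) * es x (t + 1) * chiL q x L
          + q ^ (r + 1) * gs q (j + 1) * gs q (g + j) * yy q x t (g + j + r + 1 + 1)
              * chiL q x L
          + q ^ (j + 1) * gs q (r + 1) * gs q (g + r) * gs q (t + 1) * es x (t + 1)
              * PhiP q x (g + j + r + 1 + 1) L
          + 0 * jj q x (fun i => PhiP q x i L) (g + j + r + 1 + 1) t
          + gs q (j + 1) * gs q (r + 1)
              * xx4 q x (fun i => PhiP q x i L) (g + j + r + 1 + 1) t) := by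
  refine transferX hq0 hq1 x _ (j + 1) (g + j + r + 1)
    (by rw [List.length_append, length_descFrom, length_descFrom]; omega) (by omega)
    _ _ _ _ _ _ ?_ t L hL
  intro c c' rest
  rw [gap_H hq0 hq1 x g r j c c' rest]
  unfold gapA gapB gapC gapD
  congr 1 <;> ring

/-- transfer through a block whose interior is a clique on `(j + 1) + (o + 1) + t` vertices,
the first cut vertex being adjacent to the first `(j + 1) + (o + 1)` and the last cut vertex to
the last `(o + 1) + t` interior vertices -/
theorem transferL [IsDomain A] {q : A} (hq0 : q ≠ 0) (hq1 : q ≠ 1) (x : Fin N → A)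
    (j o t t₀ : ℕ) (L : List ℕ) (hL : L ≠ []) :
    PhiP q x t₀ (((o + 1) + (j + 1))
        :: (descFrom (o + 1 + t) (j + 1) ++ descFrom 1 (o + 1 + t)) ++ L)
      = qf q (j + o + t) * (0 * gs q (t₀ + 1)
              * es x (j + o + t + 1 + 1) * es x (t₀ + 1) * chiL q x L
          + q ^ (o + 1 + t) * gs q (j + 1) * gs q (j + o + 1) * yy q x t₀ (j + o + t + 1 + 1)
              * chiL q x L
          + q ^ (j + o + 2) * gs q t * gs q (o + t) * gs q (t₀ + 1) * es x (t₀ + 1)
              * PhiP q x (j + o + t + 1 + 1) L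
          + gs q (o + 1) * gs q (j + o + t + 1)
              * jj q x (fun i => PhiP q x i L) (j + o + t + 1 + 1) t₀
          + q ^ (o + 1) * gs q (j + 1) * gs q t
              * xx4 q x (fun i => PhiP q x i L) (j + o + t + 1 + 1) t₀) := by
  refine transferX hq0 hq1 x _ ((o + 1) + (j + 1)) (j + o + t + 1)
    (by rw [List.length_append, length_descFrom, length_descFrom]; omega) (by omega)
    _ _ _ _ _ _ ?_ t₀ L hL
  intro c c' rest
  rw [lap_H hq0 hq1 x o t j c c' rest]
  unfold lapA lapB lapC lapD
  congr 1 <;> ring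

end Vale.Agent.Lib.P066
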