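import Mathlib
import Vale.Agent.Lib.P066.TransX
import Vale.Agent.Lib.P066.Chain2
import Vale.Agent.Lib.P066.Defs3

namespace Vale.Agent.Lib.P066

open Finset Polynomial

lemma ep_xx4 (P : ℕ → ∀ N : ℕ, MvPolynomial (Fin N) ℤ[X]) (hP : ∀ j, EPos (P j)) (n t : ℕ) :
    EPos (fun N => xx4 (qq N) (xx N) (fun j => P j N) n t) := by
  unfold xx4
  apply ep_add
  · apply ep_add
    · by_cases h : t < n
      · simp only [h, if_true]
        apply ep_mul _ (hP _)
        apply ep_mul _ (ep_es _)
        exact ep_pow ep_q (n - 1)
      · simp only [h, if_false]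
        exact ep_zero
    · apply ep_mul _ (hP _)
      apply ep_mul _ (ep_es _)
      apply ep_mul _ (ep_es _)
      apply ep_mul _ (ep_gs _)
      exact ep_pow ep_q n
  · apply ep_sum
    intro i _
    apply ep_add
    · apply ep_mul _ (hP _)
      apply ep_mul _ (ep_es _)
      apply ep_mul _ (ep_gs _)
      exact ep_pow ep_q i
    · apply ep_mul _ (hP _)
      apply ep_mul _ (ep_es _)
      apply ep_mul _ (ep_gs _)
      exact ep_pow ep_q (n - 1)

/-- pointed positivity is preserved by a link whose two cut vertices have no common
neighbour in the link -/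
theorem epos_transferG (j g r : ℕ) (L : List ℕ) (hL : L ≠ [])
    (h : ∀ k, EPos (fun N => PhiP (qq N) (xx N) k L)) (t : ℕ) :
    EPos (fun N => PhiP (qq N) (xx N) t
      ((j + 1) :: (descFrom (r + 1) (g + (j + 1)) ++ descFrom 1 (r + 1)) ++ L)) := by
  have h1 := fun N => transferG (qq_ne_zero N) (qq_ne_one N) (xx N) j g r t L hL
  simp only [h1]
  have h0 : EPos (fun N => chiL (qq N) (xx N) L) := by
    have := h 0
    simpa only [PhiP_zero] using this
  apply ep_mul (ep_qf _)
  apply ep_add
  · apply ep_add
    · apply ep_add
      · apply ep_add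
        · apply ep_mul _ h0
          apply ep_mul _ (ep_es _)
          apply ep_mul _ (ep_es _)
          apply ep_mul _ (ep_gs _)
          apply ep_mul _ (ep_gs _)
          apply ep_mul _ (ep_gs _)
          exact ep_pow ep_q _
        · apply ep_mul _ h0
          apply ep_mul _ (ep_yy _ _)
          apply ep_mul _ (ep_gs _)
          apply ep_mul _ (ep_gs _)
          exact ep_pow ep_q _
      · apply ep_mul _ (h _)
        apply ep_mul _ (ep_es _)
        apply ep_mul _ (ep_gs _)
        apply ep_mul _ (ep_gs _)
        apply ep_mul _ (ep_gs _)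
        exact ep_pow ep_q _
    · exact ep_mul ep_zero (ep_jj (fun i N => PhiP (qq N) (xx N) i L) h _ t)
  · apply ep_mul _ (ep_xx4 (fun i N => PhiP (qq N) (xx N) i L) h _ t)
    exact ep_mul (ep_gs _) (ep_gs _)

/-- pointed positivity is preserved by a link whose two cut vertices have common neighbours
in the link and whose first cut vertex is not adjacent to all interior vertices -/
theorem epos_transferL (j o t : ℕ) (L : List ℕ) (hL : L ≠ [])
    (h : ∀ k, EPos (fun N => PhiP (qq N) (xx N) k L)) (t₀ : ℕ) :
    EPos (fun N => PhiP (qq N) (xx N) t₀ (((o + 1) + (j + 1))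
      :: (descFrom (o + 1 + t) (j + 1) ++ descFrom 1 (o + 1 + t)) ++ L)) := by
  have h1 := fun N => transferL (qq_ne_zero N) (qq_ne_one N) (xx N) j o t t₀ L hL
  simp only [h1]
  have h0 : EPos (fun N => chiL (qq N) (xx N) L) := by
    have := h 0
    simpa only [PhiP_zero] using this
  apply ep_mul (ep_qf _)
  apply ep_add
  · apply ep_add
    · apply ep_add
      · apply ep_add
        · apply ep_mul _ h0
          apply ep_mul _ (ep_es _)
          apply ep_mul _ (ep_es _)
          exact ep_mul ep_zero (ep_gs _)
        · apply ep_mul _ h0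
          apply ep_mul _ (ep_yy _ _)
          apply ep_mul _ (ep_gs _)
          apply ep_mul _ (ep_gs _)
          exact ep_pow ep_q _
      · apply ep_mul _ (h _)
        apply ep_mul _ (ep_es _)
        apply ep_mul _ (ep_gs _)
        apply ep_mul _ (ep_gs _)
        apply ep_mul _ (ep_gs _)
        exact ep_pow ep_q _
    · apply ep_mul _ (ep_jj (fun i N => PhiP (qq N) (xx N) i L) h _ t₀)
      exact ep_mul (ep_gs _) (ep_gs _)
  · apply ep_mul _ (ep_xx4 (fun i N => PhiP (qq N) (xx N) i L) h _ t₀)
    apply ep_mul _ (ep_gs _)
    apply ep_mul _ (ep_gs _)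
    exact ep_pow ep_q _

lemma linkChain_nil : linkChain [] = [0] := rfl

lemma linkChain_cons (B : Link) (β : List Link) :
    linkChain (B :: β) = B.degs ++ linkChain β := by
  simp [linkChain]

lemma linkChain_ne_nil (β : List Link) : linkChain β ≠ [] := by
  simp [linkChain]

/-- pointed positivity of chains of links -/
theorem epos_linkChain : ∀ (β : List Link) (k : ℕ),
    EPos (fun N => PhiP (qq N) (xx N) k (linkChain β))
  | [], k => by
      rw [linkChain_nil]
      exact epos_back k 0 0
  | B :: β, k => by
      rw [linkChain_cons]
      have ih := epos_linkChain β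
      have hne := linkChain_ne_nil β
      cases B with
      | full n => exact epos_transfer n _ hne ih k
      | gap s g r => exact epos_transferG s g r _ hne ih k
      | lap p o t =>
        cases p with
        | zero =>
          have h := epos_transferB o t _ hne ih k
          simpa [Link.degs, descFrom] using h
        | succ j => exact epos_transferL j o t _ hne ih k

theorem epos_links (β : List Link) :
    ∃ F : MvPolynomial ℕ ℕ[X], ∀ N, chromQSym N (linkChain β) = evE N F := by
  obtain ⟨F, hF⟩ := epos_linkChain β 0
  refine ⟨F, fun N => ?_⟩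
  have h := hF N
  simp only [PhiP_zero] at h
  rw [chromQSym_eq, h]

lemma bnd_descFrom_append (s p m : ℕ) (l : List ℕ) :
    bnd s (descFrom p (m + 1) ++ l) = m + p + 1 := rfl

lemma goodS_linkChain : ∀ β : List Link, GoodS 0 (linkChain β)
  | [] => by
      rw [linkChain_nil]
      exact ⟨by simp [bnd_nil], trivial⟩
  | B :: β => by
      rw [linkChain_cons]
      have ih := goodS_linkChain β
      obtain ⟨a, l', hl'⟩ := List.exists_cons_of_ne_nil (linkChain_ne_nil β)
      rw [hl'] at ih ⊢
      cases B with
      | full n =>
        exact goodS_descFrom_append 0 1 _ ih (by rw [bnd_cons]; omega) (n + 1)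
      | gap s g r =>
        have h1 := goodS_descFrom_append 0 1 _ ih (by rw [bnd_cons]; omega) (r + 1)
        have h2 := goodS_descFrom_append 0 (r + 1) _ h1
          (by rw [bnd_descFrom_append]; omega) (g + (s + 1))
        show GoodS 0 ((s + 1) :: (descFrom (r + 1) (g + (s + 1)) ++ descFrom 1 (r + 1))
          ++ a :: l')
        rw [List.cons_append, List.append_assoc]
        refine ⟨?_, h2⟩
        rw [show g + (s + 1) = (g + s) + 1 from rfl, bnd_descFrom_append]
        omega
      | lap p o t =>
        have h1 := goodS_descFrom_append 0 1 _ ih (by rw [bnd_cons]; omega) (o + 1 + t)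
        have e : o + 1 + t = (o + t) + 1 := by omega
        have h2 := goodS_descFrom_append 0 (o + 1 + t) _ h1
          (by rw [e, bnd_descFrom_append]; omega) p
        show GoodS 0 ((o + 1 + p) :: (descFrom (o + 1 + t) p ++ descFrom 1 (o + 1 + t))
          ++ a :: l')
        rw [List.cons_append, List.append_assoc]
        refine ⟨?_, h2⟩
        cases p with
        | zero =>
          simp only [descFrom, List.nil_append]
          rw [e, bnd_descFrom_append]
          omega
        | succ p' =>
          rw [bnd_descFrom_append]
          omega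

theorem isHess_linkChain (β : List Link) : IsHess (linkChain β) :=
  isHess_of_goodS _ (goodS_linkChain β)

end Vale.Agent.Lib.P066
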