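import Mathlib
import Vale.Agent.Lib.P066.Defs

namespace Vale.Agent.Lib.P066

/-- the vertex `c` separates the earlier vertices from the later ones in the graph with
forward-degree list `d`: no edge joins a vertex before `c` to a vertex after `c` -/
def Sep (d : List ℕ) (c : ℕ) : Prop := ∀ i, i < c → i + d.getD i 0 ≤ c

end Vale.Agent.Lib.P066
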