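import Mathlib
import Vale.Agent.Lib.P066.Defs3
import Vale.Agent.Lib.P066.Defs4
namespace Vale.Agent.Lib.P066

theorem char_descFrom_length (p m : ℕ) : (descFrom p m).length = m := by
  induction m with
  | zero => rfl
  | succ m ih => simp [descFrom, ih]

theorem char_descFrom_getD (p m i : ℕ) (hi : i < m) :
    (descFrom p m).getD i 0 = m - 1 - i + p := by
  induction m generalizing i with
  | zero => omega
  | succ m ih =>
    cases i with
    | zero => simp [descFrom]
    | succ i =>
      simp only [descFrom, List.getD_cons_succ]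
      rw [ih i (by omega)]
      omega

theorem char_ext (l₁ l₂ : List ℕ) (hlen : l₁.length = l₂.length)
    (h : ∀ i, i < l₁.length → l₁.getD i 0 = l₂.getD i 0) : l₁ = l₂ := by
  apply List.ext_getElem hlen
  intro i h1 h2
  have h3 := h i h1
  rw [List.getD_eq_getElem _ _ h1, List.getD_eq_getElem _ _ h2] at h3
  exact h3

theorem char_getD_drop (d : List ℕ) (w i : ℕ) : (d.drop w).getD i 0 = d.getD (w + i) 0 := by
  simp [List.getD_eq_getElem?_getD, List.getElem?_drop]

theorem char_getD_take (d : List ℕ) (w i : ℕ) (hi : i < w) :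
    (d.take w).getD i 0 = d.getD i 0 := by
  simp [List.getD_eq_getElem?_getD, hi]

theorem char_mono (d : List ℕ) (hH : IsHess d) (i j : ℕ) (hij : i ≤ j) (hj : j < d.length) :
    i + d.getD i 0 ≤ j + d.getD j 0 := by
  induction j with
  | zero =>
    have h0 : i = 0 := by omega
    subst h0
    exact le_refl _
  | succ j ih =>
    rcases Nat.lt_or_ge i (j + 1) with h | h
    · have h1 := ih (by omega) (by omega)
      have h2 := (hH j (by omega)).2
      omega
    · have h0 : i = j + 1 := by omega
      subst h0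
      exact le_refl _

theorem char_take (d : List ℕ) (s m r : ℕ) (hr : r ≤ m) (hlen : m + 1 ≤ d.length)
    (h0 : d.getD 0 0 = s)
    (h1 : ∀ a, 1 ≤ a → a + r ≤ m → a + d.getD a 0 = m)
    (h2 : ∀ a, 1 ≤ a → m < a + r → a ≤ m → a + d.getD a 0 = m + 1) :
    d.take (m + 1) = s :: (descFrom r (m - r) ++ descFrom 1 r) := by
  apply char_ext
  · simp only [List.length_take, List.length_cons, List.length_append, char_descFrom_length]
    omega
  · intro i hi
    have hi' : i < m + 1 := by
      simp only [List.length_take] at hi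
      omega
    rw [char_getD_take d (m + 1) i hi']
    cases i with
    | zero =>
      rw [List.getD_cons_zero]
      exact h0
    | succ i =>
      rw [List.getD_cons_succ]
      by_cases hc : i < m - r
      · rw [List.getD_append _ _ _ _ (by rw [char_descFrom_length]; exact hc),
          char_descFrom_getD _ _ _ hc]
        have h3 := h1 (i + 1) (by omega) (by omega)
        omega
      · rw [List.getD_append_right _ _ _ _ (by rw [char_descFrom_length]; omega),
          char_descFrom_length, char_descFrom_getD _ _ _ (by omega)]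
        have h3 := h2 (i + 1) (by omega) (by omega) (by omega)
        omega

theorem char_link (s m r : ℕ) (hs1 : 1 ≤ s) (hsm : s ≤ m + 1) (hr : r ≤ m)
    (hr1 : 1 ≤ m → 1 ≤ r) (hfull : s = m + 1 → r = m) :
    ∃ B : Link, B.degs = s :: (descFrom r (m - r) ++ descFrom 1 r) := by
  rcases Nat.lt_or_ge m s with h | h
  · have hs : s = m + 1 := by omega
    have hrm := hfull hs
    subst hrm
    subst hs
    refine ⟨Link.full r, ?_⟩
    simp [Link.degs, descFrom]
  · have hm1 : 1 ≤ m := by omega
    have hr1' := hr1 hm1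
    rcases Nat.lt_or_ge m (s + r) with h' | h'
    · obtain ⟨o, ho⟩ : ∃ o, s + r = m + 1 + o := ⟨s + r - m - 1, by omega⟩
      obtain ⟨p, hp⟩ : ∃ p, m = p + r := ⟨m - r, by omega⟩
      obtain ⟨t, ht⟩ : ∃ t, m = t + s := ⟨m - s, by omega⟩
      refine ⟨Link.lap p o t, ?_⟩
      have e1 : o + 1 + p = s := by omega
      have e2 : o + 1 + t = r := by omega
      have e3 : m - r = p := by omega
      simp only [Link.degs, e1, e2, e3]
    · obtain ⟨s', hs'⟩ : ∃ s', s = s' + 1 := ⟨s - 1, by omega⟩
      obtain ⟨r', hr'⟩ : ∃ r', r = r' + 1 := ⟨r - 1, by omega⟩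
      obtain ⟨g, hg⟩ : ∃ g, m = g + (s' + 1) + (r' + 1) := ⟨m - s - r, by omega⟩
      subst hs'
      subst hr'
      refine ⟨Link.gap s' g r', ?_⟩
      have e3 : m - (r' + 1) = g + (s' + 1) := by omega
      simp only [Link.degs, e3]

theorem char_step (d : List ℕ) (hH : IsHess d) (hn : 2 ≤ d.length)
    (hconn : ∀ i, i + 1 < d.length → 1 ≤ d.getD i 0)
    (hK : ∀ a b, a < b → b < d.length → a + d.getD a 0 < b → ∃ c, a ≤ c ∧ c ≤ b ∧ Sep d c) :
    ∃ (w : ℕ) (B : Link), 1 ≤ w ∧ w + 1 ≤ d.length ∧ Sep d w ∧ d.take w = B.degs := by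
  classical
  have hex : ∃ c, 1 ≤ c ∧ Sep d c := by
    refine ⟨d.length - 1, by omega, ?_⟩
    intro i hi
    have h1 := (hH i (by omega)).1
    omega
  obtain ⟨w, ⟨hw1, hwS⟩, hwmin⟩ :
      ∃ w, (1 ≤ w ∧ Sep d w) ∧ ∀ c, c < w → ¬ (1 ≤ c ∧ Sep d c) :=
    ⟨Nat.find hex, Nat.find_spec hex, fun c hc => Nat.find_min hex hc⟩
  have hwn : w + 1 ≤ d.length := by
    by_contra hcon
    have hlt : d.length - 1 < w := by omega
    apply hwmin _ hlt
    refine ⟨by omega, ?_⟩
    intro i hi
    have h1 := (hH i (by omega)).1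
    omega
  have F1 : ∀ a, a < w → a + d.getD a 0 ≤ w := fun a ha => hwS a ha
  have F2 : ∀ a, 1 ≤ a → a < w → w ≤ a + d.getD a 0 + 1 := by
    intro a ha1 haw
    by_contra hcon
    have hlt : a + d.getD a 0 < w - 1 := by omega
    obtain ⟨c, hac, hcb, hc⟩ := hK a (w - 1) (by omega) (by omega) hlt
    exact hwmin c (by omega) ⟨by omega, hc⟩
  have F3 : (w - 1) + d.getD (w - 1) 0 = w := by
    have h1 := hconn (w - 1) (by omega)
    have h2 := F1 (w - 1) (by omega)
    omega
  obtain ⟨m, rfl⟩ : ∃ m, w = m + 1 := ⟨w - 1, by omega⟩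
  simp only [Nat.add_sub_cancel] at F3
  have hs1 : 1 ≤ d.getD 0 0 := hconn 0 (by omega)
  have hsw : d.getD 0 0 ≤ m + 1 := by
    have h1 := F1 0 (by omega)
    omega
  rcases Nat.eq_zero_or_pos m with hm | hm
  · subst hm
    obtain ⟨B, hB⟩ := char_link (d.getD 0 0) 0 0 hs1 hsw (le_refl _) (by omega) (by omega)
    refine ⟨0 + 1, B, hw1, hwn, hwS, ?_⟩
    rw [hB]
    apply char_take d (d.getD 0 0) 0 0 (le_refl _) (by omega) rfl
    · intro a ha1 ha2
      omega
    · intro a ha1 ha2 ha3
      omega
  · have hex2 : ∃ a, 1 ≤ a ∧ a + d.getD a 0 = m + 1 := ⟨m, hm, F3⟩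
    obtain ⟨a0, ⟨ha01, ha0⟩, ha0min⟩ :
        ∃ a0, (1 ≤ a0 ∧ a0 + d.getD a0 0 = m + 1) ∧
          ∀ c, c < a0 → ¬ (1 ≤ c ∧ c + d.getD c 0 = m + 1) :=
      ⟨Nat.find hex2, Nat.find_spec hex2, fun c hc => Nat.find_min hex2 hc⟩
    have ha0m : a0 ≤ m := by
      by_contra hcon
      exact ha0min m (by omega) ⟨hm, F3⟩
    have hfull : d.getD 0 0 = m + 1 → m + 1 - a0 = m := by
      intro hs
      have hmono := char_mono d hH 0 1 (by omega) (by omega)
      have h1le := F1 1 (by omega)
      have hnot : ¬ (1 < a0) := by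
        intro hlt
        exact ha0min 1 hlt ⟨le_refl _, by omega⟩
      omega
    obtain ⟨B, hB⟩ := char_link (d.getD 0 0) m (m + 1 - a0) hs1 hsw (by omega)
      (by intro _; omega) hfull
    refine ⟨m + 1, B, hw1, hwn, hwS, ?_⟩
    rw [hB]
    apply char_take d (d.getD 0 0) m (m + 1 - a0) (by omega) (by omega) rfl
    · intro a ha1 ha2
      have halt : a < a0 := by omega
      have h1 := F1 a (by omega)
      have h2 := F2 a ha1 (by omega)
      have h3 : ¬ (a + d.getD a 0 = m + 1) := fun h => ha0min a halt ⟨ha1, h⟩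
      omega
    · intro a ha1 ha2 ha3
      have hge : a0 ≤ a := by omega
      have hmono := char_mono d hH a0 a hge (by omega)
      have h1 := F1 a (by omega)
      omega

theorem char_main (n : ℕ) : ∀ (d : List ℕ), d.length = n → d ≠ [] → IsHess d →
    (∀ i, i + 1 < d.length → 1 ≤ d.getD i 0) →
    (∀ a b, a < b → b < d.length → a + d.getD a 0 < b → ∃ c, a ≤ c ∧ c ≤ b ∧ Sep d c) →
    ∃ β : List Link, d = linkChain β := by
  induction n using Nat.strong_induction_on with
  | _ n ih =>
    intro d hlen hne hH hconn hK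
    have hpos : 1 ≤ d.length := by
      rcases d with _ | ⟨x, l⟩
      · exact absurd rfl hne
      · simp
    rcases Nat.lt_or_ge d.length 2 with h2 | h2
    · refine ⟨[], ?_⟩
      rcases d with _ | ⟨x, l⟩
      · exact absurd rfl hne
      · rcases l with _ | ⟨y, l⟩
        · have h1 := (hH 0 (by simp)).1
          simp at h1
          subst h1
          rfl
        · simp at h2
    · obtain ⟨w, B, hw1, hwn, hwS, htake⟩ := char_step d hH h2 hconn hK
      have hdl : (d.drop w).length = d.length - w := List.length_drop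
      have hrec : ∃ β' : List Link, d.drop w = linkChain β' := by
        apply ih (d.length - w) (by omega) (d.drop w) hdl
        · intro h
          rw [h] at hdl
          simp at hdl
          omega
        · intro i hi
          rw [hdl] at hi
          rw [char_getD_drop, char_getD_drop, hdl]
          have h3 := hH (w + i) (by omega)
          have h4 : w + (i + 1) = w + i + 1 := rfl
          rw [h4]
          constructor
          · omega
          · omega
        · intro i hi
          rw [hdl] at hi
          rw [char_getD_drop]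
          exact hconn (w + i) (by omega)
        · intro a b hab hb hlt
          rw [hdl] at hb
          rw [char_getD_drop] at hlt
          obtain ⟨c, hac, hcb, hc⟩ := hK (w + a) (w + b) (by omega) (by omega) (by omega)
          refine ⟨c - w, by omega, by omega, ?_⟩
          intro i hi
          rw [char_getD_drop]
          have h3 := hc (w + i) (by omega)
          omega
      obtain ⟨β', hβ'⟩ := hrec
      refine ⟨B :: β', ?_⟩
      calc d = d.take w ++ d.drop w := (List.take_append_drop w d).symm
        _ = B.degs ++ linkChain β' := by rw [htake, ← hβ']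
        _ = linkChain (B :: β') := by simp [linkChain]

theorem exists_linkChain (d : List ℕ) (hne : d ≠ []) (hH : IsHess d)
    (hconn : ∀ i, i + 1 < d.length → 1 ≤ d.getD i 0)
    (hK : ∀ a b, a < b → b < d.length → a + d.getD a 0 < b → ∃ c, a ≤ c ∧ c ≤ b ∧ Sep d c) :
    ∃ β : List Link, d = linkChain β :=
  char_main d.length d rfl hne hH hconn hK

end Vale.Agent.Lib.P066
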