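import Mathlib
import Vale.Agent.Lib.P066.Chain3
import Vale.Agent.Lib.P066.Char

namespace Vale.Agent.Lib.P066

open Finset Polynomial

section
variable {A : Type*} [CommRing A] {N : ℕ}

/-- the colouring sum of a graph none of whose edges leaves it does not depend on the tail -/
lemma csumT_tail_indep (q : A) (x : Fin N → A) :
    ∀ (d : List ℕ) (tl tl' : List (Fin N)) (F : List (Fin N) → A),
      (∀ i, i < d.length → i + d.getD i 0 < d.length) →
      csumT q x d tl F = csumT q x d tl' F
  | [], _, _, _, _ => rfl
  | a :: d, tl, tl', F, h => by
      simp only [csumT]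
      apply Finset.sum_congr rfl
      intro c _
      congr 1
      have ha : a ≤ d.length := by
        have h0 := h 0 (by simp)
        simp only [List.getD_cons_zero, List.length_cons] at h0
        omega
      have hd : ∀ i, i < d.length → i + d.getD i 0 < d.length := by
        intro i hi
        have h1 := h (i + 1) (by simp only [List.length_cons]; omega)
        simp only [List.getD_cons_succ, List.length_cons] at h1
        omega
      rw [csumT_tail_indep q x d tl tl' _ hd]
      apply csumT_congr
      intro κ hκ
      unfold wfac
      rw [List.take_append_of_le_length (by omega), List.take_append_of_le_length (by omega)]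

/-- multiplicativity over a disjoint union -/
lemma chiL_append_closed (q : A) (x : Fin N → A) (d₁ d₂ : List ℕ)
    (h : ∀ i, i < d₁.length → i + d₁.getD i 0 < d₁.length) :
    chiL q x (d₁ ++ d₂) = chiL q x d₁ * chiL q x d₂ := by
  unfold chiL
  rw [csumT_append]
  have h1 : ∀ κ2 : List (Fin N), csumT q x d₁ (κ2 ++ []) (fun _ => (1 : A))
      = csumT q x d₁ [] (fun _ => 1) * 1 := by
    intro κ2
    rw [mul_one]
    exact csumT_tail_indep q x d₁ _ _ _ h
  simp only [h1]
  rw [csumT_mul_left]

end

lemma isHess_mono (d : List ℕ) (hH : IsHess d) (i : ℕ) :
    ∀ j, i ≤ j → j < d.length → i + d.getD i 0 ≤ j + d.getD j 0 := by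
  intro j hij
  induction j, hij using Nat.le_induction with
  | base => intro _; exact le_rfl
  | succ j hij ih =>
    intro hj
    exact le_trans (ih (by omega)) (hH j (by omega)).2

lemma getD_take_lt (d : List ℕ) (k i : ℕ) (hi : i < k) : (d.take k).getD i 0 = d.getD i 0 := by
  simp [List.getD_eq_getElem?_getD, List.getElem?_take, hi]

lemma getD_take_ge (d : List ℕ) (k i : ℕ) (hi : k ≤ i) : (d.take k).getD i 0 = 0 := by
  simp [List.getD_eq_getElem?_getD, List.getElem?_take, Nat.not_lt.mpr hi]

lemma getD_drop' (d : List ℕ) (k i : ℕ) : (d.drop k).getD i 0 = d.getD (k + i) 0 := by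
  simp [List.getD_eq_getElem?_getD, List.getElem?_drop]

/-- the class of graphs: any two non-adjacent vertices are separated by a vertex over which
no edge jumps -/
def SepClass (d : List ℕ) : Prop :=
  ∀ a b, a < b → b < d.length → a + d.getD a 0 < b → ∃ c, a ≤ c ∧ c ≤ b ∧ Sep d c

theorem epos_sepClass : ∀ (n : ℕ) (d : List ℕ), d.length = n → IsHess d → SepClass d →
    EPos (fun N => chiL (qq N) (xx N) d) := by
  intro n
  induction n using Nat.strong_induction_on with
  | _ n ih =>
    intro d hn hH hK
    rcases Nat.eq_zero_or_pos n with h0 | hpos
    · have hd : d = [] := List.eq_nil_of_length_eq_zero (by omega)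
      subst hd
      exact ep_one
    · -- the first vertex without a later neighbour
      have hex : ∃ k, k < d.length ∧ d.getD k 0 = 0 := by
        refine ⟨n - 1, by omega, ?_⟩
        have := (hH (n - 1) (by omega)).1
        omega
      classical
      set k := Nat.find hex with hk
      have hkspec := Nat.find_spec hex
      have hkmin : ∀ i, i < k → 1 ≤ d.getD i 0 := by
        intro i hi
        have := Nat.find_min hex hi
        by_contra hcon
        apply this
        exact ⟨by omega, by omega⟩
      have hklt : k < d.length := hkspec.1
      have hk0 : d.getD k 0 = 0 := hkspec.2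
      have hle : ∀ i, i ≤ k → i + d.getD i 0 ≤ k := by
        intro i hi
        have := isHess_mono d hH i k hi hklt
        omega
      have hlen1 : (d.take (k + 1)).length = k + 1 := by
        rw [List.length_take]; omega
      have hlen2 : (d.drop (k + 1)).length = n - (k + 1) := by
        rw [List.length_drop, hn]
      -- the first component
      have hH1 : IsHess (d.take (k + 1)) := by
        intro i hi
        rw [hlen1] at hi
        rw [hlen1, getD_take_lt d (k + 1) i hi]
        refine ⟨by have := hle i (by omega); omega, ?_⟩
        rcases Nat.lt_or_ge (i + 1) (k + 1) with h1 | h1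
        · rw [getD_take_lt d (k + 1) (i + 1) h1]
          exact (hH i (by omega)).2
        · rw [getD_take_ge d (k + 1) (i + 1) h1]
          have := hle i (by omega)
          omega
      have hc1 : ∀ i, i + 1 < (d.take (k + 1)).length → 1 ≤ (d.take (k + 1)).getD i 0 := by
        intro i hi
        rw [hlen1] at hi
        rw [getD_take_lt d (k + 1) i (by omega)]
        exact hkmin i (by omega)
      have hK1 : ∀ a b, a < b → b < (d.take (k + 1)).length →
          a + (d.take (k + 1)).getD a 0 < b → ∃ c, a ≤ c ∧ c ≤ b ∧ Sep (d.take (k + 1)) c := by
        intro a b hab hb hnon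
        rw [hlen1] at hb
        rw [getD_take_lt d (k + 1) a (by omega)] at hnon
        obtain ⟨c, hac, hcb, hc⟩ := hK a b hab (by omega) hnon
        refine ⟨c, hac, hcb, ?_⟩
        intro i hi
        rw [getD_take_lt d (k + 1) i (by omega)]
        exact hc i hi
      obtain ⟨β, hβ⟩ := exists_linkChain (d.take (k + 1))
        (by intro h; rw [h] at hlen1; simp at hlen1) hH1 hc1 hK1
      have hE1 : EPos (fun N => chiL (qq N) (xx N) (d.take (k + 1))) := by
        rw [hβ]
        have := epos_linkChain β 0
        simpa only [PhiP_zero] using this
      -- the remaining components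
      have hH2 : IsHess (d.drop (k + 1)) := by
        intro i hi
        rw [hlen2] at hi
        rw [hlen2, getD_drop', getD_drop']
        have h1 := hH (k + 1 + i) (by omega)
        refine ⟨by omega, ?_⟩
        have e : k + 1 + (i + 1) = k + 1 + i + 1 := by omega
        rw [e]
        omega
      have hK2 : SepClass (d.drop (k + 1)) := by
        intro a b hab hb hnon
        rw [hlen2] at hb
        rw [getD_drop'] at hnon
        obtain ⟨c, hac, hcb, hc⟩ := hK (k + 1 + a) (k + 1 + b) (by omega) (by omega) (by omega)
        refine ⟨c - (k + 1), by omega, by omega, ?_⟩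
        intro i hi
        rw [getD_drop']
        have := hc (k + 1 + i) (by omega)
        omega
      have hE2 : EPos (fun N => chiL (qq N) (xx N) (d.drop (k + 1))) :=
        ih (n - (k + 1)) (by omega) (d.drop (k + 1)) hlen2 hH2 hK2
      have hclosed : ∀ i, i < (d.take (k + 1)).length →
          i + (d.take (k + 1)).getD i 0 < (d.take (k + 1)).length := by
        intro i hi
        exact (hH1 i hi).1
      have hprod : ∀ N, chiL (qq N) (xx N) d
          = chiL (qq N) (xx N) (d.take (k + 1)) * chiL (qq N) (xx N) (d.drop (k + 1)) := by
        intro N
        rw [← chiL_append_closed (qq N) (xx N) _ _ hclosed, List.take_append_drop]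
      simp only [hprod]
      exact ep_mul hE1 hE2

/-- e-positivity for all natural unit interval graphs in which any two non-adjacent vertices
are separated by a vertex over which no edge jumps -/
theorem epos_sep (d : List ℕ) (hH : IsHess d) (hK : SepClass d) :
    ∃ F : MvPolynomial ℕ ℕ[X], ∀ N, chromQSym N d = evE N F := by
  obtain ⟨F, hF⟩ := epos_sepClass d.length d rfl hH hK
  exact ⟨F, fun N => by rw [chromQSym_eq, ← hF]⟩

end Vale.Agent.Lib.P066
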