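import Mathlib
import Vale.Agent.Lib.P066.Carrier

namespace Vale.Agent.Lib.P066

open Finset

variable {A : Type*} [CommRing A] {N : ℕ}

/-- `D_j` of a colour `c`: the `j`-th elementary symmetric polynomial of the variables
weighted by their edge weight towards `c` -/
noncomputable def Dd (q : A) (x : Fin N → A) (j : ℕ) (c : Fin N) : A :=
  es (fun s => x s * ew q s c) j

/-- elementary symmetric polynomial of the variables weighted towards two colours -/
noncomputable def Sfun (q : A) (x : Fin N → A) (n : ℕ) (a b : Fin N) : A :=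
  es (fun s => x s * ew q s a * ew q s b) n

/-- a vertex `c` weighted by `f c` and adjacent to both `a` and `b`, with `m` further
vertices -/
noncomputable def Xi (q : A) (x : Fin N → A) (m : ℕ) (f : Fin N → A) (a b : Fin N) : A :=
  ∑ c, x c * f c * ew q c a * ew q c b
    * es (fun s => x s * ew q c s * ew q s a * ew q s b) m

/-- a vertex `c` weighted by `f c` and adjacent to `a` only, with `m` further vertices -/
noncomputable def Th (q : A) (x : Fin N → A) (m : ℕ) (f : Fin N → A) (a b : Fin N) : A :=
  ∑ c, x c * f c * ew q c a * es (fun s => x s * ew q c s * ew q s a * ew q s b) m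

/-- a vertex `c` weighted by `f c` and adjacent to neither `a` nor `b` -/
noncomputable def Ups (q : A) (x : Fin N → A) (n : ℕ) (f : Fin N → A) (a b : Fin N) : A :=
  ∑ c, x c * f c * es (fun s => x s * ew q c s * ew q s a * ew q s b) n

/-- one-colour kernel with an edge -/
noncomputable def kap (q : A) (x : Fin N → A) (n : ℕ) (f : Fin N → A) (a : Fin N) : A :=
  ∑ c, x c * f c * ew q c a * es (fun s => x s * ew q c s * ew q s a) n

/-- one-colour kernel without an edge -/
noncomputable def lam (q : A) (x : Fin N → A) (m : ℕ) (f : Fin N → A) (b : Fin N) : A :=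
  ∑ c, x c * f c * es (fun s => x s * ew q c s * ew q s b) (m + 1)

/-- a new first vertex adjacent to the next two vertices -/
def Om (q : A) (x : Fin N → A) (G : Fin N → Fin N → A) (a b : Fin N) : A :=
  ∑ c, x c * ew q c a * ew q c b * G c a

/-- a new first vertex adjacent to the next vertex only -/
def cl2 (q : A) (x : Fin N → A) (G : Fin N → Fin N → A) (b : Fin N) : A :=
  ∑ a, x a * ew q a b * G a b

lemma Dd_zero (q : A) (x : Fin N → A) (c : Fin N) : Dd q x 0 c = 1 := es_zero _

lemma om_D (q : A) (x : Fin N → A) (s : ℕ) (a b : Fin N) :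
    Om q x (fun c _ => Dd q x s c) a b = Xi q x 0 (Dd q x s) a b := by
  unfold Om Xi
  apply Finset.sum_congr rfl
  intro c _
  rw [es_zero]; ring

lemma xi_zero_one [IsDomain A] {q : A} (hq1 : q ≠ 1) (x : Fin N → A) (a b : Fin N) :
    Xi q x 0 (fun _ => 1) a b = Sfun q x 1 a b := by
  unfold Xi Sfun
  rw [es_one hq1]
  apply Finset.sum_congr rfl
  intro c _
  rw [es_zero]; ring

lemma om_S [IsDomain A] {q : A} (hq1 : q ≠ 1) (x : Fin N → A) (n : ℕ) (a b : Fin N) :
    Om q x (Sfun q x n) a b = Sfun q x (n + 1) a b + q * gs q n * Dd q x (n + 1) a := by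
  unfold Om Sfun Dd
  have h := kerOne hq1 (fun s => x s * ew q s a) b n
  rw [← h]
  apply Finset.sum_congr rfl
  intro c _
  have e : (fun s => x s * ew q s c * ew q s a) = (fun s => x s * ew q s a * ew q s c) := by
    funext s; ring
  rw [e]

lemma om_Xi [IsDomain A] {q : A} (hq1 : q ≠ 1) (x : Fin N → A) (m : ℕ) (f : Fin N → A)
    (a b : Fin N) :
    Om q x (Xi q x m f) a b = Th q x (m + 1) f a b + q * gs q m * kap q x (m + 1) f a := by
  unfold Om Xi Th kap
  simp only [Finset.mul_sum]
  rw [Finset.sum_comm, ← Finset.sum_add_distrib]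
  apply Finset.sum_congr rfl
  intro c₀ _
  have h := kerOne hq1 (fun s => x s * ew q c₀ s * ew q s a) b m
  have e : ∀ c, (fun s => x s * ew q c₀ s * ew q s c * ew q s a)
      = (fun s => x s * ew q c₀ s * ew q s a * ew q s c) := by
    intro c; funext s; ring
  calc ∑ c, x c * ew q c a * ew q c b
          * (x c₀ * f c₀ * ew q c₀ c * ew q c₀ a
            * es (fun s => x s * ew q c₀ s * ew q s c * ew q s a) m)
      = x c₀ * f c₀ * ew q c₀ a * ∑ c, x c * ew q c₀ c * ew q c a * ew q c b
          * es (fun s => x s * ew q c₀ s * ew q s a * ew q s c) m := by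
        rw [Finset.mul_sum]
        apply Finset.sum_congr rfl
        intro c _
        rw [e c]; ring
    _ = _ := by rw [h]; ring

lemma om_Th [IsDomain A] {q : A} (hq1 : q ≠ 1) (x : Fin N → A) (m : ℕ) (f : Fin N → A)
    (a b : Fin N) :
    Om q x (Th q x m f) a b = Ups q x (m + 1) f a b + q * gs q m * lam q x m f a := by
  unfold Om Th Ups lam
  simp only [Finset.mul_sum]
  rw [Finset.sum_comm, ← Finset.sum_add_distrib]
  apply Finset.sum_congr rfl
  intro c₀ _
  have h := kerOne hq1 (fun s => x s * ew q c₀ s * ew q s a) b m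
  have e : ∀ c, (fun s => x s * ew q c₀ s * ew q s c * ew q s a)
      = (fun s => x s * ew q c₀ s * ew q s a * ew q s c) := by
    intro c; funext s; ring
  calc ∑ c, x c * ew q c a * ew q c b
          * (x c₀ * f c₀ * ew q c₀ c
            * es (fun s => x s * ew q c₀ s * ew q s c * ew q s a) m)
      = x c₀ * f c₀ * ∑ c, x c * ew q c₀ c * ew q c a * ew q c b
          * es (fun s => x s * ew q c₀ s * ew q s a * ew q s c) m := by
        rw [Finset.mul_sum]
        apply Finset.sum_congr rfl
        intro c _
        rw [e c]; ring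
    _ = _ := by rw [h]; ring

lemma ups_D [IsDomain A] {q : A} (hq1 : q ≠ 1) (x : Fin N → A) (m j : ℕ) (hmj : m ≤ j)
    (a b : Fin N) :
    Ups q x (m + 1) (Dd q x j) a b
      = Xi q x m (Dd q x (j + 1)) a b
        + q ^ (m + 1) * gs q (j - m) * es x (j + 1) * Sfun q x (m + 1) a b := by
  unfold Ups Xi Sfun Dd
  have h := twoAlphabet' hq1 x (fun s => x s * ew q s a * ew q s b) j m hmj
  have e : ∀ c, (fun s => x s * ew q c s * ew q s a * ew q s b)
      = (fun s => x s * ew q s a * ew q s b * ew q c s) := by
    intro c; funext s; ring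
  simp only [e]
  rw [h]
  congr 1
  apply Finset.sum_congr rfl
  intro c _
  ring

lemma kap_D [IsDomain A] {q : A} (hq1 : q ≠ 1) (x : Fin N → A) (n j : ℕ) (a : Fin N) :
    kap q x n (Dd q x j) a
      = ∑ i ∈ range (min n j + 1),
          (q ^ i * gs q (n + 1 - i) * es x i * Dd q x (n + j + 1 - i) a
            + q ^ (n + 1) * gs q (j - i) * es x (n + j + 1 - i) * Dd q x i a) := by
  unfold kap Dd
  rw [← kernelId hq1 x a n j]
  apply Finset.sum_congr rfl
  intro c _
  have e : (fun s => x s * ew q c s * ew q s a) = (fun s => x s * ew q s a * ew q c s) := by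
    funext s; ring
  rw [e]; ring

lemma lam_D [IsDomain A] {q : A} (hq1 : q ≠ 1) (x : Fin N → A) (m j : ℕ) (hmj : m ≤ j)
    (b : Fin N) :
    lam q x m (Dd q x j) b
      = kap q x m (Dd q x (j + 1)) b
        + q ^ (m + 1) * gs q (j - m) * es x (j + 1) * Dd q x (m + 1) b := by
  unfold lam kap Dd
  have h := twoAlphabet' hq1 x (fun s => x s * ew q s b) j m hmj
  have e : ∀ c, (fun s => x s * ew q c s * ew q s b) = (fun s => x s * ew q s b * ew q c s) := by
    intro c; funext s; ring
  simp only [e]
  rw [h]
  congr 1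
  apply Finset.sum_congr rfl
  intro c _
  ring

lemma cl2_S [IsDomain A] {q : A} (hq1 : q ≠ 1) (x : Fin N → A) (n : ℕ) (b : Fin N) :
    cl2 q x (Sfun q x n) b = gs q (n + 1) * Dd q x (n + 1) b := by
  unfold cl2 Sfun Dd
  rw [← symI hq1 (fun s => x s * ew q s b) n]
  apply Finset.sum_congr rfl
  intro a _
  have e : (fun s => x s * ew q s a * ew q s b) = (fun s => x s * ew q s b * ew q s a) := by
    funext s; ring
  rw [e]

lemma cl2_D [IsDomain A] {q : A} (hq1 : q ≠ 1) (x : Fin N → A) (j : ℕ) (b : Fin N) :
    cl2 q x (fun c _ => Dd q x j c) b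
      = Dd q x (j + 1) b + q * gs q j * es x (j + 1) * Dd q x 0 b := by
  rw [Dd_zero, mul_one]
  unfold cl2 Dd
  exact kerOne hq1 x b j

lemma cl2_Xi [IsDomain A] {q : A} (hq1 : q ≠ 1) (x : Fin N → A) (m : ℕ) (f : Fin N → A)
    (b : Fin N) :
    cl2 q x (Xi q x m f) b = gs q (m + 1) * kap q x (m + 1) f b := by
  unfold cl2 Xi kap
  simp only [Finset.mul_sum]
  rw [Finset.sum_comm]
  apply Finset.sum_congr rfl
  intro c _
  have h := symI hq1 (fun s => x s * ew q c s * ew q s b) m
  have e : ∀ a, (fun s => x s * ew q c s * ew q s a * ew q s b)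
      = (fun s => x s * ew q c s * ew q s b * ew q s a) := by
    intro a; funext s; ring
  calc ∑ a, x a * ew q a b * (x c * f c * ew q c a * ew q c b
          * es (fun s => x s * ew q c s * ew q s a * ew q s b) m)
      = x c * f c * ew q c b * ∑ a, x a * ew q c a * ew q a b
          * es (fun s => x s * ew q c s * ew q s b * ew q s a) m := by
        rw [Finset.mul_sum]
        apply Finset.sum_congr rfl
        intro a _
        rw [e a]; ring
    _ = _ := by rw [h]; ring

lemma cl2_Th [IsDomain A] {q : A} (hq1 : q ≠ 1) (x : Fin N → A) (m : ℕ) (f : Fin N → A)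
    (b : Fin N) :
    cl2 q x (Th q x m f) b = gs q (m + 1) * lam q x m f b := by
  unfold cl2 Th lam
  simp only [Finset.mul_sum]
  rw [Finset.sum_comm]
  apply Finset.sum_congr rfl
  intro c _
  have h := symI hq1 (fun s => x s * ew q c s * ew q s b) m
  have e : ∀ a, (fun s => x s * ew q c s * ew q s a * ew q s b)
      = (fun s => x s * ew q c s * ew q s b * ew q s a) := by
    intro a; funext s; ring
  calc ∑ a, x a * ew q a b * (x c * f c * ew q c a
          * es (fun s => x s * ew q c s * ew q s a * ew q s b) m)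
      = x c * f c * ∑ a, x a * ew q c a * ew q a b
          * es (fun s => x s * ew q c s * ew q s b * ew q s a) m := by
        rw [Finset.mul_sum]
        apply Finset.sum_congr rfl
        intro a _
        rw [e a]; ring
    _ = _ := by rw [h]; ring

end Vale.Agent.Lib.P066
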