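import Mathlib
import Vale.Agent.Lib.P066.TwoRoot
import Vale.Agent.Lib.P066.Final

namespace Vale.Agent.Lib.P066

open Finset Polynomial

section general

variable {A : Type*} [CommRing A] {N : ℕ}

/-- a function of the first colour of a colouring -/
def hd1 (f : Fin N → A) : List (Fin N) → A
  | a :: _ => f a
  | [] => 0

/-- a function of the first two colours of a colouring -/
def hd2 (G : Fin N → Fin N → A) : List (Fin N) → A
  | a :: b :: _ => G a b
  | _ => 0

lemma hd1_add (f g : Fin N → A) (κ : List (Fin N)) :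
    hd1 (fun a => f a + g a) κ = hd1 f κ + hd1 g κ := by
  cases κ <;> simp [hd1]

lemma hd1_smul (r : A) (f : Fin N → A) (κ : List (Fin N)) :
    hd1 (fun a => r * f a) κ = r * hd1 f κ := by
  cases κ <;> simp [hd1]

lemma hd1_sum {ι : Type*} (s : Finset ι) (f : ι → Fin N → A) (κ : List (Fin N)) :
    hd1 (fun a => ∑ i ∈ s, f i a) κ = ∑ i ∈ s, hd1 (f i) κ := by
  cases κ <;> simp [hd1]

lemma hd2_add (F G : Fin N → Fin N → A) (κ : List (Fin N)) :
    hd2 (fun a b => F a b + G a b) κ = hd2 F κ + hd2 G κ := by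
  match κ with
  | [] => simp [hd2]
  | [_] => simp [hd2]
  | _ :: _ :: _ => simp [hd2]

lemma hd2_smul (r : A) (G : Fin N → Fin N → A) (κ : List (Fin N)) :
    hd2 (fun a b => r * G a b) κ = r * hd2 G κ := by
  match κ with
  | [] => simp [hd2]
  | [_] => simp [hd2]
  | _ :: _ :: _ => simp [hd2]

lemma exists_cons2_of_length (L : List ℕ) (hL : 2 ≤ L.length) (κ : List (Fin N))
    (hκ : κ.length = L.length) : ∃ a b rest, κ = a :: b :: rest := by
  match κ, hκ with
  | [], h => simp at h; omega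
  | [_], h => simp at h; omega
  | a :: b :: rest, _ => exact ⟨a, b, rest, rfl⟩

/-- prepending a vertex adjacent to the next two vertices -/
lemma csumT_two (q : A) (x : Fin N → A) (L : List ℕ) (hL : 2 ≤ L.length)
    (G : Fin N → Fin N → A) :
    csumT q x (2 :: L) [] (hd2 G) = csumT q x L [] (hd2 (Om q x G)) := by
  simp only [csumT]
  have h1 : ∀ c, x c * csumT q x L [] (fun κ => wfac q c 2 (κ ++ []) * hd2 G (c :: κ))
      = csumT q x L [] (fun κ => x c * (wfac q c 2 (κ ++ []) * hd2 G (c :: κ))) := by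
    intro c; rw [csumT_mul_left]
  simp only [h1]
  rw [← csumT_sum]
  apply csumT_congr
  intro κ hκ
  obtain ⟨a, b, rest, rfl⟩ := exists_cons2_of_length L hL κ hκ
  simp only [hd2, Om, wfac, List.append_nil, List.take_succ_cons, List.take_zero, List.map_cons,
    List.map_nil, List.prod_cons, List.prod_nil, mul_one]
  apply Finset.sum_congr rfl
  intro c _
  ring

/-- prepending a vertex adjacent to the next vertex only -/
lemma csumT_one (q : A) (x : Fin N → A) (L : List ℕ) (hL : L ≠ [])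
    (G : Fin N → Fin N → A) :
    csumT q x (1 :: L) [] (hd2 G) = csumT q x L [] (hd1 (cl2 q x G)) := by
  simp only [csumT]
  have h1 : ∀ c, x c * csumT q x L [] (fun κ => wfac q c 1 (κ ++ []) * hd2 G (c :: κ))
      = csumT q x L [] (fun κ => x c * (wfac q c 1 (κ ++ []) * hd2 G (c :: κ))) := by
    intro c; rw [csumT_mul_left]
  simp only [h1]
  rw [← csumT_sum]
  apply csumT_congr
  intro κ hκ
  obtain ⟨a, rest, rfl⟩ := exists_cons_of_length L hL κ hκ
  simp only [hd1, hd2, cl2, List.append_nil, wfac_one_cons]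
  apply Finset.sum_congr rfl
  intro c _
  ring

lemma PhiP_eq_hd1 (q : A) (x : Fin N → A) (L : List ℕ) (hL : L ≠ []) (s : ℕ) :
    PhiP q x s L = csumT q x L [] (hd1 (Dd q x s)) := by
  unfold PhiP
  apply csumT_congr
  intro κ hκ
  obtain ⟨c', rest, rfl⟩ := exists_cons_of_length L hL κ hκ
  simp only [hd1, Dd, wfac_one_cons]

lemma csumT_hd2_fst (q : A) (x : Fin N → A) (L : List ℕ) (hL : 2 ≤ L.length) (f : Fin N → A) :
    csumT q x L [] (hd2 (fun a _ => f a)) = csumT q x L [] (hd1 f) := by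
  apply csumT_congr
  intro κ hκ
  obtain ⟨a, b, rest, rfl⟩ := exists_cons2_of_length L hL κ hκ
  rfl

/-- an isolated first vertex -/
lemma PhiP_cons_zero [IsDomain A] {q : A} (hq1 : q ≠ 1) (x : Fin N → A) (L : List ℕ) (s : ℕ) :
    PhiP q x s (0 :: L) = gs q (s + 1) * es x (s + 1) * chiL q x L := by
  unfold PhiP chiL
  simp only [csumT]
  rw [← symI hq1 x s, Finset.sum_mul]
  apply Finset.sum_congr rfl
  intro c _
  have h2 : csumT q x L [] (fun κ => wfac q c 0 (κ ++ [])
        * es (fun t => x t * wfac q t 1 (c :: κ)) s)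
      = es (fun t => x t * ew q t c) s * csumT q x L [] (fun _ => 1) := by
    rw [← csumT_mul_left]
    apply csumT_congr
    intro κ _
    simp only [wfac_zero, wfac_one_cons]
    ring
  rw [h2]; ring

end general

section poly

/-- positivity of the colouring sum of `L` weighted by a function of the first colour -/
def Gd1 (L : List ℕ) (f : ∀ N : ℕ, Fin N → MvPolynomial (Fin N) ℤ[X]) : Prop :=
  EPos (fun N => csumT (qq N) (xx N) L [] (hd1 (f N)))

/-- positivity of the colouring sum of `L` weighted by a function of the first two colours -/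
def Gd2 (L : List ℕ) (G : ∀ N : ℕ, Fin N → Fin N → MvPolynomial (Fin N) ℤ[X]) : Prop :=
  EPos (fun N => csumT (qq N) (xx N) L [] (hd2 (G N)))

lemma gd1_add {L : List ℕ} {f g : ∀ N : ℕ, Fin N → MvPolynomial (Fin N) ℤ[X]}
    (hf : Gd1 L f) (hg : Gd1 L g) : Gd1 L (fun N a => f N a + g N a) := by
  unfold Gd1 at *
  have h : ∀ N, csumT (qq N) (xx N) L [] (hd1 (fun a => f N a + g N a))
      = csumT (qq N) (xx N) L [] (hd1 (f N)) + csumT (qq N) (xx N) L [] (hd1 (g N)) := by
    intro N
    rw [← csumT_add]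
    apply csumT_congr
    intro κ _
    exact hd1_add _ _ κ
  simp only [h]
  exact ep_add hf hg

lemma gd1_smul {L : List ℕ} {r : ∀ N : ℕ, MvPolynomial (Fin N) ℤ[X]}
    {f : ∀ N : ℕ, Fin N → MvPolynomial (Fin N) ℤ[X]}
    (hr : EPos r) (hf : Gd1 L f) : Gd1 L (fun N a => r N * f N a) := by
  unfold Gd1 at *
  have h : ∀ N, csumT (qq N) (xx N) L [] (hd1 (fun a => r N * f N a))
      = r N * csumT (qq N) (xx N) L [] (hd1 (f N)) := by
    intro N
    rw [← csumT_mul_left]
    apply csumT_congr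
    intro κ _
    exact hd1_smul _ _ κ
  simp only [h]
  exact ep_mul hr hf

lemma gd1_sum {L : List ℕ} {ι : Type} (s : Finset ι)
    (f : ι → ∀ N : ℕ, Fin N → MvPolynomial (Fin N) ℤ[X])
    (hf : ∀ i ∈ s, Gd1 L (f i)) : Gd1 L (fun N a => ∑ i ∈ s, f i N a) := by
  unfold Gd1 at *
  have h : ∀ N, csumT (qq N) (xx N) L [] (hd1 (fun a => ∑ i ∈ s, f i N a))
      = ∑ i ∈ s, csumT (qq N) (xx N) L [] (hd1 (f i N)) := by
    intro N
    rw [← csumT_sum]
    apply csumT_congr
    intro κ _
    exact hd1_sum _ _ κ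
  simp only [h]
  exact ep_sum s _ hf

lemma gd2_add {L : List ℕ} {F G : ∀ N : ℕ, Fin N → Fin N → MvPolynomial (Fin N) ℤ[X]}
    (hF : Gd2 L F) (hG : Gd2 L G) : Gd2 L (fun N a b => F N a b + G N a b) := by
  unfold Gd2 at *
  have h : ∀ N, csumT (qq N) (xx N) L [] (hd2 (fun a b => F N a b + G N a b))
      = csumT (qq N) (xx N) L [] (hd2 (F N)) + csumT (qq N) (xx N) L [] (hd2 (G N)) := by
    intro N
    rw [← csumT_add]
    apply csumT_congr
    intro κ _
    exact hd2_add _ _ κ
  simp only [h]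
  exact ep_add hF hG

lemma gd2_smul {L : List ℕ} {r : ∀ N : ℕ, MvPolynomial (Fin N) ℤ[X]}
    {G : ∀ N : ℕ, Fin N → Fin N → MvPolynomial (Fin N) ℤ[X]}
    (hr : EPos r) (hG : Gd2 L G) : Gd2 L (fun N a b => r N * G N a b) := by
  unfold Gd2 at *
  have h : ∀ N, csumT (qq N) (xx N) L [] (hd2 (fun a b => r N * G N a b))
      = r N * csumT (qq N) (xx N) L [] (hd2 (G N)) := by
    intro N
    rw [← csumT_mul_left]
    apply csumT_congr
    intro κ _
    exact hd2_smul _ _ κ
  simp only [h]
  exact ep_mul hr hG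

lemma gd2_fst {L : List ℕ} (hL : 2 ≤ L.length)
    {f : ∀ N : ℕ, Fin N → MvPolynomial (Fin N) ℤ[X]} (hf : Gd1 L f) :
    Gd2 L (fun N a _ => f N a) := by
  unfold Gd1 Gd2 at *
  have h : ∀ N, csumT (qq N) (xx N) L [] (hd2 (fun a _ => f N a))
      = csumT (qq N) (xx N) L [] (hd1 (f N)) := fun N => csumT_hd2_fst _ _ L hL _
  simp only [h]
  exact hf

lemma gd2_two {L : List ℕ} (hL : 2 ≤ L.length)
    {G : ∀ N : ℕ, Fin N → Fin N → MvPolynomial (Fin N) ℤ[X]}
    (h : Gd2 L (fun N => Om (qq N) (xx N) (G N))) : Gd2 (2 :: L) G := by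
  unfold Gd2 at *
  have e : ∀ N, csumT (qq N) (xx N) (2 :: L) [] (hd2 (G N))
      = csumT (qq N) (xx N) L [] (hd2 (Om (qq N) (xx N) (G N))) :=
    fun N => csumT_two _ _ L hL _
  simp only [e]
  exact h

lemma gd2_one {L : List ℕ} (hL : L ≠ [])
    {G : ∀ N : ℕ, Fin N → Fin N → MvPolynomial (Fin N) ℤ[X]}
    (h : Gd1 L (fun N => cl2 (qq N) (xx N) (G N))) : Gd2 (1 :: L) G := by
  unfold Gd1 Gd2 at *
  have e : ∀ N, csumT (qq N) (xx N) (1 :: L) [] (hd2 (G N))
      = csumT (qq N) (xx N) L [] (hd1 (cl2 (qq N) (xx N) (G N))) :=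
    fun N => csumT_one _ _ L hL _
  simp only [e]
  exact h

/-- pointed positivity: all the colouring sums weighted by `D_s` of the first colour -/
def H1 (L : List ℕ) : Prop := ∀ s, EPos (fun N => PhiP (qq N) (xx N) s L)

/-- positivity of the colouring sums weighted by the two-colour generators -/
def H2 (L : List ℕ) : Prop :=
  (∀ n, Gd2 L (fun N => Sfun (qq N) (xx N) n)) ∧
  (∀ m j, m + 1 ≤ j → Gd2 L (fun N => Xi (qq N) (xx N) m (Dd (qq N) (xx N) j))) ∧
  (∀ m j, m ≤ j → Gd2 L (fun N => Th (qq N) (xx N) m (Dd (qq N) (xx N) j)))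

lemma gd1_D {L : List ℕ} (hL : L ≠ []) (h : H1 L) (s : ℕ) :
    Gd1 L (fun N => Dd (qq N) (xx N) s) := by
  unfold Gd1
  have e : ∀ N, csumT (qq N) (xx N) L [] (hd1 (Dd (qq N) (xx N) s))
      = PhiP (qq N) (xx N) s L := fun N => (PhiP_eq_hd1 (qq N) (xx N) L hL s).symm
  simp only [e]
  exact h s

lemma gd1_kap {L : List ℕ} (hL : L ≠ []) (h : H1 L) (n j : ℕ) :
    Gd1 L (fun N => kap (qq N) (xx N) n (Dd (qq N) (xx N) j)) := by
  have e : (fun N => kap (qq N) (xx N) n (Dd (qq N) (xx N) j))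
      = (fun N a => ∑ i ∈ range (min n j + 1),
          (qq N ^ i * gs (qq N) (n + 1 - i) * es (xx N) i * Dd (qq N) (xx N) (n + j + 1 - i) a
            + qq N ^ (n + 1) * gs (qq N) (j - i) * es (xx N) (n + j + 1 - i)
              * Dd (qq N) (xx N) i a)) := by
    funext N a; exact kap_D (qq_ne_one N) (xx N) n j a
  rw [e]
  apply gd1_sum
  intro i _
  apply gd1_add
  · exact gd1_smul (ep_mul (ep_mul (ep_pow ep_q i) (ep_gs _)) (ep_es _)) (gd1_D hL h _)
  · exact gd1_smul (ep_mul (ep_mul (ep_pow ep_q (n + 1)) (ep_gs _)) (ep_es _)) (gd1_D hL h _)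

lemma gd1_lam {L : List ℕ} (hL : L ≠ []) (h : H1 L) (m j : ℕ) (hmj : m ≤ j) :
    Gd1 L (fun N => lam (qq N) (xx N) m (Dd (qq N) (xx N) j)) := by
  have e : (fun N => lam (qq N) (xx N) m (Dd (qq N) (xx N) j))
      = (fun N b => kap (qq N) (xx N) m (Dd (qq N) (xx N) (j + 1)) b
          + qq N ^ (m + 1) * gs (qq N) (j - m) * es (xx N) (j + 1)
            * Dd (qq N) (xx N) (m + 1) b) := by
    funext N b; exact lam_D (qq_ne_one N) (xx N) m j hmj b
  rw [e]
  apply gd1_add (gd1_kap hL h m (j + 1))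
  exact gd1_smul (ep_mul (ep_mul (ep_pow ep_q (m + 1)) (ep_gs _)) (ep_es _)) (gd1_D hL h _)

theorem step_one_H2 {L : List ℕ} (hL : L ≠ []) (h : H1 L) : H2 (1 :: L) := by
  refine ⟨?_, ?_, ?_⟩
  · intro n
    apply gd2_one hL
    have e : (fun N => cl2 (qq N) (xx N) (Sfun (qq N) (xx N) n))
        = (fun N b => gs (qq N) (n + 1) * Dd (qq N) (xx N) (n + 1) b) := by
      funext N b; exact cl2_S (qq_ne_one N) (xx N) n b
    rw [e]
    exact gd1_smul (ep_gs _) (gd1_D hL h _)
  · intro m j _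
    apply gd2_one hL
    have e : (fun N => cl2 (qq N) (xx N) (Xi (qq N) (xx N) m (Dd (qq N) (xx N) j)))
        = (fun N b => gs (qq N) (m + 1) * kap (qq N) (xx N) (m + 1) (Dd (qq N) (xx N) j) b) := by
      funext N b; exact cl2_Xi (qq_ne_one N) (xx N) m _ b
    rw [e]
    exact gd1_smul (ep_gs _) (gd1_kap hL h _ _)
  · intro m j hmj
    apply gd2_one hL
    have e : (fun N => cl2 (qq N) (xx N) (Th (qq N) (xx N) m (Dd (qq N) (xx N) j)))
        = (fun N b => gs (qq N) (m + 1) * lam (qq N) (xx N) m (Dd (qq N) (xx N) j) b) := by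
      funext N b; exact cl2_Th (qq_ne_one N) (xx N) m _ b
    rw [e]
    exact gd1_smul (ep_gs _) (gd1_lam hL h m j hmj)

theorem step_two_H1 {L : List ℕ} (hL : 2 ≤ L.length) (h2 : H2 L) : H1 (2 :: L) := by
  intro s
  have hne : (2 :: L) ≠ [] := by simp
  have hlen : 2 ≤ (2 :: L).length := by simp only [List.length_cons]; omega
  have e : ∀ N, PhiP (qq N) (xx N) s (2 :: L)
      = csumT (qq N) (xx N) (2 :: L) [] (hd2 (fun a _ => Dd (qq N) (xx N) s a)) := by
    intro N
    rw [PhiP_eq_hd1 _ _ _ hne, csumT_hd2_fst _ _ _ hlen]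
  simp only [e]
  have key : Gd2 (2 :: L) (fun N a _ => Dd (qq N) (xx N) s a) := by
    apply gd2_two hL
    rcases Nat.eq_zero_or_pos s with hs | hs
    · subst hs
      have e2 : (fun N => Om (qq N) (xx N) (fun a _ => Dd (qq N) (xx N) 0 a))
          = (fun N => Sfun (qq N) (xx N) 1) := by
        funext N a b
        rw [om_D, ← xi_zero_one (qq_ne_one N)]
        congr 1
        funext c
        exact Dd_zero _ _ c
      rw [e2]
      exact h2.1 1
    · have e2 : (fun N => Om (qq N) (xx N) (fun a _ => Dd (qq N) (xx N) s a))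
          = (fun N => Xi (qq N) (xx N) 0 (Dd (qq N) (xx N) s)) := by
        funext N a b
        exact om_D _ _ s a b
      rw [e2]
      exact h2.2.1 0 s (by omega)
  exact key

theorem step_two_H2 {L : List ℕ} (hL : 2 ≤ L.length) (h1 : H1 L) (h2 : H2 L) :
    H2 (2 :: L) := by
  have hne : L ≠ [] := by intro h; subst h; simp at hL
  refine ⟨?_, ?_, ?_⟩
  · intro n
    apply gd2_two hL
    have e : (fun N => Om (qq N) (xx N) (Sfun (qq N) (xx N) n))
        = (fun N a b => Sfun (qq N) (xx N) (n + 1) a b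
            + qq N * gs (qq N) n * Dd (qq N) (xx N) (n + 1) a) := by
      funext N a b; exact om_S (qq_ne_one N) (xx N) n a b
    rw [e]
    exact gd2_add (h2.1 (n + 1))
      (gd2_smul (ep_mul ep_q (ep_gs n)) (gd2_fst hL (gd1_D hne h1 (n + 1))))
  · intro m j hmj
    apply gd2_two hL
    have e : (fun N => Om (qq N) (xx N) (Xi (qq N) (xx N) m (Dd (qq N) (xx N) j)))
        = (fun N a b => Th (qq N) (xx N) (m + 1) (Dd (qq N) (xx N) j) a b
            + qq N * gs (qq N) m * kap (qq N) (xx N) (m + 1) (Dd (qq N) (xx N) j) a) := by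
      funext N a b; exact om_Xi (qq_ne_one N) (xx N) m _ a b
    rw [e]
    exact gd2_add (h2.2.2 (m + 1) j hmj)
      (gd2_smul (ep_mul ep_q (ep_gs m)) (gd2_fst hL (gd1_kap hne h1 (m + 1) j)))
  · intro m j hmj
    apply gd2_two hL
    have e : (fun N => Om (qq N) (xx N) (Th (qq N) (xx N) m (Dd (qq N) (xx N) j)))
        = (fun N a b => (Xi (qq N) (xx N) m (Dd (qq N) (xx N) (j + 1)) a b
              + qq N ^ (m + 1) * gs (qq N) (j - m) * es (xx N) (j + 1)
                * Sfun (qq N) (xx N) (m + 1) a b)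
            + qq N * gs (qq N) m * lam (qq N) (xx N) m (Dd (qq N) (xx N) j) a) := by
      funext N a b
      rw [om_Th (qq_ne_one N), ups_D (qq_ne_one N) (xx N) m j hmj]
    rw [e]
    exact gd2_add
      (gd2_add (h2.2.1 m (j + 1) (by omega))
        (gd2_smul (ep_mul (ep_mul (ep_pow ep_q (m + 1)) (ep_gs _)) (ep_es _)) (h2.1 (m + 1))))
      (gd2_smul (ep_mul ep_q (ep_gs m)) (gd2_fst hL (gd1_lam hne h1 m j hmj)))

lemma isHess_tail (a : ℕ) (d : List ℕ) (h : IsHess (a :: d)) : IsHess d := by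
  intro i hi
  have h1 := h (i + 1) (by simp only [List.length_cons]; omega)
  simp only [List.getD_cons_succ, List.length_cons] at h1
  constructor
  · omega
  · omega

theorem ladder_main : ∀ d : List ℕ, IsHess d → (∀ a ∈ d, a ≤ 2) →
    H1 d ∧ (1 ≤ d.headD 0 → H2 d)
  | [], _, _ => by
      refine ⟨?_, fun h => by simp at h⟩
      intro s
      have e : ∀ N, PhiP (qq N) (xx N) s [] = es (xx N) s := by
        intro N; unfold PhiP; simp only [csumT, wfac_nil, mul_one]
      simp only [e]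
      exact ep_es s
  | a :: d, hH, h2 => by
      have hHd := isHess_tail a d hH
      have h2d : ∀ b ∈ d, b ≤ 2 := fun b hb => h2 b (List.mem_cons_of_mem _ hb)
      obtain ⟨ih1, ih2⟩ := ladder_main d hHd h2d
      have ha : a ≤ 2 := h2 a List.mem_cons_self
      have h0 := hH 0 (by simp)
      simp only [List.getD_cons_zero, List.length_cons, zero_add, List.getD_cons_succ] at h0
      interval_cases a
      · refine ⟨?_, fun h => by simp at h⟩
        intro s
        have e : ∀ N, PhiP (qq N) (xx N) s (0 :: d)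
            = gs (qq N) (s + 1) * es (xx N) (s + 1) * chiL (qq N) (xx N) d :=
          fun N => PhiP_cons_zero (qq_ne_one N) (xx N) d s
        simp only [e]
        have h0' : EPos (fun N => chiL (qq N) (xx N) d) := by
          have := ih1 0
          simpa only [PhiP_zero] using this
        exact ep_mul (ep_mul (ep_gs _) (ep_es _)) h0'
      · have hL : d ≠ [] := by intro h; subst h; simp at h0
        refine ⟨?_, fun _ => step_one_H2 hL ih1⟩
        intro s
        have := epos_transfer 0 d hL ih1 s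
        simpa [descFrom] using this
      · have hL : 2 ≤ d.length := by omega
        have hd1 : 1 ≤ d.headD 0 := by
          cases d with
          | nil => simp at hL
          | cons b d' =>
            simp only [List.getD_cons_zero] at h0
            simp only [List.headD_cons]
            omega
        have ih2' := ih2 hd1
        exact ⟨step_two_H1 hL ih2', fun _ => step_two_H2 hL ih1 ih2'⟩

/-- e-positivity for all natural unit interval graphs in which every vertex has at most two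
later neighbours -/
theorem epos_band2 (d : List ℕ) (hH : IsHess d) (h2 : ∀ a ∈ d, a ≤ 2) :
    ∃ F : MvPolynomial ℕ ℕ[X], ∀ N, chromQSym N d = evE N F := by
  obtain ⟨F, hF⟩ := (ladder_main d hH h2).1 0
  exact ⟨F, fun N => by rw [chromQSym_eq, ← PhiP_zero, ← hF]⟩

end poly

end Vale.Agent.Lib.P066
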