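import Mathlib
import Vale.Agent.Lib.P066.Ladder

namespace Vale.Agent.Lib.P066

open Finset Polynomial

section general

variable {A : Type*} [CommRing A] {N : ℕ}

/-- a function of the first three colours of a colouring -/
def hd3 (G : Fin N → Fin N → Fin N → A) : List (Fin N) → A
  | a :: b :: c :: _ => G a b c
  | _ => 0

/-- a new first vertex adjacent to the next three vertices, in front of a two-colour weight -/
def Lift (q : A) (x : Fin N → A) (G : Fin N → Fin N → A) (b c d : Fin N) : A :=
  ∑ a, x a * ew q a b * ew q a c * ew q a d * G a b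

/-- a new first vertex adjacent to the next three vertices, in front of a three-colour weight -/
def Rot (q : A) (x : Fin N → A) (G : Fin N → Fin N → Fin N → A) (b c d : Fin N) : A :=
  ∑ a, x a * ew q a b * ew q a c * ew q a d * G a b c

/-- a new first vertex adjacent to the next two vertices, in front of a three-colour weight -/
def Drop (q : A) (x : Fin N → A) (G : Fin N → Fin N → Fin N → A) (b c : Fin N) : A :=
  ∑ a, x a * ew q a b * ew q a c * G a b c

lemma exists_cons3_of_length (L : List ℕ) (hL : 3 ≤ L.length) (κ : List (Fin N))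
    (hκ : κ.length = L.length) : ∃ a b c rest, κ = a :: b :: c :: rest := by
  match κ, hκ with
  | [], h => simp at h; omega
  | [_], h => simp at h; omega
  | [_, _], h => simp at h; omega
  | a :: b :: c :: rest, _ => exact ⟨a, b, c, rest, rfl⟩

/-- prepending a vertex adjacent to the next three vertices, two-colour weight -/
lemma csumT_three (q : A) (x : Fin N → A) (L : List ℕ) (hL : 3 ≤ L.length)
    (G : Fin N → Fin N → A) :
    csumT q x (3 :: L) [] (hd2 G) = csumT q x L [] (hd3 (Lift q x G)) := by
  simp only [csumT]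
  have h1 : ∀ c, x c * csumT q x L [] (fun κ => wfac q c 3 (κ ++ []) * hd2 G (c :: κ))
      = csumT q x L [] (fun κ => x c * (wfac q c 3 (κ ++ []) * hd2 G (c :: κ))) := by
    intro c; rw [csumT_mul_left]
  simp only [h1]
  rw [← csumT_sum]
  apply csumT_congr
  intro κ hκ
  obtain ⟨a, b, c', rest, rfl⟩ := exists_cons3_of_length L hL κ hκ
  simp only [hd2, hd3, Lift, wfac, List.append_nil, List.take_succ_cons, List.take_zero,
    List.map_cons, List.map_nil, List.prod_cons, List.prod_nil, mul_one]
  apply Finset.sum_congr rfl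
  intro c _
  ring

/-- prepending a vertex adjacent to the next three vertices, three-colour weight -/
lemma csumT_three3 (q : A) (x : Fin N → A) (L : List ℕ) (hL : 3 ≤ L.length)
    (G : Fin N → Fin N → Fin N → A) :
    csumT q x (3 :: L) [] (hd3 G) = csumT q x L [] (hd3 (Rot q x G)) := by
  simp only [csumT]
  have h1 : ∀ c, x c * csumT q x L [] (fun κ => wfac q c 3 (κ ++ []) * hd3 G (c :: κ))
      = csumT q x L [] (fun κ => x c * (wfac q c 3 (κ ++ []) * hd3 G (c :: κ))) := by
    intro c; rw [csumT_mul_left]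
  simp only [h1]
  rw [← csumT_sum]
  apply csumT_congr
  intro κ hκ
  obtain ⟨a, b, c', rest, rfl⟩ := exists_cons3_of_length L hL κ hκ
  simp only [hd3, Rot, wfac, List.append_nil, List.take_succ_cons, List.take_zero,
    List.map_cons, List.map_nil, List.prod_cons, List.prod_nil, mul_one]
  apply Finset.sum_congr rfl
  intro c _
  ring

/-- prepending a vertex adjacent to the next two vertices, three-colour weight -/
lemma csumT_two3 (q : A) (x : Fin N → A) (L : List ℕ) (hL : 2 ≤ L.length)
    (G : Fin N → Fin N → Fin N → A) :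
    csumT q x (2 :: L) [] (hd3 G) = csumT q x L [] (hd2 (Drop q x G)) := by
  simp only [csumT]
  have h1 : ∀ c, x c * csumT q x L [] (fun κ => wfac q c 2 (κ ++ []) * hd3 G (c :: κ))
      = csumT q x L [] (fun κ => x c * (wfac q c 2 (κ ++ []) * hd3 G (c :: κ))) := by
    intro c; rw [csumT_mul_left]
  simp only [h1]
  rw [← csumT_sum]
  apply csumT_congr
  intro κ hκ
  obtain ⟨a, b, rest, rfl⟩ := exists_cons2_of_length L hL κ hκ
  simp only [hd2, hd3, Drop, wfac, List.append_nil, List.take_succ_cons, List.take_zero,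
    List.map_cons, List.map_nil, List.prod_cons, List.prod_nil, mul_one]
  apply Finset.sum_congr rfl
  intro c _
  ring

lemma wfac_succ_cons (q : A) (c c' : Fin N) (a : ℕ) (l : List (Fin N)) :
    wfac q c (a + 1) (c' :: l) = ew q c c' * wfac q c a l := by
  simp [wfac, List.take_succ_cons]

/-- only the values at two different colours matter when the first vertex has a neighbour -/
lemma csumT_hd2_off (q : A) (x : Fin N → A) (a : ℕ) (L : List ℕ) (hL : L ≠ [])
    (G G' : Fin N → Fin N → A) (h : ∀ u v, u ≠ v → G u v = G' u v) :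
    csumT q x ((a + 1) :: L) [] (hd2 G) = csumT q x ((a + 1) :: L) [] (hd2 G') := by
  simp only [csumT]
  apply Finset.sum_congr rfl
  intro c _
  congr 1
  apply csumT_congr
  intro κ hκ
  obtain ⟨c', rest, rfl⟩ := exists_cons_of_length L hL κ hκ
  rw [List.append_nil, wfac_succ_cons]
  by_cases hc : c = c'
  · subst hc
    rw [ew_self]; ring
  · simp only [hd2]
    rw [h c c' hc]

/-- only the values at three different colours matter when the first vertex has two
neighbours and the second vertex has one -/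
lemma csumT_hd3_off (q : A) (x : Fin N → A) (a b : ℕ) (L : List ℕ) (hL : L ≠ [])
    (G G' : Fin N → Fin N → Fin N → A)
    (h : ∀ u v w, u ≠ v → u ≠ w → v ≠ w → G u v w = G' u v w) :
    csumT q x ((a + 2) :: (b + 1) :: L) [] (hd3 G)
      = csumT q x ((a + 2) :: (b + 1) :: L) [] (hd3 G') := by
  simp only [csumT]
  apply Finset.sum_congr rfl
  intro c _
  congr 1
  apply Finset.sum_congr rfl
  intro c' _
  congr 1
  apply csumT_congr
  intro κ hκ
  obtain ⟨c'', rest, rfl⟩ := exists_cons_of_length L hL κ hκ
  simp only [List.append_nil]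
  rw [wfac_succ_cons q c' c'' b rest, wfac_succ_cons q c c' (a + 1), wfac_succ_cons q c c'' a]
  by_cases h1 : c = c'
  · subst h1
    rw [ew_self]; ring
  by_cases h2 : c = c''
  · subst h2
    rw [ew_self]; ring
  by_cases h3 : c' = c''
  · subst h3
    rw [ew_self]; ring
  simp only [hd3]
  rw [h c c' c'' h1 h2 h3]

lemma hd3_add (F G : Fin N → Fin N → Fin N → A) (κ : List (Fin N)) :
    hd3 (fun a b c => F a b c + G a b c) κ = hd3 F κ + hd3 G κ := by
  match κ with
  | [] => simp [hd3]
  | [_] => simp [hd3]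
  | [_, _] => simp [hd3]
  | _ :: _ :: _ :: _ => simp [hd3]

lemma hd3_smul (r : A) (G : Fin N → Fin N → Fin N → A) (κ : List (Fin N)) :
    hd3 (fun a b c => r * G a b c) κ = r * hd3 G κ := by
  match κ with
  | [] => simp [hd3]
  | [_] => simp [hd3]
  | [_, _] => simp [hd3]
  | _ :: _ :: _ :: _ => simp [hd3]

end general

section four

variable {A : Type*} [CommRing A]

lemma coeff_mul_lin (p : A[X]) (a : A) (k : ℕ) :
    (p * (1 + C a * X)).coeff (k + 1) = p.coeff (k + 1) + a * p.coeff k := by
  rw [mul_add, mul_one, coeff_add, coeff_mul_C_mul_X]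

lemma coeff_mul_lin_zero (p : A[X]) (a : A) : (p * (1 + C a * X)).coeff 0 = p.coeff 0 := by
  simp [mul_coeff_zero]

lemma coeff_lin_zero (a : A) : ((1 : A[X]) + C a * X).coeff 0 = 1 := by simp

lemma coeff_lin_one (a : A) : ((1 : A[X]) + C a * X).coeff 1 = a := by simp [coeff_one]

lemma coeff_lin_succ (a : A) (k : ℕ) : ((1 : A[X]) + C a * X).coeff (k + 2) = 0 := by
  simp [coeff_one]

lemma gp_four (y : Fin 4 → A) : gp y
    = (1 + C (y 0) * X) * (1 + C (y 1) * X) * (1 + C (y 2) * X) * (1 + C (y 3) * X) :=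
  Fin.prod_univ_four _

lemma es4_1 (y : Fin 4 → A) : es y 1 = y 0 + y 1 + y 2 + y 3 := by
  unfold es
  rw [gp_four]
  simp only [coeff_mul_lin, coeff_mul_lin_zero, coeff_lin_zero, coeff_lin_one, zero_add]
  ring

lemma es4_2 (y : Fin 4 → A) : es y 2
    = y 0 * y 1 + y 0 * y 2 + y 0 * y 3 + y 1 * y 2 + y 1 * y 3 + y 2 * y 3 := by
  unfold es
  rw [gp_four]
  simp only [coeff_mul_lin, coeff_mul_lin_zero, coeff_lin_zero, coeff_lin_one, coeff_lin_succ,
    zero_add, Nat.reduceAdd]
  ring

lemma es4_3 (y : Fin 4 → A) : es y 3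
    = y 0 * y 1 * y 2 + y 0 * y 1 * y 3 + y 0 * y 2 * y 3 + y 1 * y 2 * y 3 := by
  unfold es
  rw [gp_four]
  simp only [coeff_mul_lin, coeff_lin_zero, coeff_lin_one, coeff_lin_succ,
    zero_add, Nat.reduceAdd]
  ring

lemma es4_4 (y : Fin 4 → A) : es y 4 = y 0 * y 1 * y 2 * y 3 := by
  unfold es
  rw [gp_four]
  simp only [coeff_mul_lin, coeff_lin_one, coeff_lin_succ, zero_add, Nat.reduceAdd]
  ring

lemma es4_big (y : Fin 4 → A) (k : ℕ) : es y (k + 5) = 0 := by
  unfold es
  rw [gp_four]
  simp only [coeff_mul_lin, coeff_lin_succ]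
  ring

end four

end Vale.Agent.Lib.P066
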