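import Mathlib
import Vale.Agent.Lib.P066.Defs

namespace Vale.Agent.Lib.P066

open Finset Polynomial

/-- a graph with a vertex that has four later neighbours has no proper colouring with four
colours -/
theorem chromQSym_four_eq_zero (d : List ℕ) (hH : IsHess d) (i : ℕ) (hi : i < d.length)
    (h4 : 4 ≤ d.getD i 0) : chromQSym 4 d = 0 := by
  unfold chromQSym
  apply Finset.sum_eq_zero
  intro κ _
  rw [if_neg]
  intro hprop
  have h1 := hH i hi
  have h2 := hH (i + 1) (by omega)
  have hd1 : 3 ≤ d.getD (i + 1) 0 := by omega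
  have h3 := hH (i + 2) (by omega)
  have hd2 : 2 ≤ d.getD (i + 2) 0 := by
    have e : i + 1 + 1 = i + 2 := rfl
    rw [e] at h2
    omega
  have hd3 : 1 ≤ d.getD (i + 3) 0 := by
    have e : i + 2 + 1 = i + 3 := rfl
    rw [e] at h3
    omega
  have hlen : i + 4 < d.length := by omega
  obtain ⟨s, t, hst, heq⟩ := Fintype.exists_ne_map_eq_of_card_lt
    (fun t : Fin 5 => κ ⟨i + t.val, by have := t.isLt; omega⟩) (by simp)
  have key : ∀ s t : Fin 5, s < t →
      κ ⟨i + s.val, by have := s.isLt; omega⟩ = κ ⟨i + t.val, by have := t.isLt; omega⟩ →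
      False := by
    intro s t hlt he
    have hs := s.isLt
    have ht := t.isLt
    have hlt' : s.val < t.val := hlt
    refine hprop ⟨i + s.val, by omega⟩ ⟨i + t.val, by omega⟩ ?_ ?_ he
    · show i + s.val < i + t.val
      omega
    · show i + t.val ≤ i + s.val + d.getD (i + s.val) 0
      have hs3 : s.val = 0 ∨ s.val = 1 ∨ s.val = 2 ∨ s.val = 3 := by omega
      rcases hs3 with h0 | h0 | h0 | h0
      · rw [h0]; simp only [add_zero]; omega
      · rw [h0]; omega
      · rw [h0]; omega
      · rw [h0]; omega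
  rcases lt_or_gt_of_ne hst with h | h
  · exact key s t h heq
  · exact key t s h heq.symm

/-- evaluation of a polynomial in four symbols with coefficients in `ℕ[q]` at the elementary
symmetric polynomials `e_1, e_2, e_3, e_4` in four variables -/
noncomputable def evFour :
    MvPolynomial (Fin 4) ℕ[X] →+* MvPolynomial (Fin 4) ℤ[X] :=
  MvPolynomial.eval₂Hom
    (MvPolynomial.C.comp (Polynomial.mapRingHom (Nat.castRingHom ℤ)))
    (fun k : Fin 4 => MvPolynomial.esymm (Fin 4) ℤ[X] (k.val + 1))

/-- the substitution of the symbols `e_0 = 1`, `e_5 = e_6 = … = 0` -/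
noncomputable def subFour : MvPolynomial ℕ ℕ[X] →+* MvPolynomial (Fin 4) ℕ[X] :=
  MvPolynomial.eval₂Hom MvPolynomial.C
    (fun k : ℕ => if k = 0 then 1 else if h : k ≤ 4 then MvPolynomial.X ⟨k - 1, by omega⟩ else 0)

lemma esymm_four_eq_zero (k : ℕ) (hk : 4 < k) : MvPolynomial.esymm (Fin 4) ℤ[X] k = 0 := by
  unfold MvPolynomial.esymm
  rw [Finset.powersetCard_eq_empty.mpr (by simp; omega)]
  simp

lemma evFour_subFour (F : MvPolynomial ℕ ℕ[X]) : evFour (subFour F) = evE 4 F := by
  have h : evFour.comp subFour = evE 4 := by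
    apply MvPolynomial.ringHom_ext
    · intro r
      simp [evFour, subFour, evE]
    · intro k
      simp only [RingHom.comp_apply, subFour, evE, MvPolynomial.eval₂Hom_X']
      by_cases h0 : k = 0
      · subst h0
        simp [evFour]
      · rw [if_neg h0]
        by_cases h3 : k ≤ 4
        · rw [dif_pos h3]
          simp only [evFour, MvPolynomial.eval₂Hom_X']
          congr 1
          omega
        · rw [dif_neg h3, map_zero, esymm_four_eq_zero k (by omega)]
  rw [← h]
  rfl

end Vale.Agent.Lib.P066
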