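import Mathlib
import Vale.Agent.Lib.P066.FourRelA
import Vale.Agent.Lib.P066.FourRelB
import Vale.Agent.Lib.P066.FourRelC
import Vale.Agent.Lib.P066.FourRelD
import Vale.Agent.Lib.P066.FourEv

namespace Vale.Agent.Lib.P066

open Finset Polynomial

/-- membership in the image of `ℕ[q][e_1, e_2, …]`, in four variables -/
def EP4 (r : MvPolynomial (Fin 4) ℤ[X]) : Prop := ∃ F : MvPolynomial ℕ ℕ[X], r = evE 4 F

lemma ep4_of {f : ∀ N : ℕ, MvPolynomial (Fin N) ℤ[X]} (h : EPos f) : EP4 (f 4) := by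
  obtain ⟨F, hF⟩ := h
  exact ⟨F, hF 4⟩

lemma ep4_add {r s : MvPolynomial (Fin 4) ℤ[X]} (hr : EP4 r) (hs : EP4 s) : EP4 (r + s) := by
  obtain ⟨F, rfl⟩ := hr
  obtain ⟨G, rfl⟩ := hs
  exact ⟨F + G, (map_add _ _ _).symm⟩

lemma ep4_mul {r s : MvPolynomial (Fin 4) ℤ[X]} (hr : EP4 r) (hs : EP4 s) : EP4 (r * s) := by
  obtain ⟨F, rfl⟩ := hr
  obtain ⟨G, rfl⟩ := hs
  exact ⟨F * G, (map_mul _ _ _).symm⟩

lemma ep4_zero : EP4 0 := ⟨0, (map_zero _).symm⟩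

lemma ep4_one : EP4 1 := ⟨1, (map_one _).symm⟩

lemma ep4_pow {r : MvPolynomial (Fin 4) ℤ[X]} (hr : EP4 r) (n : ℕ) : EP4 (r ^ n) := by
  obtain ⟨F, rfl⟩ := hr
  exact ⟨F ^ n, (map_pow _ _ _).symm⟩

lemma ep4_q : EP4 (qq 4) := ep4_of ep_q

lemma ep4_es (k : ℕ) : EP4 (es (xx 4) k) := ep4_of (ep_es k)

lemma ep4_gs (k : ℕ) : EP4 (gs (qq 4) k) := ep4_of (ep_gs k)

lemma ep4_sum {ι : Type} (s : Finset ι) (f : ι → MvPolynomial (Fin 4) ℤ[X])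
    (h : ∀ i ∈ s, EP4 (f i)) : EP4 (∑ i ∈ s, f i) := by
  classical
  induction s using Finset.induction_on with
  | empty => simpa using ep4_zero
  | insert i s hi ih =>
    rw [Finset.sum_insert hi]
    exact ep4_add (h i (Finset.mem_insert_self _ _))
      (ih (fun j hj => h j (Finset.mem_insert_of_mem hj)))

/-- positivity, in four variables, of the colouring sum of `L` weighted by a function of the
first colour -/
def P1 (L : List ℕ) (f : Fin 4 → MvPolynomial (Fin 4) ℤ[X]) : Prop :=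
  EP4 (csumT (qq 4) (xx 4) L [] (hd1 f))

/-- positivity, in four variables, of the colouring sum of `L` weighted by a function of the
first two colours -/
def P2 (L : List ℕ) (G : Fin 4 → Fin 4 → MvPolynomial (Fin 4) ℤ[X]) : Prop :=
  EP4 (csumT (qq 4) (xx 4) L [] (hd2 G))

/-- positivity, in four variables, of the colouring sum of `L` weighted by a function of the
first three colours -/
def P3 (L : List ℕ) (G : Fin 4 → Fin 4 → Fin 4 → MvPolynomial (Fin 4) ℤ[X]) : Prop :=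
  EP4 (csumT (qq 4) (xx 4) L [] (hd3 G))

lemma P1_add {L : List ℕ} {f g : Fin 4 → MvPolynomial (Fin 4) ℤ[X]} (hf : P1 L f)
    (hg : P1 L g) : P1 L (fun a => f a + g a) := by
  unfold P1 at *
  have h : csumT (qq 4) (xx 4) L [] (hd1 (fun a => f a + g a))
      = csumT (qq 4) (xx 4) L [] (hd1 f) + csumT (qq 4) (xx 4) L [] (hd1 g) := by
    rw [← csumT_add]
    apply csumT_congr
    intro κ _
    exact hd1_add _ _ κ
  rw [h]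
  exact ep4_add hf hg

lemma P1_smul {L : List ℕ} {r : MvPolynomial (Fin 4) ℤ[X]}
    {f : Fin 4 → MvPolynomial (Fin 4) ℤ[X]} (hr : EP4 r) (hf : P1 L f) :
    P1 L (fun a => r * f a) := by
  unfold P1 at *
  have h : csumT (qq 4) (xx 4) L [] (hd1 (fun a => r * f a))
      = r * csumT (qq 4) (xx 4) L [] (hd1 f) := by
    rw [← csumT_mul_left]
    apply csumT_congr
    intro κ _
    exact hd1_smul _ _ κ
  rw [h]
  exact ep4_mul hr hf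

lemma P1_congr {L : List ℕ} {f g : Fin 4 → MvPolynomial (Fin 4) ℤ[X]} (h : ∀ b, f b = g b)
    (hg : P1 L g) : P1 L f := by
  have e : f = g := funext h
  rw [e]
  exact hg

lemma P2_add {L : List ℕ} {F G : Fin 4 → Fin 4 → MvPolynomial (Fin 4) ℤ[X]} (hF : P2 L F)
    (hG : P2 L G) : P2 L (fun a b => F a b + G a b) := by
  unfold P2 at *
  have h : csumT (qq 4) (xx 4) L [] (hd2 (fun a b => F a b + G a b))
      = csumT (qq 4) (xx 4) L [] (hd2 F) + csumT (qq 4) (xx 4) L [] (hd2 G) := by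
    rw [← csumT_add]
    apply csumT_congr
    intro κ _
    exact hd2_add _ _ κ
  rw [h]
  exact ep4_add hF hG

lemma P2_smul {L : List ℕ} {r : MvPolynomial (Fin 4) ℤ[X]}
    {G : Fin 4 → Fin 4 → MvPolynomial (Fin 4) ℤ[X]} (hr : EP4 r) (hG : P2 L G) :
    P2 L (fun a b => r * G a b) := by
  unfold P2 at *
  have h : csumT (qq 4) (xx 4) L [] (hd2 (fun a b => r * G a b))
      = r * csumT (qq 4) (xx 4) L [] (hd2 G) := by
    rw [← csumT_mul_left]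
    apply csumT_congr
    intro κ _
    exact hd2_smul _ _ κ
  rw [h]
  exact ep4_mul hr hG

lemma P2_zero (L : List ℕ) : P2 L (fun _ _ => 0) := by
  unfold P2
  have e : ∀ κ : List (Fin 4), hd2 (fun _ _ => (0 : MvPolynomial (Fin 4) ℤ[X])) κ = 0 := by
    intro κ
    match κ with
    | [] => rfl
    | [_] => rfl
    | _ :: _ :: _ => rfl
  have h : csumT (qq 4) (xx 4) L [] (hd2 (fun _ _ => (0 : MvPolynomial (Fin 4) ℤ[X]))) = 0 := by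
    rw [csumT_congr (qq 4) (xx 4) L [] _ (fun _ => 0) (fun κ _ => e κ)]
    exact csumT_zero _ _ L []
  rw [h]
  exact ep4_zero

lemma P2_off {a : ℕ} {L : List ℕ} {G G' : Fin 4 → Fin 4 → MvPolynomial (Fin 4) ℤ[X]}
    (hL : L ≠ []) (h : ∀ u v, u ≠ v → G u v = G' u v) (hG : P2 ((a + 1) :: L) G') :
    P2 ((a + 1) :: L) G := by
  unfold P2 at *
  rw [csumT_hd2_off _ _ a L hL G G' h]
  exact hG

lemma P2_two {L : List ℕ} {G : Fin 4 → Fin 4 → MvPolynomial (Fin 4) ℤ[X]} (hL : 2 ≤ L.length)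
    (h : P2 L (Om (qq 4) (xx 4) G)) : P2 (2 :: L) G := by
  unfold P2 at *
  rw [csumT_two _ _ L hL]
  exact h

lemma P2_one {L : List ℕ} {G : Fin 4 → Fin 4 → MvPolynomial (Fin 4) ℤ[X]} (hL : L ≠ [])
    (h : P1 L (cl2 (qq 4) (xx 4) G)) : P2 (1 :: L) G := by
  unfold P1 P2 at *
  rw [csumT_one _ _ L hL]
  exact h

lemma P2_three {L : List ℕ} {G : Fin 4 → Fin 4 → MvPolynomial (Fin 4) ℤ[X]}
    (hL : 3 ≤ L.length) (h : P3 L (Lift (qq 4) (xx 4) G)) : P2 (3 :: L) G := by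
  unfold P2 P3 at *
  rw [csumT_three _ _ L hL]
  exact h

lemma P3_three {L : List ℕ} {G : Fin 4 → Fin 4 → Fin 4 → MvPolynomial (Fin 4) ℤ[X]}
    (hL : 3 ≤ L.length) (h : P3 L (Rot (qq 4) (xx 4) G)) : P3 (3 :: L) G := by
  unfold P3 at *
  rw [csumT_three3 _ _ L hL]
  exact h

lemma P3_two {L : List ℕ} {G : Fin 4 → Fin 4 → Fin 4 → MvPolynomial (Fin 4) ℤ[X]}
    (hL : 2 ≤ L.length) (h : P2 L (Drop (qq 4) (xx 4) G)) : P3 (2 :: L) G := by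
  unfold P2 P3 at *
  rw [csumT_two3 _ _ L hL]
  exact h

lemma two_le_length_cons (b : ℕ) {L : List ℕ} (hL : L ≠ []) : 2 ≤ ((b + 1) :: L).length := by
  cases L with
  | nil => exact absurd rfl hL
  | cons c L' => simp

/-- four rotations in front of a vertex with two neighbours act as a scalar -/
lemma drop_rot4 {A : Type*} [CommRing A] (q : A) (x : Fin 4 → A)
    (Y : Fin 4 → Fin 4 → Fin 4 → A) :
    ∀ u v : Fin 4, u ≠ v → Drop q x (Rot q x (Rot q x (Rot q x (Rot q x Y)))) u v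
      = q ^ 6 * es x 4 * Drop q x Y u v := by
  intro u v huv
  unfold Drop
  rw [Finset.mul_sum]
  apply Finset.sum_congr rfl
  intro a _
  by_cases h1 : a = u
  · subst h1
    rw [ew_self]; ring
  by_cases h2 : a = v
  · subst h2
    rw [ew_self]; ring
  rw [rot4 q x Y a u v h1 h2 huv]
  ring

/-- the twelve two-colour generators in four variables -/
inductive IsGen4 : (Fin 4 → Fin 4 → MvPolynomial (Fin 4) ℤ[X]) → Prop
  | S1 : IsGen4 (gS1 (qq 4) (xx 4))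
  | S2 : IsGen4 (gS2 (qq 4) (xx 4))
  | D0 : IsGen4 (gD0 (qq 4) (xx 4))
  | D1 : IsGen4 (gD1 (qq 4) (xx 4))
  | D2 : IsGen4 (gD2 (qq 4) (xx 4))
  | D3 : IsGen4 (gD3 (qq 4) (xx 4))
  | X01 : IsGen4 (gX01 (qq 4) (xx 4))
  | X02 : IsGen4 (gX02 (qq 4) (xx 4))
  | X12 : IsGen4 (gX12 (qq 4) (xx 4))
  | T11 : IsGen4 (gT11 (qq 4) (xx 4))
  | T12 : IsGen4 (gT12 (qq 4) (xx 4))
  | T22 : IsGen4 (gT22 (qq 4) (xx 4))

/-- pointed positivity in four variables -/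
def H1four (L : List ℕ) : Prop := ∀ s, EP4 (PhiP (qq 4) (xx 4) s L)

/-- positivity of the colouring sums weighted by the twelve generators -/
def H2four (L : List ℕ) : Prop := ∀ G, IsGen4 G → P2 L G

/-- positivity of the colouring sums weighted by the rotated lifts of the twelve generators -/
def H3four (L : List ℕ) : Prop :=
  ∀ G, IsGen4 G → ∀ t : ℕ, P3 L ((Rot (qq 4) (xx 4))^[t] (Lift (qq 4) (xx 4) G))

lemma P1_D {L : List ℕ} (hL : L ≠ []) (h : H1four L) (s : ℕ) :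
    P1 L (Dd (qq 4) (xx 4) s) := by
  unfold P1
  rw [← PhiP_eq_hd1 _ _ L hL s]
  exact h s

lemma st_C3 {a : ℕ} {L : List ℕ} (hL : L ≠ []) (h : H2four ((a + 1) :: L))
    (G : Fin 4 → Fin 4 → MvPolynomial (Fin 4) ℤ[X]) (hG : IsGen4 G) :
    P2 ((a + 1) :: L)
      (Drop (qq 4) (xx 4) (Rot (qq 4) (xx 4) (Rot (qq 4) (xx 4) (Lift (qq 4) (xx 4) G)))) :=
  P2_off hL (rel_C3 (qq 4) (xx 4) G)
    (P2_smul (ep4_mul (ep4_add (ep4_pow ep4_q 5) (ep4_pow ep4_q 6)) (ep4_es 4)) (h G hG))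

lemma st_Om_S1 {a : ℕ} {L : List ℕ} (hL : L ≠ []) (h : H2four ((a + 1) :: L)) :
    P2 ((a + 1) :: L) (Om (qq 4) (xx 4) (gS1 (qq 4) (xx 4))) :=
  P2_off hL (rel_Om_S1 (qq 4) (xx 4))
    (P2_add (P2_smul (ep4_pow ep4_q 1) (h _ IsGen4.D2)) (P2_smul ep4_one (h _ IsGen4.S2)))

lemma st_Om_S2 {a : ℕ} {L : List ℕ} (hL : L ≠ []) (h : H2four ((a + 1) :: L)) :
    P2 ((a + 1) :: L) (Om (qq 4) (xx 4) (gS2 (qq 4) (xx 4))) :=
  P2_off hL (rel_Om_S2 (qq 4) (xx 4))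
    (P2_smul (ep4_add (ep4_pow ep4_q 1) (ep4_pow ep4_q 2)) (h _ IsGen4.D3))

lemma st_Om_D0 {a : ℕ} {L : List ℕ} (hL : L ≠ []) (h : H2four ((a + 1) :: L)) :
    P2 ((a + 1) :: L) (Om (qq 4) (xx 4) (gD0 (qq 4) (xx 4))) :=
  P2_off hL (rel_Om_D0 (qq 4) (xx 4))
    (P2_smul ep4_one (h _ IsGen4.S1))

lemma st_Om_D1 {a : ℕ} {L : List ℕ} (hL : L ≠ []) (h : H2four ((a + 1) :: L)) :
    P2 ((a + 1) :: L) (Om (qq 4) (xx 4) (gD1 (qq 4) (xx 4))) :=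
  P2_off hL (rel_Om_D1 (qq 4) (xx 4))
    (P2_smul ep4_one (h _ IsGen4.X01))

lemma st_Om_D2 {a : ℕ} {L : List ℕ} (hL : L ≠ []) (h : H2four ((a + 1) :: L)) :
    P2 ((a + 1) :: L) (Om (qq 4) (xx 4) (gD2 (qq 4) (xx 4))) :=
  P2_off hL (rel_Om_D2 (qq 4) (xx 4))
    (P2_add (P2_smul (ep4_mul (ep4_pow ep4_q 2) (ep4_es 3)) (h _ IsGen4.D0)) (P2_smul ep4_one (h _ IsGen4.X02)))

lemma st_Om_D3 {a : ℕ} {L : List ℕ} (hL : L ≠ []) (h : H2four ((a + 1) :: L)) :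
    P2 ((a + 1) :: L) (Om (qq 4) (xx 4) (gD3 (qq 4) (xx 4))) :=
  P2_off hL (rel_Om_D3 (qq 4) (xx 4))
    (P2_smul (ep4_mul (ep4_add (ep4_pow ep4_q 2) (ep4_pow ep4_q 3)) (ep4_es 4)) (h _ IsGen4.D0))

lemma st_Om_X01 {a : ℕ} {L : List ℕ} (hL : L ≠ []) (h : H2four ((a + 1) :: L)) :
    P2 ((a + 1) :: L) (Om (qq 4) (xx 4) (gX01 (qq 4) (xx 4))) :=
  P2_off hL (rel_Om_X01 (qq 4) (xx 4))
    (P2_smul ep4_one (h _ IsGen4.T11))

lemma st_Om_X02 {a : ℕ} {L : List ℕ} (hL : L ≠ []) (h : H2four ((a + 1) :: L)) :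
    P2 ((a + 1) :: L) (Om (qq 4) (xx 4) (gX02 (qq 4) (xx 4))) :=
  P2_off hL (rel_Om_X02 (qq 4) (xx 4))
    (P2_add (P2_smul (ep4_mul (ep4_pow ep4_q 3) (ep4_es 4)) (h _ IsGen4.D0)) (P2_smul ep4_one (h _ IsGen4.T12)))

lemma st_Om_X12 {a : ℕ} {L : List ℕ} (hL : L ≠ []) (h : H2four ((a + 1) :: L)) :
    P2 ((a + 1) :: L) (Om (qq 4) (xx 4) (gX12 (qq 4) (xx 4))) :=
  P2_off hL (rel_Om_X12 (qq 4) (xx 4))
    (P2_add (P2_add (P2_smul (ep4_mul (ep4_pow ep4_q 4) (ep4_es 4)) (h _ IsGen4.D1)) (P2_smul (ep4_mul (ep4_pow ep4_q 3) (ep4_es 2)) (h _ IsGen4.D3))) (P2_smul ep4_one (h _ IsGen4.T22)))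

lemma st_Om_T11 {a : ℕ} {L : List ℕ} (hL : L ≠ []) (h : H2four ((a + 1) :: L)) :
    P2 ((a + 1) :: L) (Om (qq 4) (xx 4) (gT11 (qq 4) (xx 4))) :=
  P2_off hL (rel_Om_T11 (qq 4) (xx 4))
    (P2_add (P2_add (P2_add (P2_smul (ep4_mul (ep4_add (ep4_pow ep4_q 3) (ep4_pow ep4_q 4)) (ep4_es 4)) (h _ IsGen4.D0)) (P2_smul (ep4_mul (ep4_pow ep4_q 3) (ep4_es 3)) (h _ IsGen4.D1))) (P2_smul (ep4_mul (ep4_pow ep4_q 2) (ep4_es 1)) (h _ IsGen4.D3))) (P2_smul ep4_one (h _ IsGen4.X12)))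

lemma st_Om_T12 {a : ℕ} {L : List ℕ} (hL : L ≠ []) (h : H2four ((a + 1) :: L)) :
    P2 ((a + 1) :: L) (Om (qq 4) (xx 4) (gT12 (qq 4) (xx 4))) :=
  P2_off hL (rel_Om_T12 (qq 4) (xx 4))
    (P2_smul (ep4_mul (ep4_add (ep4_pow ep4_q 3) (ep4_pow ep4_q 4)) (ep4_es 4)) (h _ IsGen4.D1))

lemma st_Om_T22 {a : ℕ} {L : List ℕ} (hL : L ≠ []) (h : H2four ((a + 1) :: L)) :
    P2 ((a + 1) :: L) (Om (qq 4) (xx 4) (gT22 (qq 4) (xx 4))) :=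
  P2_off hL (rel_Om_T22 (qq 4) (xx 4))
    (P2_smul (ep4_mul (ep4_add (ep4_pow ep4_q 4) (ep4_pow ep4_q 5)) (ep4_es 4)) (h _ IsGen4.D2))

lemma st_cl2_S1 {L : List ℕ} (hL : L ≠ []) (h : H1four L) :
    P1 L (cl2 (qq 4) (xx 4) (gS1 (qq 4) (xx 4))) :=
  P1_congr (rel_cl2_S1 (qq 4) (xx 4))
    (P1_smul (ep4_add ep4_one (ep4_pow ep4_q 1)) (P1_D hL h 2))

lemma st_cl2_S2 {L : List ℕ} (hL : L ≠ []) (h : H1four L) :
    P1 L (cl2 (qq 4) (xx 4) (gS2 (qq 4) (xx 4))) :=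
  P1_congr (rel_cl2_S2 (qq 4) (xx 4))
    (P1_smul (ep4_add (ep4_add ep4_one (ep4_pow ep4_q 1)) (ep4_pow ep4_q 2)) (P1_D hL h 3))

lemma st_cl2_D0 {L : List ℕ} (hL : L ≠ []) (h : H1four L) :
    P1 L (cl2 (qq 4) (xx 4) (gD0 (qq 4) (xx 4))) :=
  P1_congr (rel_cl2_D0 (qq 4) (xx 4))
    (P1_smul ep4_one (P1_D hL h 1))

lemma st_cl2_D1 {L : List ℕ} (hL : L ≠ []) (h : H1four L) :
    P1 L (cl2 (qq 4) (xx 4) (gD1 (qq 4) (xx 4))) :=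
  P1_congr (rel_cl2_D1 (qq 4) (xx 4))
    (P1_add (P1_smul (ep4_mul (ep4_pow ep4_q 1) (ep4_es 2)) (P1_D hL h 0)) (P1_smul ep4_one (P1_D hL h 2)))

lemma st_cl2_D2 {L : List ℕ} (hL : L ≠ []) (h : H1four L) :
    P1 L (cl2 (qq 4) (xx 4) (gD2 (qq 4) (xx 4))) :=
  P1_congr (rel_cl2_D2 (qq 4) (xx 4))
    (P1_add (P1_smul (ep4_mul (ep4_add (ep4_pow ep4_q 1) (ep4_pow ep4_q 2)) (ep4_es 3)) (P1_D hL h 0)) (P1_smul ep4_one (P1_D hL h 3)))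

lemma st_cl2_D3 {L : List ℕ} (hL : L ≠ []) (h : H1four L) :
    P1 L (cl2 (qq 4) (xx 4) (gD3 (qq 4) (xx 4))) :=
  P1_congr (rel_cl2_D3 (qq 4) (xx 4))
    (P1_smul (ep4_mul (ep4_add (ep4_add (ep4_pow ep4_q 1) (ep4_pow ep4_q 2)) (ep4_pow ep4_q 3)) (ep4_es 4)) (P1_D hL h 0))

lemma st_cl2_X01 {L : List ℕ} (hL : L ≠ []) (h : H1four L) :
    P1 L (cl2 (qq 4) (xx 4) (gX01 (qq 4) (xx 4))) :=
  P1_congr (rel_cl2_X01 (qq 4) (xx 4))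
    (P1_add (P1_add (P1_smul (ep4_mul (ep4_pow ep4_q 2) (ep4_es 3)) (P1_D hL h 0)) (P1_smul (ep4_mul (ep4_pow ep4_q 1) (ep4_es 1)) (P1_D hL h 2))) (P1_smul (ep4_add ep4_one (ep4_pow ep4_q 1)) (P1_D hL h 3)))

lemma st_cl2_X02 {L : List ℕ} (hL : L ≠ []) (h : H1four L) :
    P1 L (cl2 (qq 4) (xx 4) (gX02 (qq 4) (xx 4))) :=
  P1_congr (rel_cl2_X02 (qq 4) (xx 4))
    (P1_add (P1_smul (ep4_mul (ep4_add (ep4_pow ep4_q 2) (ep4_pow ep4_q 3)) (ep4_es 4)) (P1_D hL h 0)) (P1_smul (ep4_mul (ep4_pow ep4_q 1) (ep4_es 1)) (P1_D hL h 3)))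

lemma st_cl2_X12 {L : List ℕ} (hL : L ≠ []) (h : H1four L) :
    P1 L (cl2 (qq 4) (xx 4) (gX12 (qq 4) (xx 4))) :=
  P1_congr (rel_cl2_X12 (qq 4) (xx 4))
    (P1_add (P1_smul (ep4_mul (ep4_add (ep4_pow ep4_q 3) (ep4_pow ep4_q 4)) (ep4_es 4)) (P1_D hL h 1)) (P1_smul (ep4_mul (ep4_add (ep4_pow ep4_q 2) (ep4_pow ep4_q 3)) (ep4_es 2)) (P1_D hL h 3)))

lemma st_cl2_T11 {L : List ℕ} (hL : L ≠ []) (h : H1four L) :
    P1 L (cl2 (qq 4) (xx 4) (gT11 (qq 4) (xx 4))) :=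
  P1_congr (rel_cl2_T11 (qq 4) (xx 4))
    (P1_add (P1_add (P1_smul (ep4_mul (ep4_add (ep4_add (ep4_add (ep4_pow ep4_q 2) (ep4_pow ep4_q 3)) (ep4_pow ep4_q 3)) (ep4_pow ep4_q 4)) (ep4_es 4)) (P1_D hL h 0)) (P1_smul (ep4_mul (ep4_add (ep4_pow ep4_q 2) (ep4_pow ep4_q 3)) (ep4_es 3)) (P1_D hL h 1))) (P1_smul (ep4_mul (ep4_add (ep4_pow ep4_q 1) (ep4_pow ep4_q 2)) (ep4_es 1)) (P1_D hL h 3)))

lemma st_cl2_T12 {L : List ℕ} (hL : L ≠ []) (h : H1four L) :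
    P1 L (cl2 (qq 4) (xx 4) (gT12 (qq 4) (xx 4))) :=
  P1_congr (rel_cl2_T12 (qq 4) (xx 4))
    (P1_smul (ep4_mul (ep4_add (ep4_add (ep4_pow ep4_q 2) (ep4_pow ep4_q 3)) (ep4_pow ep4_q 4)) (ep4_es 4)) (P1_D hL h 1))

lemma st_cl2_T22 {L : List ℕ} (hL : L ≠ []) (h : H1four L) :
    P1 L (cl2 (qq 4) (xx 4) (gT22 (qq 4) (xx 4))) :=
  P1_congr (rel_cl2_T22 (qq 4) (xx 4))
    (P1_smul (ep4_mul (ep4_add (ep4_add (ep4_pow ep4_q 3) (ep4_pow ep4_q 4)) (ep4_pow ep4_q 5)) (ep4_es 4)) (P1_D hL h 2))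

lemma st_C1_S1 {a : ℕ} {L : List ℕ} (hL : L ≠ []) (h : H2four ((a + 1) :: L)) :
    P2 ((a + 1) :: L) (Drop (qq 4) (xx 4) (Lift (qq 4) (xx 4) (gS1 (qq 4) (xx 4)))) :=
  P2_off hL (rel_C1_S1 (qq 4) (xx 4))
    (P2_smul (ep4_add (ep4_pow ep4_q 1) (ep4_pow ep4_q 2)) (h _ IsGen4.X02))

lemma st_C1_S2 {a : ℕ} {L : List ℕ} (hL : L ≠ []) (h : H2four ((a + 1) :: L)) :
    P2 ((a + 1) :: L) (Drop (qq 4) (xx 4) (Lift (qq 4) (xx 4) (gS2 (qq 4) (xx 4)))) :=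
  P2_off hL (rel_C1_S2 (qq 4) (xx 4))
    (P2_smul (ep4_mul (ep4_add (ep4_pow ep4_q 4) (ep4_pow ep4_q 5)) (ep4_es 4)) (h _ IsGen4.D0))

lemma st_C1_D0 {a : ℕ} {L : List ℕ} (hL : L ≠ []) (h : H2four ((a + 1) :: L)) :
    P2 ((a + 1) :: L) (Drop (qq 4) (xx 4) (Lift (qq 4) (xx 4) (gD0 (qq 4) (xx 4)))) :=
  P2_off hL (rel_C1_D0 (qq 4) (xx 4))
    (P2_smul (ep4_add ep4_one (ep4_pow ep4_q 1)) (h _ IsGen4.S2))

lemma st_C1_D1 {a : ℕ} {L : List ℕ} (hL : L ≠ []) (h : H2four ((a + 1) :: L)) :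
    P2 ((a + 1) :: L) (Drop (qq 4) (xx 4) (Lift (qq 4) (xx 4) (gD1 (qq 4) (xx 4)))) :=
  P2_off hL (rel_C1_D1 (qq 4) (xx 4))
    (P2_add (P2_smul (ep4_mul (ep4_pow ep4_q 1) (ep4_es 1)) (h _ IsGen4.S2)) (P2_smul (ep4_pow ep4_q 1) (h _ IsGen4.X02)))

lemma st_C1_D2 {a : ℕ} {L : List ℕ} (hL : L ≠ []) (h : H2four ((a + 1) :: L)) :
    P2 ((a + 1) :: L) (Drop (qq 4) (xx 4) (Lift (qq 4) (xx 4) (gD2 (qq 4) (xx 4)))) :=
  P2_off hL (rel_C1_D2 (qq 4) (xx 4))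
    (P2_smul ep4_one (h _ IsGen4.X12))

lemma st_C1_D3 {a : ℕ} {L : List ℕ} (hL : L ≠ []) (h : H2four ((a + 1) :: L)) :
    P2 ((a + 1) :: L) (Drop (qq 4) (xx 4) (Lift (qq 4) (xx 4) (gD3 (qq 4) (xx 4)))) :=
  P2_off hL (rel_C1_D3 (qq 4) (xx 4))
    (P2_smul (ep4_mul (ep4_pow ep4_q 3) (ep4_es 4)) (h _ IsGen4.S1))

lemma st_C1_X01 {a : ℕ} {L : List ℕ} (hL : L ≠ []) (h : H2four ((a + 1) :: L)) :
    P2 ((a + 1) :: L) (Drop (qq 4) (xx 4) (Lift (qq 4) (xx 4) (gX01 (qq 4) (xx 4)))) :=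
  P2_off hL (rel_C1_X01 (qq 4) (xx 4))
    (P2_smul (ep4_add ep4_one (ep4_pow ep4_q 1)) (h _ IsGen4.X12))

lemma st_C1_X02 {a : ℕ} {L : List ℕ} (hL : L ≠ []) (h : H2four ((a + 1) :: L)) :
    P2 ((a + 1) :: L) (Drop (qq 4) (xx 4) (Lift (qq 4) (xx 4) (gX02 (qq 4) (xx 4)))) :=
  P2_off hL (rel_C1_X02 (qq 4) (xx 4))
    (P2_smul (ep4_mul (ep4_add (ep4_pow ep4_q 3) (ep4_pow ep4_q 4)) (ep4_es 4)) (h _ IsGen4.S1))

lemma st_C1_X12 {a : ℕ} {L : List ℕ} (hL : L ≠ []) (h : H2four ((a + 1) :: L)) :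
    P2 ((a + 1) :: L) (Drop (qq 4) (xx 4) (Lift (qq 4) (xx 4) (gX12 (qq 4) (xx 4)))) :=
  P2_off hL (rel_C1_X12 (qq 4) (xx 4))
    (P2_smul (ep4_mul (ep4_add (ep4_pow ep4_q 4) (ep4_pow ep4_q 5)) (ep4_es 4)) (h _ IsGen4.X01))

lemma st_C1_T11 {a : ℕ} {L : List ℕ} (hL : L ≠ []) (h : H2four ((a + 1) :: L)) :
    P2 ((a + 1) :: L) (Drop (qq 4) (xx 4) (Lift (qq 4) (xx 4) (gT11 (qq 4) (xx 4)))) :=
  P2_off hL (rel_C1_T11 (qq 4) (xx 4))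
    (P2_add (P2_add (P2_add (P2_smul (ep4_mul (ep4_mul (ep4_pow ep4_q 5) (ep4_es 4)) (ep4_es 1)) (h _ IsGen4.D0)) (P2_smul (ep4_mul (ep4_add (ep4_pow ep4_q 4) (ep4_pow ep4_q 4)) (ep4_es 4)) (h _ IsGen4.S1))) (P2_smul (ep4_mul (ep4_pow ep4_q 3) (ep4_es 3)) (h _ IsGen4.S2))) (P2_smul (ep4_mul (ep4_pow ep4_q 3) (ep4_es 2)) (h _ IsGen4.X02)))

lemma st_C1_T12 {a : ℕ} {L : List ℕ} (hL : L ≠ []) (h : H2four ((a + 1) :: L)) :
    P2 ((a + 1) :: L) (Drop (qq 4) (xx 4) (Lift (qq 4) (xx 4) (gT12 (qq 4) (xx 4)))) :=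
  P2_off hL (rel_C1_T12 (qq 4) (xx 4))
    (P2_smul (ep4_mul (ep4_pow ep4_q 4) (ep4_es 4)) (h _ IsGen4.X01))

lemma st_C1_T22 {a : ℕ} {L : List ℕ} (hL : L ≠ []) (h : H2four ((a + 1) :: L)) :
    P2 ((a + 1) :: L) (Drop (qq 4) (xx 4) (Lift (qq 4) (xx 4) (gT22 (qq 4) (xx 4)))) :=
  P2_off hL (rel_C1_T22 (qq 4) (xx 4))
    (P2_add (P2_smul (ep4_mul (ep4_mul (ep4_pow ep4_q 7) (ep4_es 4)) (ep4_es 3)) (h _ IsGen4.D0)) (P2_smul (ep4_mul (ep4_pow ep4_q 5) (ep4_es 4)) (h _ IsGen4.X02)))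

lemma st_C2_S1 {a : ℕ} {L : List ℕ} (hL : L ≠ []) (h : H2four ((a + 1) :: L)) :
    P2 ((a + 1) :: L) (Drop (qq 4) (xx 4) (Rot (qq 4) (xx 4) (Lift (qq 4) (xx 4) (gS1 (qq 4) (xx 4))))) :=
  P2_off hL (rel_C2_S1 (qq 4) (xx 4))
    (P2_add (P2_smul (ep4_mul (ep4_pow ep4_q 5) (ep4_es 4)) (h _ IsGen4.D0)) (P2_smul (ep4_pow ep4_q 2) (h _ IsGen4.T12)))

lemma st_C2_S2 {a : ℕ} {L : List ℕ} (hL : L ≠ []) (h : H2four ((a + 1) :: L)) :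
    P2 ((a + 1) :: L) (Drop (qq 4) (xx 4) (Rot (qq 4) (xx 4) (Lift (qq 4) (xx 4) (gS2 (qq 4) (xx 4))))) :=
  P2_off hL (rel_C2_S2 (qq 4) (xx 4))
    (P2_smul (ep4_mul (ep4_pow ep4_q 5) (ep4_es 4)) (h _ IsGen4.S1))

lemma st_C2_D0 {a : ℕ} {L : List ℕ} (hL : L ≠ []) (h : H2four ((a + 1) :: L)) :
    P2 ((a + 1) :: L) (Drop (qq 4) (xx 4) (Rot (qq 4) (xx 4) (Lift (qq 4) (xx 4) (gD0 (qq 4) (xx 4))))) :=
  P2_off hL (rel_C2_D0 (qq 4) (xx 4))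
    (P2_smul (ep4_add (ep4_pow ep4_q 2) (ep4_pow ep4_q 3)) (h _ IsGen4.D3))

lemma st_C2_D1 {a : ℕ} {L : List ℕ} (hL : L ≠ []) (h : H2four ((a + 1) :: L)) :
    P2 ((a + 1) :: L) (Drop (qq 4) (xx 4) (Rot (qq 4) (xx 4) (Lift (qq 4) (xx 4) (gD1 (qq 4) (xx 4))))) :=
  P2_off hL (rel_C2_D1 (qq 4) (xx 4))
    (P2_smul (ep4_add (ep4_pow ep4_q 1) (ep4_pow ep4_q 2)) (h _ IsGen4.T12))

lemma st_C2_D2 {a : ℕ} {L : List ℕ} (hL : L ≠ []) (h : H2four ((a + 1) :: L)) :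
    P2 ((a + 1) :: L) (Drop (qq 4) (xx 4) (Rot (qq 4) (xx 4) (Lift (qq 4) (xx 4) (gD2 (qq 4) (xx 4))))) :=
  P2_off hL (rel_C2_D2 (qq 4) (xx 4))
    (P2_smul (ep4_add ep4_one (ep4_pow ep4_q 1)) (h _ IsGen4.T22))

lemma st_C2_D3 {a : ℕ} {L : List ℕ} (hL : L ≠ []) (h : H2four ((a + 1) :: L)) :
    P2 ((a + 1) :: L) (Drop (qq 4) (xx 4) (Rot (qq 4) (xx 4) (Lift (qq 4) (xx 4) (gD3 (qq 4) (xx 4))))) :=
  P2_off hL (rel_C2_D3 (qq 4) (xx 4))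
    (P2_smul (ep4_mul (ep4_add (ep4_pow ep4_q 3) (ep4_pow ep4_q 4)) (ep4_es 4)) (h _ IsGen4.S2))

lemma st_C2_X01 {a : ℕ} {L : List ℕ} (hL : L ≠ []) (h : H2four ((a + 1) :: L)) :
    P2 ((a + 1) :: L) (Drop (qq 4) (xx 4) (Rot (qq 4) (xx 4) (Lift (qq 4) (xx 4) (gX01 (qq 4) (xx 4))))) :=
  P2_off hL (rel_C2_X01 (qq 4) (xx 4))
    (P2_add (P2_add (P2_smul (ep4_mul (ep4_pow ep4_q 5) (ep4_es 4)) (h _ IsGen4.D1)) (P2_smul (ep4_mul (ep4_pow ep4_q 4) (ep4_es 2)) (h _ IsGen4.D3))) (P2_smul (ep4_pow ep4_q 1) (h _ IsGen4.T22)))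

lemma st_C2_X02 {a : ℕ} {L : List ℕ} (hL : L ≠ []) (h : H2four ((a + 1) :: L)) :
    P2 ((a + 1) :: L) (Drop (qq 4) (xx 4) (Rot (qq 4) (xx 4) (Lift (qq 4) (xx 4) (gX02 (qq 4) (xx 4))))) :=
  P2_off hL (rel_C2_X02 (qq 4) (xx 4))
    (P2_add (P2_smul (ep4_mul (ep4_pow ep4_q 5) (ep4_es 4)) (h _ IsGen4.D2)) (P2_smul (ep4_mul (ep4_pow ep4_q 4) (ep4_es 4)) (h _ IsGen4.S2)))

lemma st_C2_X12 {a : ℕ} {L : List ℕ} (hL : L ≠ []) (h : H2four ((a + 1) :: L)) :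
    P2 ((a + 1) :: L) (Drop (qq 4) (xx 4) (Rot (qq 4) (xx 4) (Lift (qq 4) (xx 4) (gX12 (qq 4) (xx 4))))) :=
  P2_off hL (rel_C2_X12 (qq 4) (xx 4))
    (P2_smul (ep4_mul (ep4_pow ep4_q 5) (ep4_es 4)) (h _ IsGen4.T11))

lemma st_C2_T11 {a : ℕ} {L : List ℕ} (hL : L ≠ []) (h : H2four ((a + 1) :: L)) :
    P2 ((a + 1) :: L) (Drop (qq 4) (xx 4) (Rot (qq 4) (xx 4) (Lift (qq 4) (xx 4) (gT11 (qq 4) (xx 4))))) :=
  P2_off hL (rel_C2_T11 (qq 4) (xx 4))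
    (P2_add (P2_add (P2_add (P2_smul (ep4_mul (ep4_pow ep4_q 5) (ep4_es 3)) (h _ IsGen4.D3)) (P2_smul (ep4_mul (ep4_add (ep4_pow ep4_q 4) (ep4_pow ep4_q 5)) (ep4_es 4)) (h _ IsGen4.S2))) (P2_smul (ep4_mul (ep4_pow ep4_q 2) (ep4_es 1)) (h _ IsGen4.T22))) (P2_smul (ep4_mul (ep4_pow ep4_q 5) (ep4_es 4)) (h _ IsGen4.X01)))

lemma st_C2_T12 {a : ℕ} {L : List ℕ} (hL : L ≠ []) (h : H2four ((a + 1) :: L)) :
    P2 ((a + 1) :: L) (Drop (qq 4) (xx 4) (Rot (qq 4) (xx 4) (Lift (qq 4) (xx 4) (gT12 (qq 4) (xx 4))))) :=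
  P2_off hL (rel_C2_T12 (qq 4) (xx 4))
    (P2_add (P2_smul (ep4_mul (ep4_mul (ep4_pow ep4_q 5) (ep4_es 4)) (ep4_es 1)) (h _ IsGen4.S2)) (P2_smul (ep4_mul (ep4_pow ep4_q 5) (ep4_es 4)) (h _ IsGen4.X02)))

lemma st_C2_T22 {a : ℕ} {L : List ℕ} (hL : L ≠ []) (h : H2four ((a + 1) :: L)) :
    P2 ((a + 1) :: L) (Drop (qq 4) (xx 4) (Rot (qq 4) (xx 4) (Lift (qq 4) (xx 4) (gT22 (qq 4) (xx 4))))) :=
  P2_off hL (rel_C2_T22 (qq 4) (xx 4))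
    (P2_smul (ep4_mul (ep4_pow ep4_q 5) (ep4_es 4)) (h _ IsGen4.X12))

lemma st_C4_S1 {a : ℕ} {L : List ℕ} (hL : L ≠ []) (h : H2four ((a + 1) :: L)) :
    P2 ((a + 1) :: L) (Drop (qq 4) (xx 4) (Rot (qq 4) (xx 4) (Rot (qq 4) (xx 4) (Rot (qq 4) (xx 4) (Lift (qq 4) (xx 4) (gS1 (qq 4) (xx 4))))))) :=
  P2_off hL (rel_C4_S1 (qq 4) (xx 4))
    (P2_add (P2_smul (ep4_mul (ep4_pow ep4_q 7) (ep4_es 4)) (h _ IsGen4.D2)) (P2_smul (ep4_mul (ep4_pow ep4_q 6) (ep4_es 4)) (h _ IsGen4.S2)))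

lemma st_C4_S2 {a : ℕ} {L : List ℕ} (hL : L ≠ []) (h : H2four ((a + 1) :: L)) :
    P2 ((a + 1) :: L) (Drop (qq 4) (xx 4) (Rot (qq 4) (xx 4) (Rot (qq 4) (xx 4) (Rot (qq 4) (xx 4) (Lift (qq 4) (xx 4) (gS2 (qq 4) (xx 4))))))) :=
  P2_off hL (rel_C4_S2 (qq 4) (xx 4))
    (P2_smul (ep4_mul (ep4_add (ep4_pow ep4_q 7) (ep4_pow ep4_q 8)) (ep4_es 4)) (h _ IsGen4.D3))

lemma st_C4_D0 {a : ℕ} {L : List ℕ} (hL : L ≠ []) (h : H2four ((a + 1) :: L)) :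
    P2 ((a + 1) :: L) (Drop (qq 4) (xx 4) (Rot (qq 4) (xx 4) (Rot (qq 4) (xx 4) (Rot (qq 4) (xx 4) (Lift (qq 4) (xx 4) (gD0 (qq 4) (xx 4))))))) :=
  P2_off hL (rel_C4_D0 (qq 4) (xx 4))
    (P2_smul (ep4_mul (ep4_pow ep4_q 6) (ep4_es 4)) (h _ IsGen4.S1))

lemma st_C4_D1 {a : ℕ} {L : List ℕ} (hL : L ≠ []) (h : H2four ((a + 1) :: L)) :
    P2 ((a + 1) :: L) (Drop (qq 4) (xx 4) (Rot (qq 4) (xx 4) (Rot (qq 4) (xx 4) (Rot (qq 4) (xx 4) (Lift (qq 4) (xx 4) (gD1 (qq 4) (xx 4))))))) :=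
  P2_off hL (rel_C4_D1 (qq 4) (xx 4))
    (P2_smul (ep4_mul (ep4_pow ep4_q 6) (ep4_es 4)) (h _ IsGen4.X01))

lemma st_C4_D2 {a : ℕ} {L : List ℕ} (hL : L ≠ []) (h : H2four ((a + 1) :: L)) :
    P2 ((a + 1) :: L) (Drop (qq 4) (xx 4) (Rot (qq 4) (xx 4) (Rot (qq 4) (xx 4) (Rot (qq 4) (xx 4) (Lift (qq 4) (xx 4) (gD2 (qq 4) (xx 4))))))) :=
  P2_off hL (rel_C4_D2 (qq 4) (xx 4))
    (P2_add (P2_smul (ep4_mul (ep4_mul (ep4_pow ep4_q 8) (ep4_es 4)) (ep4_es 3)) (h _ IsGen4.D0)) (P2_smul (ep4_mul (ep4_pow ep4_q 6) (ep4_es 4)) (h _ IsGen4.X02)))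

lemma st_C4_D3 {a : ℕ} {L : List ℕ} (hL : L ≠ []) (h : H2four ((a + 1) :: L)) :
    P2 ((a + 1) :: L) (Drop (qq 4) (xx 4) (Rot (qq 4) (xx 4) (Rot (qq 4) (xx 4) (Rot (qq 4) (xx 4) (Lift (qq 4) (xx 4) (gD3 (qq 4) (xx 4))))))) :=
  P2_off hL (rel_C4_D3 (qq 4) (xx 4))
    (P2_smul (ep4_mul (ep4_mul (ep4_add (ep4_pow ep4_q 8) (ep4_pow ep4_q 9)) (ep4_es 4)) (ep4_es 4)) (h _ IsGen4.D0))

lemma st_C4_X01 {a : ℕ} {L : List ℕ} (hL : L ≠ []) (h : H2four ((a + 1) :: L)) :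
    P2 ((a + 1) :: L) (Drop (qq 4) (xx 4) (Rot (qq 4) (xx 4) (Rot (qq 4) (xx 4) (Rot (qq 4) (xx 4) (Lift (qq 4) (xx 4) (gX01 (qq 4) (xx 4))))))) :=
  P2_off hL (rel_C4_X01 (qq 4) (xx 4))
    (P2_smul (ep4_mul (ep4_pow ep4_q 6) (ep4_es 4)) (h _ IsGen4.T11))

lemma st_C4_X02 {a : ℕ} {L : List ℕ} (hL : L ≠ []) (h : H2four ((a + 1) :: L)) :
    P2 ((a + 1) :: L) (Drop (qq 4) (xx 4) (Rot (qq 4) (xx 4) (Rot (qq 4) (xx 4) (Rot (qq 4) (xx 4) (Lift (qq 4) (xx 4) (gX02 (qq 4) (xx 4))))))) :=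
  P2_off hL (rel_C4_X02 (qq 4) (xx 4))
    (P2_add (P2_smul (ep4_mul (ep4_mul (ep4_pow ep4_q 9) (ep4_es 4)) (ep4_es 4)) (h _ IsGen4.D0)) (P2_smul (ep4_mul (ep4_pow ep4_q 6) (ep4_es 4)) (h _ IsGen4.T12)))

lemma st_C4_X12 {a : ℕ} {L : List ℕ} (hL : L ≠ []) (h : H2four ((a + 1) :: L)) :
    P2 ((a + 1) :: L) (Drop (qq 4) (xx 4) (Rot (qq 4) (xx 4) (Rot (qq 4) (xx 4) (Rot (qq 4) (xx 4) (Lift (qq 4) (xx 4) (gX12 (qq 4) (xx 4))))))) :=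
  P2_off hL (rel_C4_X12 (qq 4) (xx 4))
    (P2_add (P2_add (P2_smul (ep4_mul (ep4_mul (ep4_pow ep4_q 10) (ep4_es 4)) (ep4_es 4)) (h _ IsGen4.D1)) (P2_smul (ep4_mul (ep4_mul (ep4_pow ep4_q 9) (ep4_es 4)) (ep4_es 2)) (h _ IsGen4.D3))) (P2_smul (ep4_mul (ep4_pow ep4_q 6) (ep4_es 4)) (h _ IsGen4.T22)))

lemma st_C4_T11 {a : ℕ} {L : List ℕ} (hL : L ≠ []) (h : H2four ((a + 1) :: L)) :
    P2 ((a + 1) :: L) (Drop (qq 4) (xx 4) (Rot (qq 4) (xx 4) (Rot (qq 4) (xx 4) (Rot (qq 4) (xx 4) (Lift (qq 4) (xx 4) (gT11 (qq 4) (xx 4))))))) :=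
  P2_off hL (rel_C4_T11 (qq 4) (xx 4))
    (P2_add (P2_add (P2_add (P2_smul (ep4_mul (ep4_mul (ep4_add (ep4_pow ep4_q 9) (ep4_pow ep4_q 10)) (ep4_es 4)) (ep4_es 4)) (h _ IsGen4.D0)) (P2_smul (ep4_mul (ep4_mul (ep4_pow ep4_q 9) (ep4_es 4)) (ep4_es 3)) (h _ IsGen4.D1))) (P2_smul (ep4_mul (ep4_mul (ep4_pow ep4_q 8) (ep4_es 4)) (ep4_es 1)) (h _ IsGen4.D3))) (P2_smul (ep4_mul (ep4_pow ep4_q 6) (ep4_es 4)) (h _ IsGen4.X12)))

lemma st_C4_T12 {a : ℕ} {L : List ℕ} (hL : L ≠ []) (h : H2four ((a + 1) :: L)) :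
    P2 ((a + 1) :: L) (Drop (qq 4) (xx 4) (Rot (qq 4) (xx 4) (Rot (qq 4) (xx 4) (Rot (qq 4) (xx 4) (Lift (qq 4) (xx 4) (gT12 (qq 4) (xx 4))))))) :=
  P2_off hL (rel_C4_T12 (qq 4) (xx 4))
    (P2_smul (ep4_mul (ep4_mul (ep4_add (ep4_pow ep4_q 9) (ep4_pow ep4_q 10)) (ep4_es 4)) (ep4_es 4)) (h _ IsGen4.D1))

lemma st_C4_T22 {a : ℕ} {L : List ℕ} (hL : L ≠ []) (h : H2four ((a + 1) :: L)) :
    P2 ((a + 1) :: L) (Drop (qq 4) (xx 4) (Rot (qq 4) (xx 4) (Rot (qq 4) (xx 4) (Rot (qq 4) (xx 4) (Lift (qq 4) (xx 4) (gT22 (qq 4) (xx 4))))))) :=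
  P2_off hL (rel_C4_T22 (qq 4) (xx 4))
    (P2_smul (ep4_mul (ep4_mul (ep4_add (ep4_pow ep4_q 10) (ep4_pow ep4_q 11)) (ep4_es 4)) (ep4_es 4)) (h _ IsGen4.D2))

lemma H2four_one {L : List ℕ} (hL : L ≠ []) (h : H1four L) : H2four (1 :: L) := by
  intro G hG
  apply P2_one hL
  cases hG
  · exact st_cl2_S1 hL h
  · exact st_cl2_S2 hL h
  · exact st_cl2_D0 hL h
  · exact st_cl2_D1 hL h
  · exact st_cl2_D2 hL h
  · exact st_cl2_D3 hL h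
  · exact st_cl2_X01 hL h
  · exact st_cl2_X02 hL h
  · exact st_cl2_X12 hL h
  · exact st_cl2_T11 hL h
  · exact st_cl2_T12 hL h
  · exact st_cl2_T22 hL h

lemma H2four_two {b : ℕ} {L : List ℕ} (hL : L ≠ []) (h : H2four ((b + 1) :: L)) :
    H2four (2 :: (b + 1) :: L) := by
  intro G hG
  apply P2_two (two_le_length_cons b hL)
  cases hG
  · exact st_Om_S1 hL h
  · exact st_Om_S2 hL h
  · exact st_Om_D0 hL h
  · exact st_Om_D1 hL h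
  · exact st_Om_D2 hL h
  · exact st_Om_D3 hL h
  · exact st_Om_X01 hL h
  · exact st_Om_X02 hL h
  · exact st_Om_X12 hL h
  · exact st_Om_T11 hL h
  · exact st_Om_T12 hL h
  · exact st_Om_T22 hL h

lemma st_C {a : ℕ} {L : List ℕ} (hL : L ≠ []) (h : H2four ((a + 1) :: L)) :
    ∀ (t : ℕ) (G : Fin 4 → Fin 4 → MvPolynomial (Fin 4) ℤ[X]), IsGen4 G →
      P2 ((a + 1) :: L) (Drop (qq 4) (xx 4) ((Rot (qq 4) (xx 4))^[t] (Lift (qq 4) (xx 4) G)))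
  | 0, G, hG => by
      cases hG
      · exact st_C1_S1 hL h
      · exact st_C1_S2 hL h
      · exact st_C1_D0 hL h
      · exact st_C1_D1 hL h
      · exact st_C1_D2 hL h
      · exact st_C1_D3 hL h
      · exact st_C1_X01 hL h
      · exact st_C1_X02 hL h
      · exact st_C1_X12 hL h
      · exact st_C1_T11 hL h
      · exact st_C1_T12 hL h
      · exact st_C1_T22 hL h
  | 1, G, hG => by
      cases hG
      · exact st_C2_S1 hL h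
      · exact st_C2_S2 hL h
      · exact st_C2_D0 hL h
      · exact st_C2_D1 hL h
      · exact st_C2_D2 hL h
      · exact st_C2_D3 hL h
      · exact st_C2_X01 hL h
      · exact st_C2_X02 hL h
      · exact st_C2_X12 hL h
      · exact st_C2_T11 hL h
      · exact st_C2_T12 hL h
      · exact st_C2_T22 hL h
  | 2, G, hG => st_C3 hL h G hG
  | 3, G, hG => by
      cases hG
      · exact st_C4_S1 hL h
      · exact st_C4_S2 hL h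
      · exact st_C4_D0 hL h
      · exact st_C4_D1 hL h
      · exact st_C4_D2 hL h
      · exact st_C4_D3 hL h
      · exact st_C4_X01 hL h
      · exact st_C4_X02 hL h
      · exact st_C4_X12 hL h
      · exact st_C4_T11 hL h
      · exact st_C4_T12 hL h
      · exact st_C4_T22 hL h
  | t + 4, G, hG => by
      have ih := st_C hL h t G hG
      rw [add_comm t 4, Function.iterate_add_apply]
      exact P2_off hL (drop_rot4 (qq 4) (xx 4) _)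
        (P2_smul (ep4_mul (ep4_pow ep4_q 6) (ep4_es 4)) ih)

lemma H3four_two {b : ℕ} {L : List ℕ} (hL : L ≠ []) (h : H2four ((b + 1) :: L)) :
    H3four (2 :: (b + 1) :: L) := by
  intro G hG t
  apply P3_two (two_le_length_cons b hL)
  exact st_C hL h t G hG

lemma H3four_three {L : List ℕ} (hL : 3 ≤ L.length) (h : H3four L) : H3four (3 :: L) := by
  intro G hG t
  apply P3_three hL
  have h1 := h G hG (t + 1)
  rw [Function.iterate_succ_apply'] at h1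
  exact h1

lemma H2four_three {L : List ℕ} (hL : 3 ≤ L.length) (h : H3four L) : H2four (3 :: L) := by
  intro G hG
  exact P2_three hL (h G hG 0)

lemma H1four_of_H2 {a : ℕ} {L : List ℕ} (hL : L ≠ []) (h : H2four ((a + 1) :: L)) :
    H1four ((a + 1) :: L) := by
  intro s
  have hne : ((a + 1) :: L) ≠ [] := by simp
  rw [PhiP_eq_hd1 _ _ _ hne s, ← csumT_hd2_fst _ _ _ (two_le_length_cons a hL)]
  show P2 ((a + 1) :: L) (fun u _ => Dd (qq 4) (xx 4) s u)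
  by_cases hs : s ≤ 3
  · interval_cases s
    · exact P2_off hL (gD0_eq (qq 4) (xx 4)) (h _ IsGen4.D0)
    · exact P2_off hL (gD1_eq (qq 4) (xx 4)) (h _ IsGen4.D1)
    · exact P2_off hL (gD2_eq (qq 4) (xx 4)) (h _ IsGen4.D2)
    · exact P2_off hL (gD3_eq (qq 4) (xx 4)) (h _ IsGen4.D3)
  · exact P2_off hL (fun u _ _ => Dd4_zero (qq 4) (xx 4) s (by omega) u) (P2_zero _)

lemma H1four_one {L : List ℕ} (hL : L ≠ []) (h : H1four L) : H1four (1 :: L) := by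
  intro t
  have h1 := transfer (qq_ne_one 4) (xx 4) 0 t L hL
  have e : descFrom 1 (0 + 1) ++ L = 1 :: L := by simp [descFrom]
  rw [e] at h1
  rw [h1]
  apply ep4_mul (ep4_of (ep_qf 0))
  apply ep4_sum
  intro i _
  apply ep4_add
  · apply ep4_mul _ (h _)
    apply ep4_mul _ (ep4_es _)
    apply ep4_mul _ (ep4_gs _)
    exact ep4_pow ep4_q i
  · apply ep4_mul _ (h _)
    apply ep4_mul _ (ep4_es _)
    apply ep4_mul _ (ep4_gs _)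
    exact ep4_pow ep4_q (0 + 1)

theorem ladder4 : ∀ d : List ℕ, IsHess d → (∀ a ∈ d, a ≤ 3) →
    H1four d ∧ (1 ≤ d.headD 0 → H2four d) ∧ (2 ≤ d.headD 0 → H3four d)
  | [], _, _ => by
      refine ⟨?_, fun h => by simp at h, fun h => by simp at h⟩
      intro s
      have e : PhiP (qq 4) (xx 4) s [] = es (xx 4) s := by
        unfold PhiP; simp only [csumT, wfac_nil, mul_one]
      rw [e]
      exact ep4_es s
  | a :: d, hH, h3 => by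
      have hHd := isHess_tail a d hH
      have h3d : ∀ b ∈ d, b ≤ 3 := fun b hb => h3 b (List.mem_cons_of_mem _ hb)
      obtain ⟨ih1, ih2, ih3⟩ := ladder4 d hHd h3d
      have ha : a ≤ 3 := h3 a List.mem_cons_self
      have h0 := hH 0 (by simp)
      simp only [List.getD_cons_zero, List.length_cons, zero_add, List.getD_cons_succ] at h0
      interval_cases a
      · refine ⟨?_, fun h => by simp at h, fun h => by simp at h⟩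
        intro s
        rw [PhiP_cons_zero (qq_ne_one 4) (xx 4) d s]
        have h0' : EP4 (chiL (qq 4) (xx 4) d) := by
          have := ih1 0
          rwa [PhiP_zero] at this
        exact ep4_mul (ep4_mul (ep4_gs _) (ep4_es _)) h0'
      · have hL : d ≠ [] := by intro h; subst h; simp at h0
        exact ⟨H1four_one hL ih1, fun _ => H2four_one hL ih1, fun h => by simp at h⟩
      · match d, ih2, h0 with
        | [], _, h0 => simp at h0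
        | [_], _, h0 => simp at h0
        | b :: c :: d', ih2, h0 =>
          simp only [List.getD_cons_zero] at h0
          obtain ⟨b', rfl⟩ : ∃ b', b = b' + 1 := ⟨b - 1, by omega⟩
          have hL : (c :: d') ≠ [] := by simp
          have ih2' := ih2 (by simp)
          have hnew := H2four_two hL ih2'
          exact ⟨H1four_of_H2 (a := 1) (by simp) hnew, fun _ => hnew,
            fun _ => H3four_two hL ih2'⟩
      · have hL : 3 ≤ d.length := by omega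
        have hd2 : 2 ≤ d.headD 0 := by
          cases d with
          | nil => simp at hL
          | cons b d' =>
            simp only [List.getD_cons_zero] at h0
            simp only [List.headD_cons]
            omega
        have ih3' := ih3 hd2
        have hne : d ≠ [] := by intro h; subst h; simp at hL
        have hnew := H2four_three hL ih3'
        exact ⟨H1four_of_H2 (a := 2) hne hnew, fun _ => hnew, fun _ => H3four_three hL ih3'⟩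

/-- for every natural unit interval graph, the chromatic quasisymmetric function in four
variables is a polynomial in `e_1, e_2, e_3, e_4` with coefficients in `ℕ[q]` -/
theorem epos_four (d : List ℕ) (hH : IsHess d) :
    ∃ F : MvPolynomial (Fin 4) ℕ[X], chromQSym 4 d = evFour F := by
  by_cases h : ∀ a ∈ d, a ≤ 3
  · obtain ⟨F, hF⟩ := (ladder4 d hH h).1 0
    refine ⟨subFour F, ?_⟩
    rw [evFour_subFour, chromQSym_eq, ← PhiP_zero, hF]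
  · obtain ⟨a, ha, ha3⟩ : ∃ a ∈ d, 3 < a := by
      by_contra hcon
      apply h
      intro a ha
      by_contra h'
      exact hcon ⟨a, ha, by omega⟩
    obtain ⟨i, hi, hia⟩ := List.mem_iff_getElem.mp ha
    refine ⟨0, ?_⟩
    rw [map_zero]
    apply chromQSym_four_eq_zero d hH i hi
    rw [List.getD_eq_getElem _ _ hi, hia]
    omega

end Vale.Agent.Lib.P066
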