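import Mathlib
import Vale.Agent.Lib.P066.Ladder

namespace Vale.Agent.Lib.P066

open Finset Polynomial

/-- every block of the graph (the part between two consecutive vertices `c < c'` over which no
edge passes) either has pairwise adjacent interior vertices or consists of vertices with at
most two later neighbours -/
def BlockCond (d : List ℕ) : Prop :=
  ∀ c c', c < c' → c' < d.length → Sep d c → Sep d c' →
    (∀ e, c < e → e < c' → ¬ Sep d e) →
    (∀ a b, c < a → a < b → b < c' → b ≤ a + d.getD a 0) ∨
    (∀ i, c ≤ i → i < c' → d.getD i 0 ≤ 2)

/-- pointed positivity is preserved by any link -/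
theorem epos_link (B : Link) (L : List ℕ) (hL : L ≠ []) (h : H1 L) : H1 (B.degs ++ L) := by
  intro k
  cases B with
  | full n => exact epos_transfer n _ hL h k
  | gap s g r => exact epos_transferG s g r _ hL h k
  | lap p o t =>
    cases p with
    | zero =>
      have h' := epos_transferB o t _ hL h k
      simpa [Link.degs, descFrom] using h'
    | succ j => exact epos_transferL j o t _ hL h k

/-- pointed positivity is preserved by a strip of vertices with at most two later neighbours
that ends at a vertex over which no edge passes -/
theorem strip_H1 : ∀ (S L : List ℕ), (∀ i, i < S.length → S.getD i 0 ≤ 2) →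
    IsHess (S ++ L) → (∀ i, i < S.length → i + S.getD i 0 ≤ S.length) → L ≠ [] → H1 L →
    H1 (S ++ L) ∧ (S ≠ [] → 1 ≤ S.headD 0 → H2 (S ++ L))
  | [], L, _, _, _, _, h => ⟨h, fun hne => absurd rfl hne⟩
  | a :: S, L, h2, hH, hsep, hL, h => by
      have hHd : IsHess (S ++ L) := isHess_tail a (S ++ L) hH
      have h2d : ∀ i, i < S.length → S.getD i 0 ≤ 2 := by
        intro i hi
        have := h2 (i + 1) (by simp only [List.length_cons]; omega)
        simpa only [List.getD_cons_succ] using this
      have hsepd : ∀ i, i < S.length → i + S.getD i 0 ≤ S.length := by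
        intro i hi
        have := hsep (i + 1) (by simp only [List.length_cons]; omega)
        simp only [List.getD_cons_succ, List.length_cons] at this
        omega
      obtain ⟨ih1, ih2⟩ := strip_H1 S L h2d hHd hsepd hL h
      have ha : a ≤ 2 := by
        have := h2 0 (by simp)
        simpa only [List.getD_cons_zero] using this
      have h0 := hH 0 (by simp)
      simp only [List.cons_append, List.getD_cons_zero, List.length_cons, zero_add,
        List.getD_cons_succ] at h0
      have hs0 := hsep 0 (by simp)
      simp only [List.getD_cons_zero, List.length_cons, zero_add] at hs0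
      have hne : S ++ L ≠ [] := by simp [hL]
      rw [List.cons_append]
      interval_cases a
      · refine ⟨?_, fun _ h' => by simp at h'⟩
        intro s
        have e : ∀ N, PhiP (qq N) (xx N) s (0 :: (S ++ L))
            = gs (qq N) (s + 1) * es (xx N) (s + 1) * chiL (qq N) (xx N) (S ++ L) :=
          fun N => PhiP_cons_zero (qq_ne_one N) (xx N) (S ++ L) s
        simp only [e]
        have h0' : EPos (fun N => chiL (qq N) (xx N) (S ++ L)) := by
          have := ih1 0
          simpa only [PhiP_zero] using this
        exact ep_mul (ep_mul (ep_gs _) (ep_es _)) h0'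
      · refine ⟨?_, fun _ _ => step_one_H2 hne ih1⟩
        intro s
        have := epos_transfer 0 (S ++ L) hne ih1 s
        simpa [descFrom] using this
      · have hlen : 2 ≤ (S ++ L).length := by omega
        have hSne : S ≠ [] := by
          intro hS
          subst hS
          simp at hs0
        have hd1 : 1 ≤ S.headD 0 := by
          cases S with
          | nil => exact absurd rfl hSne
          | cons b S' =>
            simp only [List.cons_append, List.getD_cons_zero] at h0
            simp only [List.headD_cons]
            omega
        have ih2' := ih2 hSne hd1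
        exact ⟨step_two_H1 hlen ih2', fun _ _ => step_two_H2 hlen ih1 ih2'⟩

/-- a block whose interior vertices are pairwise adjacent is a link -/
theorem char_block (d : List ℕ) (hH : IsHess d) (w : ℕ) (hw1 : 1 ≤ w) (hwn : w + 1 ≤ d.length)
    (hwS : Sep d w) (F2 : ∀ a, 1 ≤ a → a < w → w ≤ a + d.getD a 0 + 1)
    (hs1 : 1 ≤ d.getD 0 0) (hcw : 1 ≤ d.getD (w - 1) 0) :
    ∃ B : Link, d.take w = B.degs := by
  classical
  have F1 : ∀ a, a < w → a + d.getD a 0 ≤ w := fun a ha => hwS a ha
  have F3 : (w - 1) + d.getD (w - 1) 0 = w := by
    have h2 := F1 (w - 1) (by omega)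
    omega
  obtain ⟨m, rfl⟩ : ∃ m, w = m + 1 := ⟨w - 1, by omega⟩
  simp only [Nat.add_sub_cancel] at F3
  have hsw : d.getD 0 0 ≤ m + 1 := by
    have h1 := F1 0 (by omega)
    omega
  rcases Nat.eq_zero_or_pos m with hm | hm
  · subst hm
    obtain ⟨B, hB⟩ := char_link (d.getD 0 0) 0 0 hs1 hsw (le_refl _) (by omega) (by omega)
    refine ⟨B, ?_⟩
    rw [hB]
    apply char_take d (d.getD 0 0) 0 0 (le_refl _) (by omega) rfl
    · intro a ha1 ha2
      omega
    · intro a ha1 ha2 ha3
      omega
  · have hex2 : ∃ a, 1 ≤ a ∧ a + d.getD a 0 = m + 1 := ⟨m, hm, F3⟩
    obtain ⟨a0, ⟨ha01, ha0⟩, ha0min⟩ :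
        ∃ a0, (1 ≤ a0 ∧ a0 + d.getD a0 0 = m + 1) ∧
          ∀ c, c < a0 → ¬ (1 ≤ c ∧ c + d.getD c 0 = m + 1) :=
      ⟨Nat.find hex2, Nat.find_spec hex2, fun c hc => Nat.find_min hex2 hc⟩
    have ha0m : a0 ≤ m := by
      by_contra hcon
      exact ha0min m (by omega) ⟨hm, F3⟩
    have hfull : d.getD 0 0 = m + 1 → m + 1 - a0 = m := by
      intro hs
      have hmono := char_mono d hH 0 1 (by omega) (by omega)
      have h1le := F1 1 (by omega)
      have hnot : ¬ (1 < a0) := by
        intro hlt
        exact ha0min 1 hlt ⟨le_refl _, by omega⟩
      omega
    obtain ⟨B, hB⟩ := char_link (d.getD 0 0) m (m + 1 - a0) hs1 hsw (by omega)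
      (by intro _; omega) hfull
    refine ⟨B, ?_⟩
    rw [hB]
    apply char_take d (d.getD 0 0) m (m + 1 - a0) (by omega) (by omega) rfl
    · intro a ha1 ha2
      have halt : a < a0 := by omega
      have h1 := F1 a (by omega)
      have h2 := F2 a ha1 (by omega)
      have h3 : ¬ (a + d.getD a 0 = m + 1) := fun h => ha0min a halt ⟨ha1, h⟩
      omega
    · intro a ha1 ha2 ha3
      have hge : a0 ≤ a := by omega
      have hmono := char_mono d hH a0 a hge (by omega)
      have h1 := F1 a (by omega)
      omega

lemma sep_drop (d : List ℕ) (w : ℕ) (hw : Sep d w) (c : ℕ) :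
    Sep (d.drop w) c ↔ Sep d (w + c) := by
  constructor
  · intro h i hi
    rcases Nat.lt_or_ge i w with hiw | hiw
    · have := hw i hiw
      omega
    · have := h (i - w) (by omega)
      rw [char_getD_drop] at this
      have e : w + (i - w) = i := by omega
      rw [e] at this
      omega
  · intro h i hi
    have := h (w + i) (by omega)
    rw [char_getD_drop]
    omega

lemma isHess_drop (d : List ℕ) (hH : IsHess d) (w : ℕ) : IsHess (d.drop w) := by
  intro i hi
  have hdl : (d.drop w).length = d.length - w := List.length_drop
  rw [hdl] at hi
  rw [char_getD_drop, char_getD_drop, hdl]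
  have h3 := hH (w + i) (by omega)
  have h4 : w + (i + 1) = w + i + 1 := rfl
  rw [h4]
  constructor
  · omega
  · omega

lemma blockCond_drop (d : List ℕ) (w : ℕ) (hw : Sep d w) (h : BlockCond d) :
    BlockCond (d.drop w) := by
  intro c c' hcc hc' hS hS' hmin
  have hdl : (d.drop w).length = d.length - w := List.length_drop
  rw [hdl] at hc'
  have h1 := h (w + c) (w + c') (by omega) (by omega) ((sep_drop d w hw c).mp hS)
    ((sep_drop d w hw c').mp hS')
    (by
      intro e he1 he2 hSe
      apply hmin (e - w) (by omega) (by omega)
      rw [sep_drop d w hw]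
      have e' : w + (e - w) = e := by omega
      rw [e']
      exact hSe)
  rcases h1 with hA | hB
  · left
    intro a b ha hab hb
    have := hA (w + a) (w + b) (by omega) (by omega) (by omega)
    rw [char_getD_drop]
    omega
  · right
    intro i hi1 hi2
    have := hB (w + i) (by omega) (by omega)
    rw [char_getD_drop]
    exact this

theorem unified_H1 : ∀ (n : ℕ) (d : List ℕ), d.length = n → IsHess d → BlockCond d → H1 d := by
  intro n
  induction n using Nat.strong_induction_on with
  | _ n ih =>
    intro d hn hH hB
    classical
    rcases d with _ | ⟨a, d'⟩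
    · intro s
      have e : ∀ N, PhiP (qq N) (xx N) s [] = es (xx N) s := by
        intro N; unfold PhiP; simp only [csumT, wfac_nil, mul_one]
      simp only [e]
      exact ep_es s
    · have hlen : (a :: d').length = d'.length + 1 := List.length_cons
      rcases Nat.eq_zero_or_pos a with ha | ha
      · subst ha
        have hS1 : Sep (0 :: d') 1 := by
          intro i hi
          have hi0 : i = 0 := by omega
          subst hi0
          simp
        have hB' : BlockCond d' := by
          have := blockCond_drop (0 :: d') 1 hS1 hB
          simpa using this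
        have ih1 : H1 d' := ih d'.length (by omega) d' rfl (isHess_tail 0 d' hH) hB'
        intro s
        have e : ∀ N, PhiP (qq N) (xx N) s (0 :: d')
            = gs (qq N) (s + 1) * es (xx N) (s + 1) * chiL (qq N) (xx N) d' :=
          fun N => PhiP_cons_zero (qq_ne_one N) (xx N) d' s
        simp only [e]
        have h0' : EPos (fun N => chiL (qq N) (xx N) d') := by
          have := ih1 0
          simpa only [PhiP_zero] using this
        exact ep_mul (ep_mul (ep_gs _) (ep_es _)) h0'
      · set d := a :: d' with hd
        have h0 := hH 0 (by rw [hlen]; omega)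
        have hd0 : d.getD 0 0 = a := by rw [hd]; rfl
        rw [hd0] at h0
        have hn2 : 2 ≤ d.length := by omega
        have hex : ∃ c, 1 ≤ c ∧ Sep d c := by
          refine ⟨d.length - 1, by omega, ?_⟩
          intro i hi
          have h1 := (hH i (by omega)).1
          omega
        obtain ⟨w, ⟨hw1, hwS⟩, hwmin⟩ :
            ∃ w, (1 ≤ w ∧ Sep d w) ∧ ∀ c, c < w → ¬ (1 ≤ c ∧ Sep d c) :=
          ⟨Nat.find hex, Nat.find_spec hex, fun c hc => Nat.find_min hex hc⟩
        have hwn : w + 1 ≤ d.length := by
          by_contra hcon
          have hlt : d.length - 1 < w := by omega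
          apply hwmin _ hlt
          refine ⟨by omega, ?_⟩
          intro i hi
          have h1 := (hH i (by omega)).1
          omega
        have hS0 : Sep d 0 := by
          intro i hi
          omega
        have halt := hB 0 w (by omega) (by omega) hS0 hwS
          (fun e he1 he2 hSe => hwmin e he2 ⟨he1, hSe⟩)
        have hdl : (d.drop w).length = d.length - w := List.length_drop
        have hLne : d.drop w ≠ [] := by
          intro h
          rw [h] at hdl
          simp at hdl
          omega
        have ihL : H1 (d.drop w) :=
          ih (d.length - w) (by omega) (d.drop w) hdl (isHess_drop d hH w)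
            (blockCond_drop d w hwS hB)
        have hsplit : d = d.take w ++ d.drop w := (List.take_append_drop w d).symm
        rcases halt with hA | hB2
        · have F2 : ∀ a', 1 ≤ a' → a' < w → w ≤ a' + d.getD a' 0 + 1 := by
            intro a' ha1 haw
            rcases Nat.lt_or_ge (a' + 1) w with h1 | h1
            · have := hA a' (w - 1) (by omega) (by omega) (by omega)
              omega
            · omega
          have hcw : 1 ≤ d.getD (w - 1) 0 := by
            rcases Nat.eq_zero_or_pos (w - 1) with h1 | h1
            · rw [h1, hd0]; exact ha
            · by_contra hcon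
              apply hwmin (w - 1) (by omega)
              refine ⟨h1, ?_⟩
              intro i hi
              have := char_mono d hH i (w - 1) (by omega) (by omega)
              omega
          obtain ⟨B, hBd⟩ := char_block d hH w hw1 hwn hwS F2 (by rw [hd0]; exact ha) hcw
          rw [hsplit, hBd]
          exact epos_link B _ hLne ihL
        · have hlt : (d.take w).length = w := by
            rw [List.length_take]; omega
          have hstrip := strip_H1 (d.take w) (d.drop w)
            (by
              intro i hi
              rw [hlt] at hi
              rw [char_getD_take d w i hi]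
              exact hB2 i (by omega) hi)
            (by rw [← hsplit]; exact hH)
            (by
              intro i hi
              rw [hlt] at hi
              rw [hlt, char_getD_take d w i hi]
              exact hwS i hi)
            hLne ihL
          rw [hsplit]
          exact hstrip.1

/-- e-positivity for all natural unit interval graphs each of whose blocks either has pairwise
adjacent interior vertices or consists of vertices with at most two later neighbours -/
theorem epos_blockwise (d : List ℕ) (hH : IsHess d) (hB : BlockCond d) :
    ∃ F : MvPolynomial ℕ ℕ[X], ∀ N, chromQSym N d = evE N F := by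
  obtain ⟨F, hF⟩ := unified_H1 d.length d rfl hH hB 0
  exact ⟨F, fun N => by rw [chromQSym_eq, ← PhiP_zero, ← hF]⟩

end Vale.Agent.Lib.P066
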